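import Mathlib

/-!
# Finite stationary reversible chains: basic facts

Elementary finite-sum facts about powers of a reversible stochastic matrix.
-/

namespace Vale.Agent.Lib.P125

open Finset BigOperators Matrix

set_option linter.unusedSectionVars false

variable {S : Type*} [Fintype S] [DecidableEq S]

/-- A stochastic matrix: nonnegative entries and rows summing to one. -/
def IsStoch (K : Matrix S S ℝ) : Prop :=
  (∀ a b, 0 ≤ K a b) ∧ ∀ a, ∑ b, K a b = 1

lemma IsStoch.one : IsStoch (1 : Matrix S S ℝ) := by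
  constructor
  · intro a b
    rw [Matrix.one_apply]
    split_ifs <;> norm_num
  · intro a
    simp [Matrix.one_apply]

lemma IsStoch.mul {K L : Matrix S S ℝ} (hK : IsStoch K) (hL : IsStoch L) :
    IsStoch (K * L) := by
  constructor
  · intro a b
    rw [Matrix.mul_apply]
    exact Finset.sum_nonneg fun c _ => mul_nonneg (hK.1 a c) (hL.1 c b)
  · intro a
    simp only [Matrix.mul_apply]
    rw [Finset.sum_comm]
    simp only [← Finset.mul_sum, hL.2, mul_one, hK.2]

lemma IsStoch.pow {K : Matrix S S ℝ} (hK : IsStoch K) (n : ℕ) : IsStoch (K ^ n) := by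
  induction n with
  | zero => simpa using IsStoch.one
  | succ n ih => rw [pow_succ]; exact ih.mul hK

lemma IsStoch.le_one {K : Matrix S S ℝ} (hK : IsStoch K) (a b : S) : K a b ≤ 1 := by
  rw [← hK.2 a]
  exact Finset.single_le_sum (f := fun c => K a c) (fun c _ => hK.1 a c) (Finset.mem_univ b)

/-- A stationary reversible chain on a finite set. -/
structure Chain (S : Type*) [Fintype S] [DecidableEq S] where
  w : S → ℝ
  P : Matrix S S ℝ
  w_nonneg : ∀ a, 0 ≤ w a
  w_sum : ∑ a, w a = 1
  stoch : IsStoch P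
  rev : ∀ a b, w a * P a b = w b * P b a

namespace Chain

variable (c : Chain S)

lemma pow_rev (t : ℕ) (a b : S) : c.w a * (c.P ^ t) a b = c.w b * (c.P ^ t) b a := by
  induction t generalizing a b with
  | zero =>
    simp only [pow_zero, Matrix.one_apply]
    by_cases h : a = b
    · subst h; simp
    · have h' : b ≠ a := fun e => h e.symm
      simp [h, h']
  | succ t ih =>
    have h1 : (c.P ^ (t + 1)) a b = ∑ d, (c.P ^ t) a d * c.P d b := by
      rw [pow_succ, Matrix.mul_apply]
    have h2 : (c.P ^ (t + 1)) b a = ∑ d, c.P b d * (c.P ^ t) d a := by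
      rw [pow_succ', Matrix.mul_apply]
    rw [h1, h2, Finset.mul_sum, Finset.mul_sum]
    refine Finset.sum_congr rfl fun d _ => ?_
    calc c.w a * ((c.P ^ t) a d * c.P d b) = (c.w a * (c.P ^ t) a d) * c.P d b := by ring
      _ = (c.w d * (c.P ^ t) d a) * c.P d b := by rw [ih]
      _ = (c.w d * c.P d b) * (c.P ^ t) d a := by ring
      _ = (c.w b * c.P b d) * (c.P ^ t) d a := by rw [c.rev]
      _ = c.w b * (c.P b d * (c.P ^ t) d a) := by ring

lemma pow_stoch (t : ℕ) : IsStoch (c.P ^ t) := c.stoch.pow t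

lemma stat (K : Matrix S S ℝ) (hK : IsStoch K)
    (hrev : ∀ a b, c.w a * K a b = c.w b * K b a) (b : S) :
    ∑ a, c.w a * K a b = c.w b := by
  calc ∑ a, c.w a * K a b = ∑ a, c.w b * K b a := Finset.sum_congr rfl fun a _ => hrev a b
    _ = c.w b * ∑ a, K b a := by rw [Finset.mul_sum]
    _ = c.w b := by rw [hK.2, mul_one]

lemma pow_stat (t : ℕ) (b : S) : ∑ a, c.w a * (c.P ^ t) a b = c.w b :=
  c.stat _ (c.pow_stoch t) (c.pow_rev t) b

/-- Stationarity in integrated form. -/
lemma pow_stat_sum (t : ℕ) (h : S → ℝ) :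
    ∑ a, c.w a * ∑ b, (c.P ^ t) a b * h b = ∑ b, c.w b * h b := by
  calc ∑ a, c.w a * ∑ b, (c.P ^ t) a b * h b
      = ∑ a, ∑ b, (c.w a * (c.P ^ t) a b) * h b := by
        refine Finset.sum_congr rfl fun a _ => ?_
        rw [Finset.mul_sum]
        exact Finset.sum_congr rfl fun b _ => by ring
    _ = ∑ b, ∑ a, (c.w a * (c.P ^ t) a b) * h b := Finset.sum_comm
    _ = ∑ b, (∑ a, c.w a * (c.P ^ t) a b) * h b := by
        refine Finset.sum_congr rfl fun b _ => ?_
        rw [Finset.sum_mul]
    _ = ∑ b, c.w b * h b := by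
        refine Finset.sum_congr rfl fun b _ => ?_
        rw [c.pow_stat]

/-- Self-adjointness of the powers. -/
lemma pow_selfadj (t : ℕ) (f g : S → ℝ) :
    ∑ a, c.w a * f a * ∑ b, (c.P ^ t) a b * g b
      = ∑ a, c.w a * g a * ∑ b, (c.P ^ t) a b * f b := by
  calc ∑ a, c.w a * f a * ∑ b, (c.P ^ t) a b * g b
      = ∑ a, ∑ b, (c.w a * (c.P ^ t) a b) * (f a * g b) := by
        refine Finset.sum_congr rfl fun a _ => ?_
        rw [Finset.mul_sum]
        exact Finset.sum_congr rfl fun b _ => by ring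
    _ = ∑ a, ∑ b, (c.w b * (c.P ^ t) b a) * (f a * g b) := by
        refine Finset.sum_congr rfl fun a _ => Finset.sum_congr rfl fun b _ => ?_
        rw [c.pow_rev]
    _ = ∑ b, ∑ a, (c.w b * (c.P ^ t) b a) * (f a * g b) := Finset.sum_comm
    _ = ∑ a, c.w a * g a * ∑ b, (c.P ^ t) a b * f b := by
        refine Finset.sum_congr rfl fun a _ => ?_
        rw [Finset.mul_sum]
        exact Finset.sum_congr rfl fun b _ => by ring

/-- Dirichlet form identity. -/
lemma dirichlet (f h : S → ℝ) :
    ∑ a, ∑ b, c.w a * c.P a b * ((f b - f a) * (h b - h a))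
      = 2 * ∑ a, c.w a * f a * (h a - ∑ b, c.P a b * h b) := by
  have hstat : ∑ a, ∑ b, c.w a * c.P a b * (f b * h b) = ∑ a, c.w a * f a * h a := by
    have := c.pow_stat_sum 1 (fun b => f b * h b)
    simp only [pow_one] at this
    calc ∑ a, ∑ b, c.w a * c.P a b * (f b * h b)
        = ∑ a, c.w a * ∑ b, c.P a b * (f b * h b) := by
          refine Finset.sum_congr rfl fun a _ => ?_
          rw [Finset.mul_sum]
          exact Finset.sum_congr rfl fun b _ => by ring
      _ = ∑ b, c.w b * (f b * h b) := this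
      _ = ∑ a, c.w a * f a * h a := Finset.sum_congr rfl fun a _ => by ring
  have h1 : ∑ a, ∑ b, c.w a * c.P a b * (f a * h b)
      = ∑ a, c.w a * f a * ∑ b, c.P a b * h b := by
    refine Finset.sum_congr rfl fun a _ => ?_
    rw [Finset.mul_sum]
    exact Finset.sum_congr rfl fun b _ => by ring
  have h2 : ∑ a, ∑ b, c.w a * c.P a b * (f b * h a)
      = ∑ a, c.w a * f a * ∑ b, c.P a b * h b := by
    have := c.pow_selfadj 1 f h
    simp only [pow_one] at this
    rw [this]
    refine Finset.sum_congr rfl fun a _ => ?_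
    rw [Finset.mul_sum]
    exact Finset.sum_congr rfl fun b _ => by ring
  have h3 : ∑ a, ∑ b, c.w a * c.P a b * (f a * h a) = ∑ a, c.w a * f a * h a := by
    refine Finset.sum_congr rfl fun a _ => ?_
    have : ∑ b, c.w a * c.P a b * (f a * h a) = c.w a * (f a * h a) * ∑ b, c.P a b := by
      rw [Finset.mul_sum]
      exact Finset.sum_congr rfl fun b _ => by ring
    rw [this, c.stoch.2, mul_one]
    ring
  have hexp : ∀ a b, c.w a * c.P a b * ((f b - f a) * (h b - h a))
      = c.w a * c.P a b * (f b * h b) - c.w a * c.P a b * (f b * h a)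
        - c.w a * c.P a b * (f a * h b) + c.w a * c.P a b * (f a * h a) := by
    intro a b; ring
  simp only [hexp, Finset.sum_add_distrib, Finset.sum_sub_distrib]
  rw [hstat, h1, h2, h3]
  rw [Finset.mul_sum]
  have : ∑ a, c.w a * f a * (h a - ∑ b, c.P a b * h b)
      = ∑ a, c.w a * f a * h a - ∑ a, c.w a * f a * ∑ b, c.P a b * h b := by
    rw [← Finset.sum_sub_distrib]
    exact Finset.sum_congr rfl fun a _ => by ring
  rw [← Finset.mul_sum, this]
  ring

end Chain

end Vale.Agent.Lib.P125
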