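import Mathlib

/-!
Sup norm on `range (N+1)`, plateau first points, and the abstract doubling inequality:
if `a_w` are functions on `0..N` with variation at most `m`, vanishing at `0`, sampled
independently twice from `ν`, then the square of the sup norm of the difference has mean at
most `31/8` of the second moment of the sup norm plus an error governed by `S`, the largest
second moment at one fixed point.
-/

open Finset

namespace Vale.Agent.Lib.P125

/-- sup norm on `0..N` -/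
noncomputable def nrm (N : ℕ) (a : ℕ → ℝ) : ℝ :=
  (range (N + 1)).sup' ⟨0, by simp⟩ (fun x => |a x|)

lemma le_nrm (N : ℕ) (a : ℕ → ℝ) {x : ℕ} (hx : x ≤ N) : |a x| ≤ nrm N a :=
  Finset.le_sup' (fun x => |a x|) (mem_range.mpr (by omega))

lemma nrm_le {N : ℕ} {a : ℕ → ℝ} {c : ℝ} (h : ∀ x ≤ N, |a x| ≤ c) : nrm N a ≤ c :=
  Finset.sup'_le _ _ (fun x hx => h x (by have := mem_range.mp hx; omega))

lemma exists_nrm (N : ℕ) (a : ℕ → ℝ) : ∃ x ≤ N, |a x| = nrm N a := by
  obtain ⟨x, hx, h⟩ := Finset.exists_mem_eq_sup' (s := range (N + 1)) ⟨0, by simp⟩ (fun x => |a x|)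
  exact ⟨x, by have := mem_range.mp hx; omega, h.symm⟩

lemma nrm_nonneg (N : ℕ) (a : ℕ → ℝ) : 0 ≤ nrm N a :=
  le_trans (abs_nonneg _) (le_nrm N a (Nat.zero_le N))

lemma nrm_sub_le (N : ℕ) (a b : ℕ → ℝ) : nrm N (fun x => a x - b x) ≤ nrm N a + nrm N b := by
  refine nrm_le (fun x hx => ?_)
  calc |a x - b x| ≤ |a x| + |b x| := abs_sub _ _
    _ ≤ _ := add_le_add (le_nrm N a hx) (le_nrm N b hx)

/-- cumulative variation -/
noncomputable def tv (a : ℕ → ℝ) (x : ℕ) : ℝ := ∑ y ∈ range x, |a (y + 1) - a y|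

lemma tv_nonneg (a : ℕ → ℝ) (x : ℕ) : 0 ≤ tv a x := sum_nonneg (fun _ _ => abs_nonneg _)

lemma tv_mono (a : ℕ → ℝ) {x y : ℕ} (h : x ≤ y) : tv a x ≤ tv a y :=
  sum_le_sum_of_subset_of_nonneg (range_subset_range.mpr h) (fun _ _ _ => abs_nonneg _)

lemma abs_sub_le_tv (a : ℕ → ℝ) {y z : ℕ} (h : y ≤ z) : |a z - a y| ≤ tv a z - tv a y := by
  induction z, h using Nat.le_induction with
  | base => simp
  | succ z hz ih =>
    have h1 : tv a (z + 1) = tv a z + |a (z + 1) - a z| := by simp [tv, sum_range_succ]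
    have h2 : |a (z + 1) - a y| ≤ |a (z + 1) - a z| + |a z - a y| := by
      have := abs_add_le (a (z + 1) - a z) (a z - a y)
      have h3 : a (z + 1) - a z + (a z - a y) = a (z + 1) - a y := by ring
      rwa [h3] at this
    rw [h1]; linarith

open Classical in
/-- first points of the plateaus of `a` reaching above `A` within the level set `B ≤ |a|` -/
noncomputable def plat (N : ℕ) (a : ℕ → ℝ) (A B : ℝ) : Finset ℕ :=
  (range (N + 1)).filter (fun x => A < |a x| ∧
    ¬ ∃ y, y < x ∧ A < |a y| ∧ ∀ z, y ≤ z → z ≤ x → B ≤ |a z|)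

lemma plat_cover {N : ℕ} {a : ℕ → ℝ} {A B : ℝ} (hBA : B ≤ A) {x : ℕ} (hx : x ≤ N)
    (hxA : A < |a x|) :
    ∃ e ∈ plat N a A B, e ≤ x ∧ ∀ z, e ≤ z → z ≤ x → B ≤ |a z| := by
  classical
  have hex : ∃ y, y ≤ x ∧ A < |a y| ∧ ∀ z, y ≤ z → z ≤ x → B ≤ |a z| := by
    refine ⟨x, le_rfl, hxA, fun z h1 h2 => ?_⟩
    have : z = x := le_antisymm h2 h1
    subst this
    linarith
  obtain ⟨he1, he2, he3⟩ := Nat.find_spec hex
  refine ⟨Nat.find hex, ?_, he1, he3⟩
  unfold plat
  refine mem_filter.mpr ⟨mem_range.mpr (by omega), he2, ?_⟩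
  rintro ⟨y, hy1, hy2, hy3⟩
  refine Nat.find_min hex hy1 ⟨by omega, hy2, fun z hz1 hz2 => ?_⟩
  rcases le_total z (Nat.find hex) with h | h
  · exact hy3 z hz1 h
  · exact he3 z h hz2

lemma mem_plat_le {N : ℕ} {a : ℕ → ℝ} {A B : ℝ} {e : ℕ} (he : e ∈ plat N a A B) : e ≤ N := by
  unfold plat at he
  have := mem_range.mp (mem_filter.mp he).1
  omega

lemma plat_card {N : ℕ} {a : ℕ → ℝ} {A B h m : ℝ} (hh : 0 < h) (hAB : h ≤ A - B)
    (hm : tv a N ≤ m) : ((plat N a A B).card : ℝ) ≤ m / h + 1 := by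
  classical
  have hm0 : 0 ≤ m := le_trans (tv_nonneg a N) hm
  have key : ∀ e₁ ∈ plat N a A B, ∀ e₂ ∈ plat N a A B, e₁ < e₂ →
      ⌊tv a e₁ / h⌋₊ + 1 ≤ ⌊tv a e₂ / h⌋₊ := by
    intro e₁ he₁ e₂ he₂ hlt
    unfold plat at he₁ he₂
    obtain ⟨-, h1, -⟩ := mem_filter.mp he₁
    obtain ⟨-, -, h2⟩ := mem_filter.mp he₂
    have h3 : ¬ ∀ z, e₁ ≤ z → z ≤ e₂ → B ≤ |a z| := fun hall => h2 ⟨e₁, hlt, h1, hall⟩
    push Not at h3
    obtain ⟨z, hz1, hz2, hz3⟩ := h3
    have h4 := abs_sub_le_tv a hz1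
    have h5 := tv_mono a hz2
    have h6 : |a e₁| - |a z| ≤ |a z - a e₁| := by
      have := abs_sub_abs_le_abs_sub (a e₁) (a z)
      rwa [abs_sub_comm (a e₁)] at this
    have h7 : tv a e₁ + h ≤ tv a e₂ := by linarith
    have h8 : tv a e₁ / h + 1 ≤ tv a e₂ / h := by
      rw [div_add_one hh.ne']
      exact div_le_div_of_nonneg_right h7 hh.le
    have h9 : 0 ≤ tv a e₁ / h := div_nonneg (tv_nonneg _ _) hh.le
    calc ⌊tv a e₁ / h⌋₊ + 1 = ⌊tv a e₁ / h + 1⌋₊ := (Nat.floor_add_one h9).symm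
      _ ≤ _ := Nat.floor_le_floor h8
  have hinj : Set.InjOn (fun e => ⌊tv a e / h⌋₊) (plat N a A B : Set ℕ) := by
    intro e₁ he₁ e₂ he₂ heq
    rcases lt_trichotomy e₁ e₂ with hlt | heq' | hlt
    · have := key e₁ he₁ e₂ he₂ hlt
      simp only at heq
      omega
    · exact heq'
    · have := key e₂ he₂ e₁ he₁ hlt
      simp only at heq
      omega
  have hmaps : ∀ e ∈ plat N a A B, ⌊tv a e / h⌋₊ ∈ range (⌊m / h⌋₊ + 1) := by
    intro e he
    refine mem_range.mpr (Nat.lt_succ_of_le (Nat.floor_le_floor ?_))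
    exact div_le_div_of_nonneg_right (le_trans (tv_mono a (mem_plat_le he)) hm) hh.le
  have hcard := card_le_card_of_injOn _ hmaps hinj
  rw [card_range] at hcard
  calc ((plat N a A B).card : ℝ) ≤ ((⌊m / h⌋₊ + 1 : ℕ) : ℝ) := by exact_mod_cast hcard
    _ = (⌊m / h⌋₊ : ℝ) + 1 := by push_cast; ring
    _ ≤ m / h + 1 := by
      have := Nat.floor_le (div_nonneg hm0 hh.le)
      linarith

/-- the collision alternative -/
lemma collision {N : ℕ} {a a' : ℕ → ℝ} {h : ℝ} (hh : 0 ≤ h)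
    (hc : nrm N a + nrm N a' - h < nrm N (fun x => a x - a' x)) :
    (∃ e ∈ plat N a (nrm N a - h) (nrm N a - 2 * h), nrm N a' - 2 * h ≤ |a' e|) ∨
    (∃ e ∈ plat N a' (nrm N a' - h) (nrm N a' - 2 * h), nrm N a - 2 * h ≤ |a e|) := by
  obtain ⟨x, hx, hxe⟩ := exists_nrm N (fun x => a x - a' x)
  have h1 : |a x - a' x| ≤ |a x| + |a' x| := abs_sub _ _
  have h2 := le_nrm N a hx
  have h3 := le_nrm N a' hx
  have h4 : nrm N a - h < |a x| := by linarith
  have h5 : nrm N a' - h < |a' x| := by linarith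
  have h6 : nrm N a - 2 * h ≤ nrm N a - h := by linarith
  have h7 : nrm N a' - 2 * h ≤ nrm N a' - h := by linarith
  obtain ⟨e, he, hex, hep⟩ := plat_cover h6 hx h4
  obtain ⟨e', he', hex', hep'⟩ := plat_cover h7 hx h5
  rcases le_total e e' with hle | hle
  · exact Or.inr ⟨e', he', hep e' hle hex'⟩
  · exact Or.inl ⟨e, he, hep' e hle hex⟩

/-- the pointwise inequality in the doubling step -/
lemma pointwise_doubling {L L' n0 ell c : ℝ} (hL : 0 ≤ L) (hL' : 0 ≤ L') (hn0 : 0 ≤ n0)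
    (hn : n0 ≤ L + L') (hell : 0 < ell) (hc0 : 0 ≤ c)
    (hc : ell / 2 ≤ L → ell / 2 ≤ L' → L + L' - ell / 8 < n0 → 1 ≤ c) :
    n0 ^ 2 ≤ (L + L') ^ 2 - ell ^ 2 / 8 + (L - ell) ^ 2 / 2 + (L' - ell) ^ 2 / 2
      + ell ^ 2 / 8 * c := by
  have hbase : n0 ^ 2 ≤ (L + L') ^ 2 := by nlinarith
  have hell2 : 0 ≤ ell ^ 2 / 8 * c := by positivity
  have hA : 0 ≤ (L - ell) ^ 2 / 2 := by positivity
  have hB : 0 ≤ (L' - ell) ^ 2 / 2 := by positivity
  by_cases h1 : ell / 2 ≤ L
  · by_cases h2 : ell / 2 ≤ L'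
    · by_cases h3 : L + L' - ell / 8 < n0
      · have := hc h1 h2 h3
        have h4 : ell ^ 2 / 8 * 1 ≤ ell ^ 2 / 8 * c :=
          mul_le_mul_of_nonneg_left this (by positivity)
        linarith
      · push Not at h3
        have h5 : 0 ≤ L + L' - ell / 8 := by linarith
        have h6 : n0 ^ 2 ≤ (L + L' - ell / 8) ^ 2 := by nlinarith
        have h7 : (L + L' - ell / 8) ^ 2 ≤ (L + L') ^ 2 - ell ^ 2 / 8 := by
          nlinarith [mul_pos hell hell]
        linarith
    · push Not at h2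
      have h8 : ell ^ 2 / 8 ≤ (L' - ell) ^ 2 / 2 := by nlinarith
      linarith
  · push Not at h1
    have h8 : ell ^ 2 / 8 ≤ (L - ell) ^ 2 / 2 := by nlinarith
    linarith

/-- the abstract doubling inequality -/
theorem doubling_abstract {W : Type*} [Fintype W] (ν : W → ℝ) (hν0 : ∀ w, 0 ≤ ν w)
    (hν1 : ∑ w, ν w = 1) (N : ℕ) (a : W → ℕ → ℝ) (m : ℝ)
    (h0 : ∀ w, 0 < ν w → a w 0 = 0)
    (hTV : ∀ w, 0 < ν w → tv (a w) N ≤ m)
    (S : ℝ) (hS : ∀ x ≤ N, ∑ w, ν w * (a w x) ^ 2 ≤ S)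
    (lam : ℝ) (hlam : 0 < lam) :
    ∑ w, ∑ w', ν w * ν w' * (nrm N (fun x => a w x - a w' x)) ^ 2
      ≤ (31 / 8) * ∑ w, ν w * (nrm N (a w)) ^ 2 + (1 / 8) * (lam ^ 2 + 288 * m * S / lam) := by
  classical
  -- names for the sup norms
  set L : W → ℝ := fun w => nrm N (a w) with hLdef
  have hL0 : ∀ w, 0 ≤ L w := fun w => nrm_nonneg N (a w)
  set ell : ℝ := ∑ w, ν w * L w with hell
  set s2 : ℝ := ∑ w, ν w * (L w) ^ 2 with hs2
  have hell0 : 0 ≤ ell := sum_nonneg (fun w _ => mul_nonneg (hν0 w) (hL0 w))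
  have hs20 : 0 ≤ s2 := sum_nonneg (fun w _ => mul_nonneg (hν0 w) (sq_nonneg _))
  -- the support is nonempty
  have hsupp : ∃ w, 0 < ν w := by
    by_contra hno
    push Not at hno
    have : ∑ w, ν w ≤ 0 := sum_nonpos (fun w _ => hno w)
    linarith
  obtain ⟨w₀, hw₀⟩ := hsupp
  have hm0 : 0 ≤ m := le_trans (tv_nonneg _ _) (hTV w₀ hw₀)
  have hS0 : 0 ≤ S := le_trans (sum_nonneg (fun w _ => mul_nonneg (hν0 w) (sq_nonneg _))) (hS 0 (Nat.zero_le N))
  -- sup norm at most m on the support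
  have hLm : ∀ w, 0 < ν w → L w ≤ m := by
    intro w hw
    refine nrm_le (fun x hx => ?_)
    have h1 := abs_sub_le_tv (a w) (Nat.zero_le x)
    rw [h0 w hw, sub_zero] at h1
    have h2 : tv (a w) 0 = 0 := by simp [tv]
    have h3 := tv_mono (a w) hx
    have h4 := hTV w hw
    linarith
  have hellm : ell ≤ m := by
    calc ell ≤ ∑ w, ν w * m := by
          refine sum_le_sum (fun w _ => ?_)
          rcases (hν0 w).eq_or_lt with h | h
          · rw [← h]; simp
          · exact mul_le_mul_of_nonneg_left (hLm w h) (hν0 w)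
      _ = m := by rw [← sum_mul, hν1, one_mul]
  -- Jensen
  have hvar : ∑ w, ν w * (L w - ell) ^ 2 = s2 - ell ^ 2 := by
    have : ∀ w, ν w * (L w - ell) ^ 2 = ν w * (L w) ^ 2 - 2 * ell * (ν w * L w) + ell ^ 2 * ν w := by
      intro w; ring
    simp_rw [this]
    rw [sum_add_distrib, sum_sub_distrib, ← mul_sum, ← mul_sum, hν1, ← hell, ← hs2]
    ring
  have hjensen : ell ^ 2 ≤ s2 := by
    have : 0 ≤ ∑ w, ν w * (L w - ell) ^ 2 := sum_nonneg (fun w _ => mul_nonneg (hν0 w) (sq_nonneg _))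
    rw [hvar] at this
    linarith
  have hRHS0 : 0 ≤ (1 / 8) * (lam ^ 2 + 288 * m * S / lam) := by positivity
  -- product weights
  have hprod : ∀ g : W → ℝ, ∑ w, ∑ w', ν w * ν w' * g w = ∑ w, ν w * g w := by
    intro g
    refine sum_congr rfl (fun w _ => ?_)
    have : ∀ w', ν w * ν w' * g w = (ν w * g w) * ν w' := fun w' => by ring
    simp_rw [this]
    rw [← mul_sum, hν1, mul_one]
  have hprod' : ∀ g : W → ℝ, ∑ w, ∑ w', ν w * ν w' * g w' = ∑ w, ν w * g w := by
    intro g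
    have : ∀ w, ∑ w', ν w * ν w' * g w' = ν w * ∑ w', ν w' * g w' := by
      intro w
      rw [mul_sum]
      exact sum_congr rfl (fun w' _ => by ring)
    simp_rw [this]
    rw [← sum_mul, hν1, one_mul]
  -- the degenerate case
  rcases hell0.eq_or_lt with hzero | hpos
  · have hLz : ∀ w, 0 < ν w → L w = 0 := by
      intro w hw
      have h1 : ν w * L w ≤ ell :=
        single_le_sum (f := fun w => ν w * L w) (fun w _ => mul_nonneg (hν0 w) (hL0 w)) (mem_univ w)
      rw [← hzero] at h1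
      have h2 : ν w * L w = 0 := le_antisymm h1 (mul_nonneg (hν0 w) (hL0 w))
      rcases mul_eq_zero.mp h2 with h | h
      · exact absurd h hw.ne'
      · exact h
    have hterm : ∀ w w', ν w * ν w' * (nrm N (fun x => a w x - a w' x)) ^ 2 = 0 := by
      intro w w'
      rcases (hν0 w).eq_or_lt with h | h
      · rw [← h]; simp
      rcases (hν0 w').eq_or_lt with h' | h'
      · rw [← h']; simp
      have h1 := nrm_sub_le N (a w) (a w')
      have h2 : L w = 0 := hLz w h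
      have h3 : L w' = 0 := hLz w' h'
      simp only [hLdef] at h2 h3
      rw [h2, h3] at h1
      have h4 := nrm_nonneg N (fun x => a w x - a w' x)
      have h5 : nrm N (fun x => a w x - a w' x) = 0 := le_antisymm (by linarith) h4
      rw [h5]; ring
    simp_rw [hterm]
    simp only [sum_const_zero]
    have : 0 ≤ (31 / 8) * s2 := by positivity
    linarith
  -- the main case
  set h : ℝ := ell / 8 with hh
  have hhpos : 0 < h := by positivity
  set E : W → Finset ℕ := fun w => plat N (a w) (L w - h) (L w - 2 * h) with hE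
  set Cnd : W → W → Prop := fun w w' => ell / 2 ≤ L w ∧ ell / 2 ≤ L w' ∧
    L w + L w' - h < nrm N (fun x => a w x - a w' x) with hCnd
  set C : W → W → ℝ := fun w w' => if Cnd w w' then 1 else 0 with hC
  have hC0 : ∀ w w', 0 ≤ C w w' := by
    intro w w'; simp only [hC]; split_ifs <;> norm_num
  have hC1 : ∀ w w', C w w' ≤ 1 := by
    intro w w'; simp only [hC]; split_ifs <;> norm_num
  -- pointwise main inequality
  have hpt : ∀ w w', (nrm N (fun x => a w x - a w' x)) ^ 2 ≤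
      (L w + L w') ^ 2 - ell ^ 2 / 8 + (L w - ell) ^ 2 / 2 + (L w' - ell) ^ 2 / 2
        + ell ^ 2 / 8 * C w w' := by
    intro w w'
    refine pointwise_doubling (hL0 w) (hL0 w') (nrm_nonneg _ _) (nrm_sub_le N _ _) hpos (hC0 w w') ?_
    intro h1 h2 h3
    have : Cnd w w' := ⟨h1, h2, h3⟩
    simp only [hC, this, if_true, le_refl]
  -- the probability of a collision
  set PC : ℝ := ∑ w, ∑ w', ν w * ν w' * C w w' with hPC
  have hPC1 : PC ≤ 1 := by
    calc PC ≤ ∑ w, ∑ w', ν w * ν w' * 1 := by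
          refine sum_le_sum (fun w _ => sum_le_sum (fun w' _ => ?_))
          exact mul_le_mul_of_nonneg_left (hC1 w w') (mul_nonneg (hν0 w) (hν0 w'))
      _ = 1 := by
          have := hprod (fun _ => 1)
          simp only [mul_one] at this ⊢
          rw [this, hν1]
  have hPC0 : 0 ≤ PC := sum_nonneg (fun w _ => sum_nonneg (fun w' _ =>
    mul_nonneg (mul_nonneg (hν0 w) (hν0 w')) (hC0 w w')))
  -- union bound
  set T : W → W → ℝ := fun w w' => ∑ e ∈ E w, (a w' e) ^ 2 * (16 / ell ^ 2) with hT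
  have hT0 : ∀ w w', 0 ≤ T w w' := fun w w' => sum_nonneg (fun e _ => by positivity)
  have hCT : ∀ w w', C w w' ≤ T w w' + T w' w := by
    intro w w'
    by_cases hcnd : Cnd w w'
    · simp only [hC, hcnd, if_true]
      obtain ⟨h1, h2, h3⟩ := hcnd
      have hcoll := collision (N := N) (a := a w) (a' := a w') hhpos.le h3
      rcases hcoll with ⟨e, he, hee⟩ | ⟨e, he, hee⟩
      · have h4 : ell / 4 ≤ |a w' e| := by
          have : nrm N (a w') = L w' := rfl
          rw [this] at hee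
          simp only [hh] at hee
          linarith
        have h5 : (ell / 4) ^ 2 ≤ (a w' e) ^ 2 := by
          rw [← sq_abs (a w' e)]
          exact pow_le_pow_left₀ (by positivity) h4 2
        have h6 : 1 ≤ (a w' e) ^ 2 * (16 / ell ^ 2) := by
          rw [mul_div_assoc', le_div_iff₀ (by positivity)]
          nlinarith
        have h7 : (a w' e) ^ 2 * (16 / ell ^ 2) ≤ T w w' :=
          single_le_sum (f := fun e => (a w' e) ^ 2 * (16 / ell ^ 2))
            (fun e _ => by positivity) he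
        linarith [hT0 w' w]
      · have h4 : ell / 4 ≤ |a w e| := by
          have : nrm N (a w) = L w := rfl
          rw [this] at hee
          simp only [hh] at hee
          linarith
        have h5 : (ell / 4) ^ 2 ≤ (a w e) ^ 2 := by
          rw [← sq_abs (a w e)]
          exact pow_le_pow_left₀ (by positivity) h4 2
        have h6 : 1 ≤ (a w e) ^ 2 * (16 / ell ^ 2) := by
          rw [mul_div_assoc', le_div_iff₀ (by positivity)]
          nlinarith
        have h7 : (a w e) ^ 2 * (16 / ell ^ 2) ≤ T w' w :=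
          single_le_sum (f := fun e => (a w e) ^ 2 * (16 / ell ^ 2))
            (fun e _ => by positivity) he
        linarith [hT0 w w']
    · simp only [hC, hcnd, if_false]
      exact add_nonneg (hT0 w w') (hT0 w' w)
  -- one half of the union bound
  have hTsum : ∑ w, ∑ w', ν w * ν w' * T w w' ≤ 144 * m * S / ell ^ 3 := by
    have hin : ∀ w, ∑ w', ν w * ν w' * T w w' ≤ ν w * (144 * m * S / ell ^ 3) := by
      intro w
      rcases (hν0 w).eq_or_lt with hw | hw
      · rw [← hw]; simp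
      have h1 : ∑ w', ν w * ν w' * T w w'
          = ν w * ∑ e ∈ E w, (16 / ell ^ 2) * ∑ w', ν w' * (a w' e) ^ 2 := by
        simp only [hT]
        rw [mul_sum]
        simp_rw [mul_sum]
        rw [sum_comm]
        refine sum_congr rfl (fun e _ => sum_congr rfl (fun w' _ => ?_))
        ring
      rw [h1]
      refine mul_le_mul_of_nonneg_left ?_ (hν0 w)
      have h2 : ∑ e ∈ E w, (16 / ell ^ 2) * ∑ w', ν w' * (a w' e) ^ 2
          ≤ ∑ e ∈ E w, (16 / ell ^ 2) * S := by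
        refine sum_le_sum (fun e he => mul_le_mul_of_nonneg_left ?_ (by positivity))
        exact hS e (mem_plat_le he)
      have h3 : ((E w).card : ℝ) ≤ m / h + 1 :=
        plat_card hhpos (by linarith) (hTV w hw)
      have h4 : m / h + 1 ≤ 9 * m / ell := by
        rw [hh, div_div_eq_mul_div, div_add_one hpos.ne']
        apply div_le_div_of_nonneg_right _ hpos.le
        linarith
      rw [sum_const, nsmul_eq_mul] at h2
      have h5 : ((E w).card : ℝ) * (16 / ell ^ 2 * S) ≤ (9 * m / ell) * (16 / ell ^ 2 * S) :=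
        mul_le_mul_of_nonneg_right (le_trans h3 h4) (by positivity)
      have h6 : (9 * m / ell) * (16 / ell ^ 2 * S) = 144 * m * S / ell ^ 3 := by
        field_simp
        ring
      linarith
    calc ∑ w, ∑ w', ν w * ν w' * T w w' ≤ ∑ w, ν w * (144 * m * S / ell ^ 3) :=
          sum_le_sum (fun w _ => hin w)
      _ = 144 * m * S / ell ^ 3 := by rw [← sum_mul, hν1, one_mul]
  have hTsum' : ∑ w, ∑ w', ν w * ν w' * T w' w ≤ 144 * m * S / ell ^ 3 := by
    rw [sum_comm]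
    calc ∑ y, ∑ x, ν x * ν y * T y x = ∑ y, ∑ x, ν y * ν x * T y x := by
          refine sum_congr rfl (fun y _ => sum_congr rfl (fun x _ => ?_))
          ring
      _ ≤ _ := hTsum
  have hPCle : PC ≤ 288 * m * S / ell ^ 3 := by
    calc PC ≤ ∑ w, ∑ w', ν w * ν w' * (T w w' + T w' w) := by
          refine sum_le_sum (fun w _ => sum_le_sum (fun w' _ => ?_))
          exact mul_le_mul_of_nonneg_left (hCT w w') (mul_nonneg (hν0 w) (hν0 w'))
      _ = ∑ w, ∑ w', ν w * ν w' * T w w' + ∑ w, ∑ w', ν w * ν w' * T w' w := by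
          simp_rw [mul_add, sum_add_distrib]
      _ ≤ 144 * m * S / ell ^ 3 + 144 * m * S / ell ^ 3 := add_le_add hTsum hTsum'
      _ = 288 * m * S / ell ^ 3 := by ring
  -- final bound on the collision term
  have hfinal : ell ^ 2 * PC ≤ lam ^ 2 + 288 * m * S / lam := by
    have hq : 0 ≤ 288 * m * S / lam := by positivity
    rcases le_total ell lam with hl | hl
    · have h1 : ell ^ 2 * PC ≤ ell ^ 2 * 1 := mul_le_mul_of_nonneg_left hPC1 (by positivity)
      have h2 : ell ^ 2 ≤ lam ^ 2 := pow_le_pow_left₀ hpos.le hl 2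
      linarith
    · have h1 : ell ^ 2 * PC ≤ ell ^ 2 * (288 * m * S / ell ^ 3) :=
        mul_le_mul_of_nonneg_left hPCle (by positivity)
      have h2 : ell ^ 2 * (288 * m * S / ell ^ 3) = 288 * m * S / ell := by
        field_simp
      have h3 : 288 * m * S / ell ≤ 288 * m * S / lam :=
        div_le_div_of_nonneg_left (by positivity) hlam hl
      have h4 : 0 ≤ lam ^ 2 := by positivity
      linarith
  -- assemble
  have hsum1 : ∑ w, ∑ w', ν w * ν w' * ((L w + L w') ^ 2) = 2 * s2 + 2 * ell ^ 2 := by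
    have : ∀ w w', ν w * ν w' * ((L w + L w') ^ 2)
        = ν w * ν w' * (L w) ^ 2 + ν w * ν w' * (L w') ^ 2 + 2 * ((ν w * L w) * (ν w' * L w')) := by
      intro w w'; ring
    simp_rw [this, sum_add_distrib]
    rw [hprod (fun w => (L w) ^ 2), hprod' (fun w => (L w) ^ 2)]
    have h3 : ∑ w, ∑ w', 2 * ((ν w * L w) * (ν w' * L w')) = 2 * ell ^ 2 := by
      simp_rw [← mul_sum]
      rw [← hell, ← sum_mul, ← hell]
      ring
    rw [h3]
    ring
  have hsum2 : ∑ w, ∑ w', ν w * ν w' * ((L w - ell) ^ 2 / 2) = (s2 - ell ^ 2) / 2 := by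
    rw [hprod (fun w => (L w - ell) ^ 2 / 2)]
    rw [← hvar, sum_div]
    exact sum_congr rfl (fun w _ => by ring)
  have hsum3 : ∑ w, ∑ w', ν w * ν w' * ((L w' - ell) ^ 2 / 2) = (s2 - ell ^ 2) / 2 := by
    rw [hprod' (fun w => (L w - ell) ^ 2 / 2)]
    rw [← hvar, sum_div]
    exact sum_congr rfl (fun w _ => by ring)
  have hsum4 : ∑ w, ∑ w', ν w * ν w' * (ell ^ 2 / 8) = ell ^ 2 / 8 := by
    rw [hprod (fun _ => ell ^ 2 / 8), ← sum_mul, hν1, one_mul]
  have hmain : ∑ w, ∑ w', ν w * ν w' * (nrm N (fun x => a w x - a w' x)) ^ 2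
      ≤ ∑ w, ∑ w', (ν w * ν w' * ((L w + L w') ^ 2) - ν w * ν w' * (ell ^ 2 / 8)
          + ν w * ν w' * ((L w - ell) ^ 2 / 2) + ν w * ν w' * ((L w' - ell) ^ 2 / 2)
          + ell ^ 2 / 8 * (ν w * ν w' * C w w')) := by
    refine sum_le_sum (fun w _ => sum_le_sum (fun w' _ => ?_))
    have := mul_le_mul_of_nonneg_left (hpt w w') (mul_nonneg (hν0 w) (hν0 w'))
    calc _ ≤ _ := this
      _ = _ := by ring
  have hsum5 : ∑ w, ∑ w', ell ^ 2 / 8 * (ν w * ν w' * C w w') = ell ^ 2 / 8 * PC := by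
    simp_rw [← mul_sum]
    rfl
  have hexp : ∑ w, ∑ w', (ν w * ν w' * ((L w + L w') ^ 2) - ν w * ν w' * (ell ^ 2 / 8)
          + ν w * ν w' * ((L w - ell) ^ 2 / 2) + ν w * ν w' * ((L w' - ell) ^ 2 / 2)
          + ell ^ 2 / 8 * (ν w * ν w' * C w w'))
      = (2 * s2 + 2 * ell ^ 2) - ell ^ 2 / 8 + (s2 - ell ^ 2) / 2 + (s2 - ell ^ 2) / 2
          + ell ^ 2 / 8 * PC := by
    simp only [sum_add_distrib, sum_sub_distrib]
    rw [hsum1, hsum2, hsum3, hsum4, hsum5]
  rw [hexp] at hmain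
  have hfin : (2 * s2 + 2 * ell ^ 2) - ell ^ 2 / 8 + (s2 - ell ^ 2) / 2 + (s2 - ell ^ 2) / 2
          + ell ^ 2 / 8 * PC ≤ (31 / 8) * s2 + (1 / 8) * (lam ^ 2 + 288 * m * S / lam) := by
    have h1 : ell ^ 2 / 8 * PC = (1 / 8) * (ell ^ 2 * PC) := by ring
    rw [h1]
    have h2 : (1 / 8) * (ell ^ 2 * PC) ≤ (1 / 8) * (lam ^ 2 + 288 * m * S / lam) :=
      mul_le_mul_of_nonneg_left hfinal (by norm_num)
    nlinarith
  exact le_trans hmain hfin

end Vale.Agent.Lib.P125
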