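import Mathlib

/-!
Three-walker functional on a finite linear order `range n`, with atoms handled exactly.
`tri n a b c` is the probability (for probability vectors) that a sample of `a` beats
independent samples of `b` and `c`, ties broken by fresh uniform noise.
-/

open Finset

namespace Vale.Agent.Lib.P125

/-- left cumulative sum -/
noncomputable def cum (a : ℕ → ℝ) (i : ℕ) : ℝ := ∑ j ∈ range i, a j

@[simp] lemma cum_zero (a : ℕ → ℝ) : cum a 0 = 0 := by simp [cum]

lemma cum_succ (a : ℕ → ℝ) (i : ℕ) : cum a (i + 1) = cum a i + a i := by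
  simp [cum, sum_range_succ]

lemma cum_sub (a b : ℕ → ℝ) (i : ℕ) :
    cum (fun j => a j - b j) i = cum a i - cum b i := by
  simp [cum, sum_sub_distrib]

lemma cum_nonneg {a : ℕ → ℝ} (ha : ∀ i, 0 ≤ a i) (i : ℕ) : 0 ≤ cum a i :=
  sum_nonneg (fun j _ => ha j)

lemma cum_le_cum {a : ℕ → ℝ} (ha : ∀ i, 0 ≤ a i) {i n : ℕ} (h : i ≤ n) : cum a i ≤ cum a n :=
  sum_le_sum_of_subset_of_nonneg (range_subset_range.mpr h) (fun j _ _ => ha j)

/-- the bracket in the three-walker functional -/
noncomputable def brk (b c : ℕ → ℝ) (i : ℕ) : ℝ :=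
  cum b i * cum c i + (b i * cum c i + cum b i * c i) / 2 + b i * c i / 3

/-- the three-walker functional -/
noncomputable def tri (n : ℕ) (a b c : ℕ → ℝ) : ℝ :=
  ∑ i ∈ range n, a i * brk b c i

lemma brk_comm (b c : ℕ → ℝ) (i : ℕ) : brk b c i = brk c b i := by
  unfold brk; ring

lemma tri_comm (n : ℕ) (a b c : ℕ → ℝ) : tri n a b c = tri n a c b := by
  unfold tri; exact sum_congr rfl (fun i _ => by rw [brk_comm])

/-- the sum rule: exactly one of the three samples is the largest -/
theorem tri_sum_rule (n : ℕ) (a b c : ℕ → ℝ) :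
    tri n a b c + tri n b a c + tri n c a b = cum a n * cum b n * cum c n := by
  induction n with
  | zero => simp [tri]
  | succ n ih =>
    have h1 : tri (n + 1) a b c = tri n a b c + a n * brk b c n := by
      simp [tri, sum_range_succ]
    have h2 : tri (n + 1) b a c = tri n b a c + b n * brk a c n := by
      simp [tri, sum_range_succ]
    have h3 : tri (n + 1) c a b = tri n c a b + c n * brk a b n := by
      simp [tri, sum_range_succ]
    rw [h1, h2, h3, cum_succ, cum_succ, cum_succ]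
    have : tri n a b c + a n * brk b c n + (tri n b a c + b n * brk a c n)
        + (tri n c a b + c n * brk a b n)
        = (tri n a b c + tri n b a c + tri n c a b)
          + (a n * brk b c n + b n * brk a c n + c n * brk a b n) := by ring
    rw [this, ih]
    unfold brk
    ring

lemma brk_sub_sub (a b : ℕ → ℝ) (i : ℕ) :
    brk (fun j => a j - b j) (fun j => a j - b j) i
      = brk a a i - 2 * brk a b i + brk b b i := by
  unfold brk
  rw [cum_sub]
  ring

lemma tri_sub_sub (n : ℕ) (e a b : ℕ → ℝ) :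
    tri n e (fun j => a j - b j) (fun j => a j - b j)
      = tri n e a a - 2 * tri n e a b + tri n e b b := by
  unfold tri
  rw [mul_sum, ← sum_sub_distrib, ← sum_add_distrib]
  refine sum_congr rfl (fun i _ => ?_)
  rw [brk_sub_sub]
  ring

lemma tri_sub_left (n : ℕ) (a a' b c : ℕ → ℝ) :
    tri n (fun j => a j - a' j) b c = tri n a b c - tri n a' b c := by
  unfold tri
  rw [← sum_sub_distrib]
  exact sum_congr rfl (fun i _ => by ring)

lemma tri_sum_left {V : Type*} (s : Finset V) (n : ℕ) (p : V → ℝ) (A : V → ℕ → ℝ) (b c : ℕ → ℝ) :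
    tri n (fun i => ∑ v ∈ s, p v * A v i) b c = ∑ v ∈ s, p v * tri n (A v) b c := by
  unfold tri
  simp_rw [mul_sum, sum_mul]
  rw [sum_comm]
  refine sum_congr rfl (fun v _ => sum_congr rfl (fun i _ => ?_))
  ring

/-- value at a triple of equal arguments -/
lemma tri_self (n : ℕ) (a : ℕ → ℝ) (ha : cum a n = 1) : tri n a a a = 1 / 3 := by
  have := tri_sum_rule n a a a
  rw [ha] at this
  linarith

/-- the basic identity of the energy of a pair of probability vectors -/
theorem energy_pair (n : ℕ) (a b : ℕ → ℝ) (ha : cum a n = 1) (hb : cum b n = 1) :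
    tri n a (fun j => a j - b j) (fun j => a j - b j)
        + tri n b (fun j => a j - b j) (fun j => a j - b j)
      = 2 * tri n b a a + 2 * tri n a b b - 4 / 3 := by
  rw [tri_sub_sub, tri_sub_sub]
  have h1 := tri_self n a ha
  have h2 := tri_self n b hb
  have h3 := tri_sum_rule n a a b
  have h4 := tri_sum_rule n a b b
  rw [ha, hb] at h3 h4
  linarith

lemma brk_bounds {b c : ℕ → ℝ} {n i : ℕ} (hb : ∀ i, 0 ≤ b i) (hc : ∀ i, 0 ≤ c i)
    (hb1 : cum b n = 1) (hc1 : cum c n = 1) (hi : i < n) :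
    0 ≤ brk b c i ∧ brk b c i ≤ 1 := by
  have hB := cum_nonneg hb i
  have hC := cum_nonneg hc i
  have hB' : cum b i + b i ≤ 1 := by
    rw [← cum_succ, ← hb1]; exact cum_le_cum hb hi
  have hC' : cum c i + c i ≤ 1 := by
    rw [← cum_succ, ← hc1]; exact cum_le_cum hc hi
  have hbi := hb i
  have hci := hc i
  unfold brk
  constructor
  · positivity
  · have h1 : (cum b i + b i) * (cum c i + c i) ≤ 1 * 1 :=
      mul_le_mul hB' hC' (by linarith) (by norm_num)
    nlinarith [mul_nonneg hbi hC, mul_nonneg hB hci, mul_nonneg hbi hci, mul_nonneg hB hC]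

/-- crude bound: the functional is bounded by the `l1` norm of its first argument -/
lemma tri_le_l1 {n : ℕ} (e : ℕ → ℝ) {b c : ℕ → ℝ} (hb : ∀ i, 0 ≤ b i) (hc : ∀ i, 0 ≤ c i)
    (hb1 : cum b n = 1) (hc1 : cum c n = 1) :
    tri n e b c ≤ ∑ i ∈ range n, |e i| := by
  unfold tri
  refine sum_le_sum (fun i hi => ?_)
  have hi' := mem_range.mp hi
  obtain ⟨h0, h1⟩ := brk_bounds hb hc hb1 hc1 hi'
  calc e i * brk b c i ≤ |e i| * brk b c i :=
        mul_le_mul_of_nonneg_right (le_abs_self _) h0
    _ ≤ |e i| * 1 := mul_le_mul_of_nonneg_left h1 (abs_nonneg _)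
    _ = |e i| := mul_one _

/-- the elementary cubic step in the rank lemma -/
lemma cubic_step (α e : ℝ) :
    |α + e| ^ 3 - |α| ^ 3 ≤ 3 * |e| * (α ^ 2 + α * e + e ^ 2 / 3) := by
  have hq : 0 ≤ α ^ 2 + α * e + e ^ 2 / 3 := by nlinarith [sq_nonneg (α + e / 2), sq_nonneg e]
  have he : 0 ≤ |e| * (α ^ 2 + α * e + e ^ 2 / 3) := mul_nonneg (abs_nonneg e) hq
  rcases le_total 0 α with ha | ha <;> rcases le_total 0 (α + e) with hb | hb
  · -- both nonnegative
    rw [abs_of_nonneg ha, abs_of_nonneg hb]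
    have h1 : (α + e) ^ 3 - α ^ 3 = 3 * e * (α ^ 2 + α * e + e ^ 2 / 3) := by ring
    rw [h1]
    have h2 : e ≤ |e| := le_abs_self e
    nlinarith [mul_le_mul_of_nonneg_right h2 hq]
  · -- sign change, downward
    rw [abs_of_nonneg ha, abs_of_nonpos hb]
    have he0 : e ≤ 0 := by linarith
    rw [abs_of_nonpos he0]
    have h1 : 3 * -e * (α ^ 2 + α * e + e ^ 2 / 3) = α ^ 3 - (α + e) ^ 3 := by ring
    rw [h1]
    have h3 : 0 ≤ α ^ 3 := pow_nonneg ha 3
    have h4 : (-(α + e)) ^ 3 = -(α + e) ^ 3 := by ring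
    nlinarith
  · -- sign change, upward
    rw [abs_of_nonpos ha, abs_of_nonneg hb]
    have he0 : 0 ≤ e := by linarith
    rw [abs_of_nonneg he0]
    have h1 : 3 * e * (α ^ 2 + α * e + e ^ 2 / 3) = (α + e) ^ 3 - α ^ 3 := by ring
    rw [h1]
    have h3 : 0 ≤ (-α) ^ 3 := pow_nonneg (by linarith) 3
    have h4 : (-α) ^ 3 = -α ^ 3 := by ring
    nlinarith
  · -- both nonpositive
    rw [abs_of_nonpos ha, abs_of_nonpos hb]
    have h1 : (-(α + e)) ^ 3 - (-α) ^ 3 = 3 * (-e) * (α ^ 2 + α * e + e ^ 2 / 3) := by ring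
    rw [h1]
    have h2 : -e ≤ |e| := neg_le_abs e
    nlinarith [mul_le_mul_of_nonneg_right h2 hq]

lemma brk_self_nonneg (d : ℕ → ℝ) (i : ℕ) : 0 ≤ brk d d i := by
  unfold brk
  nlinarith [sq_nonneg (cum d i + d i / 2), sq_nonneg (d i)]

/-- rank lemma: a large Kolmogorov distance forces a large energy -/
theorem rank_lemma {a b : ℕ → ℝ} (ha : ∀ i, 0 ≤ a i) (hb : ∀ i, 0 ≤ b i) {n i₀ : ℕ}
    (hi : i₀ ≤ n) :
    |cum (fun j => a j - b j) i₀| ^ 3 ≤
      3 * (tri n a (fun j => a j - b j) (fun j => a j - b j)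
        + tri n b (fun j => a j - b j) (fun j => a j - b j)) := by
  set d : ℕ → ℝ := fun j => a j - b j with hd
  have key : ∀ m : ℕ, |cum d m| ^ 3 ≤ 3 * ∑ i ∈ range m, (a i + b i) * brk d d i := by
    intro m
    induction m with
    | zero => simp
    | succ m ih =>
      rw [sum_range_succ, cum_succ]
      have h1 := cubic_step (cum d m) (d m)
      have h2 : |d m| ≤ a m + b m := by
        simp only [hd]
        rw [abs_le]
        constructor <;> linarith [ha m, hb m]
      have h3 : brk d d m = (cum d m) ^ 2 + cum d m * d m + d m ^ 2 / 3 := by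
        unfold brk; ring
      have h4 : |d m| * brk d d m ≤ (a m + b m) * brk d d m :=
        mul_le_mul_of_nonneg_right h2 (brk_self_nonneg d m)
      rw [← h3] at h1
      nlinarith
  have h5 : tri n a d d + tri n b d d = ∑ i ∈ range n, (a i + b i) * brk d d i := by
    unfold tri
    rw [← sum_add_distrib]
    exact sum_congr rfl (fun i _ => by ring)
  rw [h5]
  have h6 : ∑ i ∈ range i₀, (a i + b i) * brk d d i ≤ ∑ i ∈ range n, (a i + b i) * brk d d i :=
    sum_le_sum_of_subset_of_nonneg (range_subset_range.mpr hi)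
      (fun i _ _ => mul_nonneg (add_nonneg (ha i) (hb i)) (brk_self_nonneg d i))
  have := key i₀
  linarith

end Vale.Agent.Lib.P125
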