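import Mathlib
import Vale.Agent.Lib.P125.Tri
import Vale.Agent.Lib.P125.Plateau

/-!
Finite reversible kernels, window averages, and the energy bound for the three-walker functional.
-/

open Finset

namespace Vale.Agent.Lib.P125

variable {S : Type*} [Fintype S] [DecidableEq S]

/-- a reversible stochastic kernel with respect to the weight `pi` -/
structure IsRevK (pi : S → ℝ) (K : Matrix S S ℝ) : Prop where
  nonneg : ∀ u v, 0 ≤ K u v
  sum_one : ∀ u, ∑ v, K u v = 1
  rev : ∀ u v, pi u * K u v = pi v * K v u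

lemma IsRevK.one (pi : S → ℝ) : IsRevK pi (1 : Matrix S S ℝ) := by
  refine ⟨fun u v => ?_, fun u => ?_, fun u v => ?_⟩
  · rw [Matrix.one_apply]; split_ifs <;> norm_num
  · simp [Matrix.one_apply]
  · by_cases h : u = v
    · subst h; rfl
    · rw [Matrix.one_apply_ne h, Matrix.one_apply_ne (Ne.symm h)]; simp

lemma IsRevK.pow {pi : S → ℝ} {P : Matrix S S ℝ} (hP : IsRevK pi P) (k : ℕ) :
    IsRevK pi (P ^ k) := by
  induction k with
  | zero => simpa using IsRevK.one pi
  | succ k ih =>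
    refine ⟨fun u v => ?_, fun u => ?_, fun u v => ?_⟩
    · rw [pow_succ, Matrix.mul_apply]
      exact sum_nonneg (fun w _ => mul_nonneg (ih.nonneg u w) (hP.nonneg w v))
    · simp_rw [pow_succ, Matrix.mul_apply]
      rw [sum_comm]
      simp_rw [← mul_sum, hP.sum_one, mul_one]
      exact ih.sum_one u
    · have e1 : (P ^ (k + 1)) u v = ∑ w, (P ^ k) u w * P w v := by
        rw [pow_succ, Matrix.mul_apply]
      have e2 : (P ^ (k + 1)) v u = ∑ w, P v w * (P ^ k) w u := by
        rw [pow_succ', Matrix.mul_apply]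
      rw [e1, e2, mul_sum, mul_sum]
      refine sum_congr rfl (fun w _ => ?_)
      calc pi u * ((P ^ k) u w * P w v) = (pi u * (P ^ k) u w) * P w v := by ring
        _ = (pi w * (P ^ k) w u) * P w v := by rw [ih.rev]
        _ = (pi w * P w v) * (P ^ k) w u := by ring
        _ = (pi v * P v w) * (P ^ k) w u := by rw [hP.rev]
        _ = pi v * (P v w * (P ^ k) w u) := by ring

/-- stationarity -/
lemma IsRevK.stat {pi : S → ℝ} {K : Matrix S S ℝ} (hK : IsRevK pi K) (v : S) :
    ∑ u, pi u * K u v = pi v := by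
  simp_rw [hK.rev _ v]
  rw [← mul_sum, hK.sum_one, mul_one]

/-- the total mass of the pair law is one -/
lemma IsRevK.mass {pi : S → ℝ} {K : Matrix S S ℝ} (hK : IsRevK pi K) (hpi : ∑ u, pi u = 1) :
    ∑ u, ∑ v, pi u * K u v = 1 := by
  simp_rw [← mul_sum, hK.sum_one, mul_one]
  exact hpi

/-- support of `pi` is closed under transitions -/
lemma IsRevK.supp {pi : S → ℝ} {K : Matrix S S ℝ} (hK : IsRevK pi K) (hpi0 : ∀ u, 0 ≤ pi u)
    {z w : S} (hz : 0 < pi z) (h : 0 < K z w) : 0 < pi w := by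
  have h1 : 0 < pi w * K w z := by rw [← hK.rev]; exact mul_pos hz h
  rcases (hpi0 w).eq_or_lt with h2 | h2
  · rw [← h2] at h1; simp at h1
  · exact h2

/-- the window average of the first `τ` powers -/
noncomputable def win (P : Matrix S S ℝ) (τ : ℕ) : Matrix S S ℝ :=
  (τ : ℝ)⁻¹ • ∑ k ∈ range τ, P ^ k

lemma win_apply (P : Matrix S S ℝ) (τ : ℕ) (u v : S) :
    win P τ u v = (τ : ℝ)⁻¹ * ∑ k ∈ range τ, (P ^ k) u v := by
  simp [win, Matrix.sum_apply, Matrix.smul_apply]

lemma IsRevK.win {pi : S → ℝ} {P : Matrix S S ℝ} (hP : IsRevK pi P) {τ : ℕ} (hτ : 1 ≤ τ) :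
    IsRevK pi (win P τ) := by
  have hτ0 : (τ : ℝ) ≠ 0 := by positivity
  refine ⟨fun u v => ?_, fun u => ?_, fun u v => ?_⟩
  · rw [win_apply]
    exact mul_nonneg (by positivity) (sum_nonneg (fun k _ => (hP.pow k).nonneg u v))
  · simp_rw [win_apply]
    rw [← mul_sum, sum_comm]
    simp_rw [(hP.pow _).sum_one]
    simp [hτ0]
  · rw [win_apply, win_apply]
    calc pi u * ((τ : ℝ)⁻¹ * ∑ k ∈ range τ, (P ^ k) u v)
        = (τ : ℝ)⁻¹ * ∑ k ∈ range τ, pi u * (P ^ k) u v := by
          rw [mul_sum, mul_sum, mul_sum]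
          exact sum_congr rfl (fun k _ => by ring)
      _ = (τ : ℝ)⁻¹ * ∑ k ∈ range τ, pi v * (P ^ k) v u := by
          simp_rw [(hP.pow _).rev u v]
      _ = pi v * ((τ : ℝ)⁻¹ * ∑ k ∈ range τ, (P ^ k) v u) := by
          rw [mul_sum, mul_sum, mul_sum]
          exact sum_congr rfl (fun k _ => by ring)

/-- the defining telescoping property of the window average -/
lemma mul_win_sub (P : Matrix S S ℝ) (τ : ℕ) :
    P * win P τ - win P τ = (τ : ℝ)⁻¹ • (P ^ τ - 1) := by
  have h := mul_geom_sum P τ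
  unfold win
  rw [← h, Matrix.mul_smul, ← smul_sub, sub_mul, one_mul]

/-- push forward of a kernel row by a rank function -/
noncomputable def pf (K : Matrix S S ℝ) (r : S → ℕ) (u : S) (i : ℕ) : ℝ :=
  ∑ w, if r w = i then K u w else 0

lemma cum_pf (K : Matrix S S ℝ) (r : S → ℕ) (u : S) (i : ℕ) :
    cum (pf K r u) i = ∑ w, if r w < i then K u w else 0 := by
  induction i with
  | zero => simp
  | succ i ih =>
    rw [cum_succ, ih]
    unfold pf
    rw [← sum_add_distrib]
    refine sum_congr rfl (fun w _ => ?_)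
    by_cases h1 : r w < i
    · have h2 : r w ≠ i := by omega
      have h3 : r w < i + 1 := by omega
      simp [h1, h2, h3]
    · by_cases h2 : r w = i
      · have h3 : r w < i + 1 := by omega
        simp [h1, h2]
      · have h3 : ¬ r w < i + 1 := by omega
        simp [h1, h2, h3]

lemma pf_nonneg {K : Matrix S S ℝ} (hK : ∀ u v, 0 ≤ K u v) (r : S → ℕ) (u : S) (i : ℕ) :
    0 ≤ pf K r u i := by
  unfold pf
  refine sum_nonneg (fun w _ => ?_)
  split_ifs
  · exact hK u w
  · exact le_rfl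

lemma cum_pf_total {K : Matrix S S ℝ} (hK : ∀ u, ∑ v, K u v = 1) {r : S → ℕ} {n : ℕ}
    (hr : ∀ w, r w < n) (u : S) : cum (pf K r u) n = 1 := by
  rw [cum_pf, ← hK u]
  exact sum_congr rfl (fun w _ => by simp [hr w])

lemma sum_abs_pf_le (A : Matrix S S ℝ) (r : S → ℕ) (u : S) (n : ℕ) :
    ∑ i ∈ range n, |pf A r u i| ≤ ∑ w, |A u w| := by
  have h1 : ∀ i, |pf A r u i| ≤ ∑ w, if r w = i then |A u w| else 0 := by
    intro i
    unfold pf
    refine le_trans (abs_sum_le_sum_abs _ _) (sum_le_sum (fun w _ => ?_))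
    split_ifs
    · exact le_rfl
    · simp
  calc ∑ i ∈ range n, |pf A r u i|
      ≤ ∑ i ∈ range n, ∑ w, (if r w = i then |A u w| else 0) := sum_le_sum (fun i _ => h1 i)
    _ = ∑ w, ∑ i ∈ range n, (if r w = i then |A u w| else 0) := sum_comm
    _ ≤ ∑ w, |A u w| := by
        refine sum_le_sum (fun w _ => ?_)
        rw [sum_ite_eq]
        split_ifs
        · exact le_rfl
        · exact abs_nonneg _

lemma pf_mul_sub (P K : Matrix S S ℝ) (r : S → ℕ) (u : S) (i : ℕ) :
    (∑ v, P u v * pf K r v i) - pf K r u i = pf (P * K - K) r u i := by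
  unfold pf
  simp_rw [mul_sum]
  rw [sum_comm, ← sum_sub_distrib]
  refine sum_congr rfl (fun w _ => ?_)
  rw [Matrix.sub_apply, Matrix.mul_apply]
  by_cases h : r w = i <;> simp [h]

/-- the energy of the pair of rows `u`, `v` -/
noncomputable def Jen (K : Matrix S S ℝ) (r : S → ℕ) (n : ℕ) (u v : S) : ℝ :=
  tri n (pf K r u) (fun j => pf K r u j - pf K r v j) (fun j => pf K r u j - pf K r v j)
    + tri n (pf K r v) (fun j => pf K r u j - pf K r v j) (fun j => pf K r u j - pf K r v j)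

/-- energy identity along one step of a reversible kernel -/
theorem energy_identity {pi : S → ℝ} {P K : Matrix S S ℝ} (hP : IsRevK pi P) (hpi : ∑ u, pi u = 1)
    (hK : ∀ u, ∑ v, K u v = 1) {r : S → ℕ} {n : ℕ} (hr : ∀ w, r w < n) :
    ∑ u, ∑ v, pi u * P u v * Jen K r n u v
      = 4 * ∑ u, pi u * tri n (pf (P * K - K) r u) (pf K r u) (pf K r u) := by
  set A : S → ℕ → ℝ := fun u => pf K r u with hA
  have hA1 : ∀ u, cum (A u) n = 1 := fun u => cum_pf_total hK hr u
  set T : S → S → ℝ := fun u v => tri n (A v) (A u) (A u) with hT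
  have hJ : ∀ u v, Jen K r n u v = 2 * T u v + 2 * T v u - 4 / 3 := by
    intro u v
    exact energy_pair n (A u) (A v) (hA1 u) (hA1 v)
  have hsw : ∑ u, ∑ v, pi u * P u v * T v u = ∑ u, ∑ v, pi u * P u v * T u v := by
    rw [sum_comm]
    refine sum_congr rfl (fun u _ => sum_congr rfl (fun v _ => ?_))
    rw [hP.rev]
  have hmass := hP.mass hpi
  have hL : ∑ u, ∑ v, pi u * P u v * Jen K r n u v
      = 4 * ∑ u, ∑ v, pi u * P u v * T u v - 4 / 3 := by
    simp_rw [hJ]
    have : ∀ u v, pi u * P u v * (2 * T u v + 2 * T v u - 4 / 3)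
        = 2 * (pi u * P u v * T u v) + 2 * (pi u * P u v * T v u) - 4 / 3 * (pi u * P u v) := by
      intro u v; ring
    have h2 : ∑ u, ∑ v, (2 * (pi u * P u v * T u v) + 2 * (pi u * P u v * T v u)
          - 4 / 3 * (pi u * P u v))
        = 2 * (∑ u, ∑ v, pi u * P u v * T u v) + 2 * (∑ u, ∑ v, pi u * P u v * T v u)
          - 4 / 3 * (∑ u, ∑ v, pi u * P u v) := by
      simp only [mul_sum, sum_add_distrib, sum_sub_distrib]
    simp_rw [this]
    rw [h2, hsw, hmass]
    ring
  have hR : ∀ u, tri n (pf (P * K - K) r u) (pf K r u) (pf K r u)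
      = ∑ v, P u v * T u v - 1 / 3 := by
    intro u
    have h1 : pf (P * K - K) r u = fun i => (∑ v, P u v * pf K r v i) - pf K r u i := by
      funext i
      exact (pf_mul_sub P K r u i).symm
    rw [h1, tri_sub_left, tri_sum_left, tri_self n (pf K r u) (hA1 u)]
  rw [hL]
  simp_rw [hR]
  have : ∀ u, pi u * (∑ v, P u v * T u v - 1 / 3)
      = ∑ v, pi u * P u v * T u v - 1 / 3 * pi u := by
    intro u
    rw [mul_sub, mul_sum]
    congr 1
    · exact sum_congr rfl (fun v _ => by ring)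
    · ring
  simp_rw [this, sum_sub_distrib]
  rw [← mul_sum, hpi]
  ring

/-- bound of the energy for the window average -/
theorem energy_win {pi : S → ℝ} {P : Matrix S S ℝ} (hP : IsRevK pi P) (hpi0 : ∀ u, 0 ≤ pi u)
    (hpi : ∑ u, pi u = 1) {τ : ℕ} (hτ : 1 ≤ τ) {r : S → ℕ} {n : ℕ} (hr : ∀ w, r w < n) :
    ∑ u, ∑ v, pi u * P u v * Jen (win P τ) r n u v ≤ 8 / τ := by
  have hW := hP.win hτ
  rw [energy_identity hP hpi hW.sum_one hr]
  have hτ0 : (0 : ℝ) < τ := by positivity
  have hbound : ∀ u, tri n (pf (P * win P τ - win P τ) r u) (pf (win P τ) r u) (pf (win P τ) r u)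
      ≤ 2 / τ := by
    intro u
    refine le_trans (tri_le_l1 _ (pf_nonneg hW.nonneg r u) (pf_nonneg hW.nonneg r u)
      (cum_pf_total hW.sum_one hr u) (cum_pf_total hW.sum_one hr u)) ?_
    refine le_trans (sum_abs_pf_le _ r u n) ?_
    rw [mul_win_sub]
    have h1 : ∀ w, |((τ : ℝ)⁻¹ • (P ^ τ - 1)) u w|
        ≤ (τ : ℝ)⁻¹ * ((P ^ τ) u w + (1 : Matrix S S ℝ) u w) := by
      intro w
      rw [Matrix.smul_apply, Matrix.sub_apply, smul_eq_mul, abs_mul, abs_of_pos (by positivity)]
      refine mul_le_mul_of_nonneg_left ?_ (by positivity)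
      have h2 := (hP.pow τ).nonneg u w
      have h3 := (IsRevK.one pi).nonneg u w
      rw [abs_le]
      constructor <;> linarith
    refine le_trans (sum_le_sum (fun w _ => h1 w)) ?_
    rw [← mul_sum, sum_add_distrib, (hP.pow τ).sum_one, (IsRevK.one pi).sum_one]
    apply le_of_eq
    field_simp
    norm_num
  calc 4 * ∑ u, pi u * tri n (pf (P * win P τ - win P τ) r u) (pf (win P τ) r u) (pf (win P τ) r u)
      ≤ 4 * ∑ u, pi u * (2 / τ) := by
        refine mul_le_mul_of_nonneg_left (sum_le_sum (fun u _ => ?_)) (by norm_num)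
        exact mul_le_mul_of_nonneg_left (hbound u) (hpi0 u)
    _ = 8 / τ := by
        rw [← sum_mul, hpi]
        ring

/-- Kolmogorov distance of two rows in terms of the energy -/
lemma kol_le {K : Matrix S S ℝ} (hK : ∀ u v, 0 ≤ K u v) (r : S → ℕ) {n i : ℕ} (hi : i ≤ n)
    (u v : S) :
    |(∑ w, if r w < i then K u w else 0) - (∑ w, if r w < i then K v w else 0)| ^ 3
      ≤ 3 * Jen K r n u v := by
  have h := rank_lemma (a := pf K r u) (b := pf K r v) (pf_nonneg hK r u) (pf_nonneg hK r v) hi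
  rwa [cum_sub, cum_pf, cum_pf] at h

/-- elementary: `x ≤ δ + x^3/δ^2` -/
lemma le_add_cube_div {x δ : ℝ} (hx : 0 ≤ x) (hδ : 0 < δ) : x ≤ δ + x ^ 3 / δ ^ 2 := by
  rcases le_total x δ with h | h
  · have : 0 ≤ x ^ 3 / δ ^ 2 := by positivity
    linarith
  · have h1 : x ≤ x ^ 3 / δ ^ 2 := by
      rw [le_div_iff₀ (by positivity)]
      nlinarith [mul_le_mul h h hδ.le hx, mul_nonneg hx hx]
    linarith

end Vale.Agent.Lib.P125
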