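import Mathlib

/-!
# Deterministic collision lemma for bounded variation functions

For `W : ℕ → ℝ` on `{0, …, N}` we select few points such that whenever the sup norm of a
difference nearly equals the sum of the sup norms, a selected point of one function is
nearly extreme for the other function.
-/

namespace Vale.Agent.Lib.P125

open Finset BigOperators

/-- Sup norm on `{0, …, N}`. -/
noncomputable def normW (N : ℕ) (W : ℕ → ℝ) : ℝ :=
  (Finset.range (N + 1)).sup' ⟨0, by simp⟩ fun x => |W x|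

lemma le_normW (N : ℕ) (W : ℕ → ℝ) {x : ℕ} (hx : x ≤ N) : |W x| ≤ normW N W :=
  Finset.le_sup' (fun x => |W x|) (Finset.mem_range.mpr (by omega))

lemma exists_normW (N : ℕ) (W : ℕ → ℝ) : ∃ x, x ≤ N ∧ normW N W = |W x| := by
  obtain ⟨x, hx, h⟩ := Finset.exists_mem_eq_sup' (s := Finset.range (N + 1)) ⟨0, by simp⟩
    (fun x => |W x|)
  refine ⟨x, ?_, h⟩
  have := Finset.mem_range.mp hx
  omega

lemma normW_nonneg (N : ℕ) (W : ℕ → ℝ) : 0 ≤ normW N W :=
  le_trans (abs_nonneg _) (le_normW N W (x := 0) (Nat.zero_le _))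

lemma normW_le (N : ℕ) (W : ℕ → ℝ) {B : ℝ} (h : ∀ x, x ≤ N → |W x| ≤ B) : normW N W ≤ B := by
  obtain ⟨x, hx, e⟩ := exists_normW N W
  rw [e]
  exact h x hx

lemma normW_sub_le (N : ℕ) (A B : ℕ → ℝ) :
    normW N (fun x => A x - B x) ≤ normW N A + normW N B := by
  refine normW_le N _ fun x hx => ?_
  exact le_trans (abs_sub _ _) (add_le_add (le_normW N A hx) (le_normW N B hx))

/-- Total variation up to `x`. -/
def Wvar (W : ℕ → ℝ) (x : ℕ) : ℝ := ∑ k ∈ range x, |W (k + 1) - W k|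

lemma Wvar_mono (W : ℕ → ℝ) {x y : ℕ} (h : x ≤ y) : Wvar W x ≤ Wvar W y :=
  Finset.sum_le_sum_of_subset_of_nonneg (Finset.range_subset_range.mpr h)
    fun _ _ _ => abs_nonneg _

lemma Wvar_nonneg (W : ℕ → ℝ) (x : ℕ) : 0 ≤ Wvar W x :=
  Finset.sum_nonneg fun _ _ => abs_nonneg _

lemma abs_sub_le_Wvar (W : ℕ → ℝ) {x y : ℕ} (h : x ≤ y) :
    |W y - W x| ≤ Wvar W y - Wvar W x := by
  induction y, h using Nat.le_induction with
  | base => simp
  | succ y hy ih =>
    have h1 : Wvar W (y + 1) = Wvar W y + |W (y + 1) - W y| := by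
      unfold Wvar
      rw [Finset.sum_range_succ]
    rw [h1]
    have h2 := abs_sub_le (W (y + 1)) (W y) (W x)
    linarith

lemma Wvar_neg (W : ℕ → ℝ) (x : ℕ) : Wvar (fun k => - W k) x = Wvar W x := by
  unfold Wvar
  refine Finset.sum_congr rfl fun k _ => ?_
  rw [show - W (k + 1) - - W k = -(W (k + 1) - W k) by ring, abs_neg]

/-- First points above `hi` after a dip below `lo`. -/
noncomputable def hPts (N : ℕ) (W : ℕ → ℝ) (hi lo : ℝ) : Finset ℕ := by
  classical
  exact (Finset.range (N + 1)).filter fun x =>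
    hi < W x ∧ ∀ x', x' < x → hi < W x' → ∃ y, x' < y ∧ y < x ∧ W y < lo

lemma mem_hPts {N : ℕ} {W : ℕ → ℝ} {hi lo : ℝ} {x : ℕ} :
    x ∈ hPts N W hi lo ↔ x ≤ N ∧ hi < W x ∧
      ∀ x', x' < x → hi < W x' → ∃ y, x' < y ∧ y < x ∧ W y < lo := by
  unfold hPts
  simp only [Finset.mem_filter, Finset.mem_range]
  constructor
  · rintro ⟨h1, h2⟩
    exact ⟨by omega, h2⟩
  · rintro ⟨h1, h2⟩
    exact ⟨by omega, h2⟩

lemma hPts_cover (N : ℕ) (W : ℕ → ℝ) {hi lo : ℝ} (hl : lo ≤ hi) :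
    ∀ x, x ≤ N → hi < W x → ∃ a, a ∈ hPts N W hi lo ∧ a ≤ x ∧ ∀ y, a ≤ y → y ≤ x → lo ≤ W y := by
  intro x
  induction x using Nat.strong_induction_on with
  | _ x ih =>
    intro hx hW
    by_cases hmem : x ∈ hPts N W hi lo
    · refine ⟨x, hmem, le_rfl, fun y h1 h2 => ?_⟩
      have : y = x := le_antisymm h2 h1
      rw [this]
      linarith
    · rw [mem_hPts] at hmem
      push Not at hmem
      obtain ⟨x', hx', hW', hy⟩ := hmem hx hW
      obtain ⟨a, ha, hax, hay⟩ := ih x' hx' (by omega) hW'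
      refine ⟨a, ha, by omega, fun y h1 h2 => ?_⟩
      by_cases h3 : y ≤ x'
      · exact hay y h1 h3
      · by_cases h4 : y = x
        · rw [h4]; linarith
        · exact hy y (by omega) (by omega)

lemma hPts_sep {N : ℕ} {W : ℕ → ℝ} {hi lo : ℝ} {x1 x2 : ℕ}
    (h1 : x1 ∈ hPts N W hi lo) (h2 : x2 ∈ hPts N W hi lo) (h : x1 < x2) :
    Wvar W x1 + 2 * (hi - lo) ≤ Wvar W x2 := by
  rw [mem_hPts] at h1 h2
  obtain ⟨y, hy1, hy2, hy3⟩ := h2.2.2 x1 h h1.2.1
  have h3 := abs_sub_le_Wvar W hy1.le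
  have h4 := abs_sub_le_Wvar W hy2.le
  have h5 : W x1 - W y ≤ |W y - W x1| := by
    rw [abs_sub_comm]; exact le_abs_self _
  have h6 : W x2 - W y ≤ |W x2 - W y| := le_abs_self _
  have h7 := h1.2.1
  have h8 := h2.2.1
  linarith

lemma hPts_card (N : ℕ) (W : ℕ → ℝ) {hi lo : ℝ} (hl : lo < hi) :
    ((hPts N W hi lo).card : ℝ) ≤ Wvar W N / (2 * (hi - lo)) + 1 := by
  have hδ : 0 < 2 * (hi - lo) := by linarith
  set δ := 2 * (hi - lo) with hδdef
  have hinj : (hPts N W hi lo).card ≤ (Finset.range (⌊Wvar W N / δ⌋₊ + 1)).card := by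
    refine Finset.card_le_card_of_injOn (fun x => ⌊Wvar W x / δ⌋₊) ?_ ?_
    · intro x hx
      have hx' := Finset.mem_coe.mp hx
      rw [mem_hPts] at hx'
      have h1 : Wvar W x / δ ≤ Wvar W N / δ :=
        div_le_div_of_nonneg_right (Wvar_mono W hx'.1) hδ.le
      have h2 : ⌊Wvar W x / δ⌋₊ ≤ ⌊Wvar W N / δ⌋₊ := Nat.floor_mono h1
      simp only [Finset.coe_range, Set.mem_Iio]
      omega
    · intro x1 hx1 x2 hx2 he
      simp only at he
      by_contra hne
      have key : ∀ a b : ℕ, a ∈ hPts N W hi lo → b ∈ hPts N W hi lo → a < b →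
          ⌊Wvar W a / δ⌋₊ ≠ ⌊Wvar W b / δ⌋₊ := by
        intro a b ha hb hab e
        have h1 := hPts_sep ha hb hab
        have h2 : Wvar W a / δ + 1 ≤ Wvar W b / δ := by
          rw [div_add_one hδ.ne']
          exact div_le_div_of_nonneg_right h1 hδ.le
        have h3 : ⌊Wvar W a / δ + 1⌋₊ ≤ ⌊Wvar W b / δ⌋₊ := Nat.floor_mono h2
        have h4 : ⌊Wvar W a / δ + 1⌋₊ = ⌊Wvar W a / δ⌋₊ + 1 :=
          Nat.floor_add_one (div_nonneg (Wvar_nonneg W a) hδ.le)
        omega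
      rcases Nat.lt_or_gt_of_ne hne with h | h
      · exact key x1 x2 (Finset.mem_coe.mp hx1) (Finset.mem_coe.mp hx2) h he
      · exact key x2 x1 (Finset.mem_coe.mp hx2) (Finset.mem_coe.mp hx1) h he.symm
  rw [Finset.card_range] at hinj
  have h1 : ((hPts N W hi lo).card : ℝ) ≤ ((⌊Wvar W N / δ⌋₊ + 1 : ℕ) : ℝ) := by
    exact_mod_cast hinj
  push_cast at h1
  have h2 : (⌊Wvar W N / δ⌋₊ : ℝ) ≤ Wvar W N / δ :=
    Nat.floor_le (div_nonneg (Wvar_nonneg W N) hδ.le)
  linarith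

/-- The selected points of `W`: both signs, levels `‖W‖ - η` and `‖W‖ - 2 η`. -/
noncomputable def ptrs (N : ℕ) (W : ℕ → ℝ) (η : ℝ) : Finset ℕ :=
  hPts N W (normW N W - η) (normW N W - 2 * η) ∪
    hPts N (fun x => - W x) (normW N W - η) (normW N W - 2 * η)

lemma ptrs_le {N : ℕ} {W : ℕ → ℝ} {η : ℝ} {x : ℕ} (h : x ∈ ptrs N W η) : x ≤ N := by
  unfold ptrs at h
  rw [Finset.mem_union, mem_hPts, mem_hPts] at h
  rcases h with h | h
  · exact h.1
  · exact h.1

lemma ptrs_card (N : ℕ) (W : ℕ → ℝ) {η : ℝ} (hη : 0 < η) :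
    ((ptrs N W η).card : ℝ) ≤ Wvar W N / η + 2 := by
  have hl : normW N W - 2 * η < normW N W - η := by linarith
  have h1 := hPts_card N W hl
  have h2 := hPts_card N (fun x => - W x) hl
  rw [Wvar_neg] at h2
  have h3 : ((ptrs N W η).card : ℝ) ≤
      ((hPts N W (normW N W - η) (normW N W - 2 * η)).card : ℝ) +
      ((hPts N (fun x => - W x) (normW N W - η) (normW N W - 2 * η)).card : ℝ) := by
    exact_mod_cast Finset.card_union_le _ _
  have h4 : 2 * (normW N W - η - (normW N W - 2 * η)) = 2 * η := by ring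
  rw [h4] at h1 h2
  have h5 : Wvar W N / (2 * η) + Wvar W N / (2 * η) = Wvar W N / η := by
    field_simp
    ring
  linarith

/-- The core of the collision, for fixed signs. -/
lemma collision_core (N : ℕ) (A B : ℕ → ℝ) {nA nB η : ℝ} (hη : 0 < η)
    (hA : ∀ x, x ≤ N → A x ≤ nA) (hB : ∀ x, x ≤ N → B x ≤ nB)
    {x : ℕ} (hx : x ≤ N) (h : nA + nB - η < A x + B x) :
    (∃ a, a ∈ hPts N A (nA - η) (nA - 2 * η) ∧ nB - 2 * η ≤ B a) ∨
    (∃ b, b ∈ hPts N B (nB - η) (nB - 2 * η) ∧ nA - 2 * η ≤ A b) := by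
  have h1 : nA - η < A x := by
    have := hB x hx
    linarith
  have h2 : nB - η < B x := by
    have := hA x hx
    linarith
  obtain ⟨a, ha, hax, hay⟩ := hPts_cover N A (by linarith : nA - 2 * η ≤ nA - η) x hx h1
  obtain ⟨b, hb, hbx, hby⟩ := hPts_cover N B (by linarith : nB - 2 * η ≤ nB - η) x hx h2
  by_cases hab : b ≤ a
  · exact Or.inl ⟨a, ha, hby a hab hax⟩
  · exact Or.inr ⟨b, hb, hay b (by omega) hbx⟩

/-- The collision lemma. -/
lemma collision (N : ℕ) (A B : ℕ → ℝ) {η : ℝ} (hη : 0 < η) :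
    normW N (fun x => A x - B x) ≤ normW N A + normW N B - η ∨
    (∃ x, x ∈ ptrs N A η ∧ normW N B - 2 * η ≤ |B x|) ∨
    (∃ x, x ∈ ptrs N B η ∧ normW N A - 2 * η ≤ |A x|) := by
  by_contra hcon
  push Not at hcon
  obtain ⟨h1, h2, h3⟩ := hcon
  obtain ⟨x, hx, hxe⟩ := exists_normW N (fun x => A x - B x)
  rw [hxe] at h1
  have hAle : ∀ x, x ≤ N → A x ≤ normW N A := fun x hx =>
    le_trans (le_abs_self _) (le_normW N A hx)
  have hAle' : ∀ x, x ≤ N → - A x ≤ normW N A := fun x hx =>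
    le_trans (neg_le_abs _) (le_normW N A hx)
  have hBle : ∀ x, x ≤ N → B x ≤ normW N B := fun x hx =>
    le_trans (le_abs_self _) (le_normW N B hx)
  have hBle' : ∀ x, x ≤ N → - B x ≤ normW N B := fun x hx =>
    le_trans (neg_le_abs _) (le_normW N B hx)
  have hmemL : ∀ a, a ∈ hPts N A (normW N A - η) (normW N A - 2 * η) → a ∈ ptrs N A η := by
    intro a ha; unfold ptrs; exact Finset.mem_union_left _ ha
  have hmemL' : ∀ a, a ∈ hPts N (fun x => - A x) (normW N A - η) (normW N A - 2 * η) →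
      a ∈ ptrs N A η := by
    intro a ha; unfold ptrs; exact Finset.mem_union_right _ ha
  have hmemR : ∀ a, a ∈ hPts N B (normW N B - η) (normW N B - 2 * η) → a ∈ ptrs N B η := by
    intro a ha; unfold ptrs; exact Finset.mem_union_left _ ha
  have hmemR' : ∀ a, a ∈ hPts N (fun x => - B x) (normW N B - η) (normW N B - 2 * η) →
      a ∈ ptrs N B η := by
    intro a ha; unfold ptrs; exact Finset.mem_union_right _ ha
  rcases le_or_gt 0 (A x - B x) with hs | hs
  · rw [abs_of_nonneg hs] at h1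
    have := collision_core N A (fun x => - B x) hη hAle hBle' hx (by
      show normW N A + normW N B - η < A x + - B x
      linarith)
    rcases this with ⟨a, ha, hab⟩ | ⟨b, hb, hab⟩
    · have h4 := h2 a (hmemL a ha)
      have h5 : - B a ≤ |B a| := neg_le_abs _
      have hab' : normW N B - 2 * η ≤ - B a := hab
      linarith
    · have h4 := h3 b (hmemR' b hb)
      have h5 : A b ≤ |A b| := le_abs_self _
      linarith
  · rw [abs_of_neg hs] at h1
    have := collision_core N (fun x => - A x) B hη hAle' hBle hx (by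
      show normW N A + normW N B - η < - A x + B x
      linarith)
    rcases this with ⟨a, ha, hab⟩ | ⟨b, hb, hab⟩
    · have h4 := h2 a (hmemL' a ha)
      have h5 : B a ≤ |B a| := le_abs_self _
      linarith
    · have h4 := h3 b (hmemR b hb)
      have h5 : - A b ≤ |A b| := neg_le_abs _
      have hab' : normW N A - 2 * η ≤ - A b := hab
      linarith

/-- The pair inequality used in the doubling step. -/
lemma pair_ineq (N : ℕ) (A B : ℕ → ℝ) {M : ℝ} (hM : 0 < M) :
    (normW N (fun x => A x - B x)) ^ 2 ≤ (normW N A + normW N B) ^ 2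
      - (M ^ 2 / 32) * (if M / 4 ≤ normW N A ∧ M / 4 ≤ normW N B then 1 else 0)
      + 2 * (∑ x ∈ ptrs N A (M / 16), (B x) ^ 2 + ∑ x ∈ ptrs N B (M / 16), (A x) ^ 2) := by
  have hS1 : 0 ≤ ∑ x ∈ ptrs N A (M / 16), (B x) ^ 2 :=
    Finset.sum_nonneg fun _ _ => sq_nonneg _
  have hS2 : 0 ≤ ∑ x ∈ ptrs N B (M / 16), (A x) ^ 2 :=
    Finset.sum_nonneg fun _ _ => sq_nonneg _
  have hD0 := normW_nonneg N (fun x => A x - B x)
  have hA0 := normW_nonneg N A
  have hB0 := normW_nonneg N B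
  have hbase : (normW N (fun x => A x - B x)) ^ 2 ≤ (normW N A + normW N B) ^ 2 :=
    pow_le_pow_left₀ hD0 (normW_sub_le N A B) 2
  by_cases hbig : M / 4 ≤ normW N A ∧ M / 4 ≤ normW N B
  · rw [if_pos hbig, mul_one]
    have hη : 0 < M / 16 := by positivity
    rcases collision N A B hη with h | ⟨x, hx, h⟩ | ⟨x, hx, h⟩
    · have h1 : (normW N (fun x => A x - B x)) ^ 2 ≤ (normW N A + normW N B - M / 16) ^ 2 :=
        pow_le_pow_left₀ hD0 h 2
      have h2 := hbig.1
      have h3 := hbig.2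
      nlinarith
    · have h1 : M / 8 ≤ |B x| := by
        have := hbig.2
        linarith
      have h2 : (M / 8) ^ 2 ≤ (B x) ^ 2 := by
        rw [← sq_abs (B x)]
        exact pow_le_pow_left₀ (by positivity) h1 2
      have h3 : (B x) ^ 2 ≤ ∑ x ∈ ptrs N A (M / 16), (B x) ^ 2 :=
        Finset.single_le_sum (f := fun x => (B x) ^ 2) (fun _ _ => sq_nonneg _) hx
      nlinarith
    · have h1 : M / 8 ≤ |A x| := by
        have := hbig.1
        linarith
      have h2 : (M / 8) ^ 2 ≤ (A x) ^ 2 := by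
        rw [← sq_abs (A x)]
        exact pow_le_pow_left₀ (by positivity) h1 2
      have h3 : (A x) ^ 2 ≤ ∑ x ∈ ptrs N B (M / 16), (A x) ^ 2 :=
        Finset.single_le_sum (f := fun x => (A x) ^ 2) (fun _ _ => sq_nonneg _) hx
      nlinarith
  · rw [if_neg hbig, mul_zero]
    linarith

end Vale.Agent.Lib.P125
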