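import Vale.Agent.Lib.P125.Rank
import Vale.Agent.Lib.P125.Collision

/-!
# The doubling inequality for one conditioning point
-/

namespace Vale.Agent.Lib.P125

open Finset BigOperators

set_option linter.unusedSectionVars false
set_option linter.unusedSimpArgs false
set_option linter.unusedVariables false

variable {S : Type*} [Fintype S] [DecidableEq S]

/-- The trivial bound. -/
lemma per_z_triv (N : ℕ) {q : S → ℝ} (hq : IsProb q) (U : S → ℕ → ℝ) :
    ∑ y, ∑ y', q y * q y' * (normW N (fun x => U y x - U y' x)) ^ 2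
      ≤ 4 * ∑ y, q y * (normW N (U y)) ^ 2 := by
  set W : S → ℝ := fun y => normW N (U y) with hW
  set A := ∑ y, q y * (W y) ^ 2 with hA
  have hkey : ∀ y y', q y * q y' * (normW N (fun x => U y x - U y' x)) ^ 2
      ≤ q y * q y' * (2 * (W y) ^ 2 + 2 * (W y') ^ 2) := by
    intro y y'
    refine mul_le_mul_of_nonneg_left ?_ (mul_nonneg (hq.1 y) (hq.1 y'))
    have h1 := normW_sub_le N (U y) (U y')
    have h0 := normW_nonneg N (fun x => U y x - U y' x)
    have h2 : (normW N (fun x => U y x - U y' x)) ^ 2 ≤ (W y + W y') ^ 2 :=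
      pow_le_pow_left₀ h0 h1 2
    nlinarith [sq_nonneg (W y - W y')]
  have h3 : ∑ y, ∑ y', q y * q y' * (2 * (W y) ^ 2 + 2 * (W y') ^ 2) = 4 * A := by
    have h4 : ∀ y, ∑ y', q y * q y' * (2 * (W y) ^ 2 + 2 * (W y') ^ 2)
        = 2 * (q y * (W y) ^ 2) + 2 * q y * A := by
      intro y
      have h5 : ∀ y', q y * q y' * (2 * (W y) ^ 2 + 2 * (W y') ^ 2)
          = (2 * q y * (W y) ^ 2) * q y' + 2 * q y * (q y' * (W y') ^ 2) := fun y' => by ring
      simp only [h5]
      rw [Finset.sum_add_distrib, ← Finset.mul_sum, ← Finset.mul_sum, hq.2, ← hA]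
      ring
    simp only [h4]
    rw [Finset.sum_add_distrib, ← Finset.mul_sum, ← hA, ← Finset.sum_mul, ← Finset.mul_sum, hq.2]
    ring
  calc _ ≤ ∑ y, ∑ y', q y * q y' * (2 * (W y) ^ 2 + 2 * (W y') ^ 2) :=
        Finset.sum_le_sum fun y _ => Finset.sum_le_sum fun y' _ => hkey y y'
    _ = _ := h3

/-- The gain for one conditioning point. -/
lemma per_z (N : ℕ) {q : S → ℝ} (hq : IsProb q) (U : S → ℕ → ℝ) {M T Sstar : ℝ} (hM : 0 < M)
    (hM2 : ∑ y, q y * (normW N (U y)) ^ 2 = M ^ 2)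
    (hT : ∀ y, 0 < q y → Wvar (U y) N ≤ T)
    (hS : ∀ x, x ≤ N → ∑ y, q y * (U y x) ^ 2 ≤ Sstar) :
    ∑ y, ∑ y', q y * q y' * (normW N (fun x => U y x - U y' x)) ^ 2
      ≤ (4 - 1 / 8192) * M ^ 2 + 4 * (16 * T / M + 2) * Sstar := by
  set W : S → ℝ := fun y => normW N (U y) with hW
  have hW0 : ∀ y, 0 ≤ W y := fun y => normW_nonneg N (U y)
  set mb := ∑ y, q y * W y with hmb
  set big : S → ℝ := fun y => if M / 4 ≤ W y then 1 else 0 with hbig
  have hbig01 : ∀ y, 0 ≤ big y := by
    intro y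
    simp only [hbig]
    split_ifs <;> norm_num
  set qa := ∑ y, q y * big y with hqa
  have hqa0 : 0 ≤ qa := Finset.sum_nonneg fun y _ => mul_nonneg (hq.1 y) (hbig01 y)
  have hS0 : 0 ≤ Sstar := le_trans
    (Finset.sum_nonneg fun y _ => mul_nonneg (hq.1 y) (sq_nonneg _)) (hS 0 (Nat.zero_le _))
  have hη : 0 < M / 16 := by positivity
  set k := 16 * T / M + 2 with hk
  -- part (c): the fresh pointers
  have hC : ∑ y, ∑ y', q y * q y' * ∑ x ∈ ptrs N (U y) (M / 16), (U y' x) ^ 2 ≤ k * Sstar := by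
    have h1 : ∀ y, ∑ y', q y * q y' * ∑ x ∈ ptrs N (U y) (M / 16), (U y' x) ^ 2
        ≤ q y * (k * Sstar) := by
      intro y
      rcases (hq.1 y).lt_or_eq with hy | hy
      · have h2 : ∑ y', q y * q y' * ∑ x ∈ ptrs N (U y) (M / 16), (U y' x) ^ 2
            = q y * ∑ x ∈ ptrs N (U y) (M / 16), ∑ y', q y' * (U y' x) ^ 2 := by
          rw [Finset.sum_comm (s := ptrs N (U y) (M / 16)), Finset.mul_sum]
          refine Finset.sum_congr rfl fun y' _ => ?_
          rw [mul_assoc, Finset.mul_sum]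
        rw [h2]
        refine mul_le_mul_of_nonneg_left ?_ hy.le
        calc ∑ x ∈ ptrs N (U y) (M / 16), ∑ y', q y' * (U y' x) ^ 2
            ≤ ∑ _x ∈ ptrs N (U y) (M / 16), Sstar :=
              Finset.sum_le_sum fun x hx => hS x (ptrs_le hx)
          _ = ((ptrs N (U y) (M / 16)).card : ℝ) * Sstar := by
              rw [Finset.sum_const, nsmul_eq_mul]
          _ ≤ k * Sstar := by
              refine mul_le_mul_of_nonneg_right ?_ hS0
              have h3 := ptrs_card N (U y) hη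
              have h4 := hT y hy
              have h5 : Wvar (U y) N / (M / 16) ≤ T / (M / 16) :=
                div_le_div_of_nonneg_right h4 hη.le
              have h6 : T / (M / 16) = 16 * T / M := by
                field_simp
              rw [hk]
              linarith
      · rw [← hy]
        simp
    calc _ ≤ ∑ y, q y * (k * Sstar) := Finset.sum_le_sum fun y _ => h1 y
      _ = k * Sstar := by rw [← Finset.sum_mul, hq.2, one_mul]
  have hC' : ∑ y, ∑ y', q y * q y' * ∑ x ∈ ptrs N (U y') (M / 16), (U y x) ^ 2 ≤ k * Sstar := by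
    rw [Finset.sum_comm]
    refine le_trans (le_of_eq ?_) hC
    refine Finset.sum_congr rfl fun y _ => Finset.sum_congr rfl fun y' _ => ?_
    ring
  -- part (a)
  have hA : ∑ y, ∑ y', q y * q y' * (W y + W y') ^ 2 = 2 * M ^ 2 + 2 * mb ^ 2 := by
    have h4 : ∀ y, ∑ y', q y * q y' * (W y + W y') ^ 2
        = q y * (W y) ^ 2 + 2 * (q y * W y) * mb + q y * M ^ 2 := by
      intro y
      have h5 : ∀ y', q y * q y' * (W y + W y') ^ 2
          = (q y * (W y) ^ 2) * q y' + (2 * (q y * W y)) * (q y' * W y')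
            + q y * (q y' * (W y') ^ 2) := fun y' => by ring
      simp only [h5]
      rw [Finset.sum_add_distrib, Finset.sum_add_distrib, ← Finset.mul_sum, ← Finset.mul_sum,
        ← Finset.mul_sum, hq.2, ← hmb, hM2]
      ring
    simp only [h4]
    rw [Finset.sum_add_distrib, Finset.sum_add_distrib, hM2, ← Finset.sum_mul, ← Finset.sum_mul,
      ← Finset.mul_sum, ← hmb, hq.2]
    ring
  -- part (b)
  have hB : ∑ y, ∑ y', q y * q y' * (if M / 4 ≤ W y ∧ M / 4 ≤ W y' then 1 else 0) = qa ^ 2 := by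
    have h4 : ∀ y y', q y * q y' * (if M / 4 ≤ W y ∧ M / 4 ≤ W y' then (1 : ℝ) else 0)
        = (q y * big y) * (q y' * big y') := by
      intro y y'
      simp only [hbig]
      by_cases h5 : M / 4 ≤ W y <;> by_cases h6 : M / 4 ≤ W y' <;> simp [h5, h6]
    simp only [h4]
    rw [← Finset.sum_mul_sum, ← hqa]
    ring
  -- assemble
  have hpair : ∑ y, ∑ y', q y * q y' * (normW N (fun x => U y x - U y' x)) ^ 2
      ≤ (2 * M ^ 2 + 2 * mb ^ 2) - (M ^ 2 / 32) * qa ^ 2 + 4 * (k * Sstar) := by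
    have h1 : ∀ y y', q y * q y' * (normW N (fun x => U y x - U y' x)) ^ 2
        ≤ q y * q y' * (W y + W y') ^ 2
          - (M ^ 2 / 32) * (q y * q y' * (if M / 4 ≤ W y ∧ M / 4 ≤ W y' then 1 else 0))
          + 2 * (q y * q y' * ∑ x ∈ ptrs N (U y) (M / 16), (U y' x) ^ 2)
          + 2 * (q y * q y' * ∑ x ∈ ptrs N (U y') (M / 16), (U y x) ^ 2) := by
      intro y y'
      have h2 := pair_ineq N (U y) (U y') hM
      have h3 := mul_le_mul_of_nonneg_left h2 (mul_nonneg (hq.1 y) (hq.1 y'))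
      refine le_trans h3 (le_of_eq ?_)
      ring
    calc _ ≤ ∑ y, ∑ y', (q y * q y' * (W y + W y') ^ 2
          - (M ^ 2 / 32) * (q y * q y' * (if M / 4 ≤ W y ∧ M / 4 ≤ W y' then 1 else 0))
          + 2 * (q y * q y' * ∑ x ∈ ptrs N (U y) (M / 16), (U y' x) ^ 2)
          + 2 * (q y * q y' * ∑ x ∈ ptrs N (U y') (M / 16), (U y x) ^ 2)) :=
          Finset.sum_le_sum fun y _ => Finset.sum_le_sum fun y' _ => h1 y y'
      _ = (∑ y, ∑ y', q y * q y' * (W y + W y') ^ 2)
          - (M ^ 2 / 32) * (∑ y, ∑ y', q y * q y' * (if M / 4 ≤ W y ∧ M / 4 ≤ W y' then 1 else 0))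
          + 2 * (∑ y, ∑ y', q y * q y' * ∑ x ∈ ptrs N (U y) (M / 16), (U y' x) ^ 2)
          + 2 * (∑ y, ∑ y', q y * q y' * ∑ x ∈ ptrs N (U y') (M / 16), (U y x) ^ 2) := by
          simp only [Finset.mul_sum, Finset.sum_add_distrib, Finset.sum_sub_distrib]
      _ ≤ _ := by
          rw [hA, hB]
          linarith
  -- the mean against the second moment
  have hmb2 : mb ^ 2 ≤ M ^ 2 := by
    have h1 : 0 ≤ ∑ y, q y * (W y - mb) ^ 2 :=
      Finset.sum_nonneg fun y _ => mul_nonneg (hq.1 y) (sq_nonneg _)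
    have h2 : ∑ y, q y * (W y - mb) ^ 2 = M ^ 2 - 2 * mb * mb + mb ^ 2 * 1 := by
      have h3 : ∀ y, q y * (W y - mb) ^ 2
          = q y * (W y) ^ 2 - 2 * mb * (q y * W y) + mb ^ 2 * q y := fun y => by ring
      simp only [h3]
      rw [Finset.sum_add_distrib, Finset.sum_sub_distrib, ← Finset.mul_sum, ← Finset.mul_sum,
        hM2, ← hmb, hq.2]
    nlinarith
  have hk0 : 0 ≤ k * Sstar := by
    by_cases hT' : ∃ y, 0 < q y
    · obtain ⟨y, hy⟩ := hT'
      have h1 := hT y hy
      have h2 := Wvar_nonneg (U y) N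
      have : 0 ≤ k := by
        rw [hk]
        have : 0 ≤ 16 * T / M := div_nonneg (by linarith) hM.le
        linarith
      exact mul_nonneg this hS0
    · exfalso
      push Not at hT'
      have h1 : ∑ y, q y ≤ 0 := Finset.sum_nonpos fun y _ => hT' y
      rw [hq.2] at h1
      linarith
  by_cases hcase : mb ≤ M / 2
  · have hmb0 : 0 ≤ mb := Finset.sum_nonneg fun y _ => mul_nonneg (hq.1 y) (hW0 y)
    have h1 : mb ^ 2 ≤ (M / 2) ^ 2 := pow_le_pow_left₀ hmb0 hcase 2
    have h2 : 0 ≤ (M ^ 2 / 32) * qa ^ 2 := by positivity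
    have h3 : 0 < M ^ 2 := by positivity
    nlinarith
  · push Not at hcase
    -- the bound on `qa`
    have hpt : ∀ y, W y ≤ M / 4 + 2 * M * big y + (W y) ^ 2 / (8 * M) := by
      intro y
      have h0 : 0 ≤ (W y) ^ 2 / (8 * M) := by positivity
      by_cases hy : M / 4 ≤ W y
      · simp only [hbig, hy, if_true, mul_one]
        have h1 : 0 ≤ (W y - 4 * M) ^ 2 / (8 * M) := by positivity
        have h2 : (W y - 4 * M) ^ 2 / (8 * M) = (W y) ^ 2 / (8 * M) - W y + 2 * M := by
          field_simp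
          ring
        linarith
      · simp only [hbig, hy, if_false, mul_zero]
        push Not at hy
        linarith
    have hmean : mb ≤ M / 4 + 2 * M * qa + M / 8 := by
      have h1 : mb ≤ ∑ y, q y * (M / 4 + 2 * M * big y + (W y) ^ 2 / (8 * M)) :=
        Finset.sum_le_sum fun y _ => mul_le_mul_of_nonneg_left (hpt y) (hq.1 y)
      have h2 : ∑ y, q y * (M / 4 + 2 * M * big y + (W y) ^ 2 / (8 * M))
          = M / 4 * 1 + 2 * M * qa + M ^ 2 / (8 * M) := by
        have h3 : ∀ y, q y * (M / 4 + 2 * M * big y + (W y) ^ 2 / (8 * M))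
            = (M / 4) * q y + 2 * M * (q y * big y) + (q y * (W y) ^ 2) / (8 * M) := fun y => by
          ring
        simp only [h3]
        rw [Finset.sum_add_distrib, Finset.sum_add_distrib, ← Finset.mul_sum, ← Finset.mul_sum,
          ← Finset.sum_div, hq.2, hM2]
      have h4 : M ^ 2 / (8 * M) = M / 8 := by
        field_simp
      rw [h2, h4] at h1
      linarith
    have hqa1 : 1 / 16 < qa := by
      by_contra hcon
      push Not at hcon
      have : 2 * M * qa ≤ 2 * M * (1 / 16) := mul_le_mul_of_nonneg_left hcon (by positivity)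
      linarith
    have hqa2 : (1 / 256 : ℝ) ≤ qa ^ 2 := by nlinarith
    have h3 : 0 < M ^ 2 := by positivity
    have h4 : (M ^ 2 / 32) * (1 / 256) ≤ (M ^ 2 / 32) * qa ^ 2 :=
      mul_le_mul_of_nonneg_left hqa2 (by positivity)
    nlinarith

end Vale.Agent.Lib.P125
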