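import Vale.Agent.Lib.P125.Fresh
import Vale.Agent.Lib.P125.PerZ

/-!
# The doubling dichotomy for the maximal displacement
-/

namespace Vale.Agent.Lib.P125

open Finset BigOperators Matrix

set_option linter.unusedSectionVars false
set_option linter.unusedSimpArgs false
set_option linter.unusedVariables false

variable {S : Type*} [Fintype S] [DecidableEq S]

/-- The maximal displacement of the initial sums between two states. -/
noncomputable def nrm (N : ℕ) (f : S → ℕ → ℝ) (a b : S) : ℝ :=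
  normW N (fun x => pre f x b - pre f x a)

lemma nrm_nonneg (N : ℕ) (f : S → ℕ → ℝ) (a b : S) : 0 ≤ nrm N f a b := normW_nonneg _ _

lemma nrm_comm (N : ℕ) (f : S → ℕ → ℝ) (a b : S) : nrm N f a b = nrm N f b a := by
  unfold nrm normW
  congr 1
  funext x
  exact abs_sub_comm _ _

lemma nrm_triangle (N : ℕ) (f : S → ℕ → ℝ) (a b d : S) :
    nrm N f a b ≤ nrm N f a d + nrm N f d b := by
  refine normW_le N _ fun x hx => ?_
  have h1 := le_normW N (fun x => pre f x d - pre f x a) hx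
  have h2 := le_normW N (fun x => pre f x b - pre f x d) hx
  have h3 := abs_sub_le (pre f x b) (pre f x d) (pre f x a)
  have h1' : |pre f x d - pre f x a| ≤ nrm N f a d := h1
  have h2' : |pre f x b - pre f x d| ≤ nrm N f d b := h2
  linarith

lemma nrm_le_tau (N : ℕ) (f : S → ℕ → ℝ) (a b : S) : nrm N f a b ≤ tau N f a b := by
  refine normW_le N _ fun x hx => ?_
  have := pre_lip N f hx b a
  rwa [tau_comm] at this

lemma Wvar_disp (N : ℕ) (f : S → ℕ → ℝ) (y z : S) :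
    Wvar (fun x => pre f x y - pre f x z) N = tau N f y z := by
  unfold Wvar tau pre
  refine Finset.sum_congr rfl fun k _ => ?_
  simp only [Finset.sum_range_succ]
  congr 1
  ring

namespace Chain

variable (c : Chain S)

/-- The second moment of the maximal displacement over `t` steps. -/
noncomputable def Dsq (N : ℕ) (f : S → ℕ → ℝ) (t : ℕ) : ℝ :=
  ∑ a, ∑ b, c.w a * (c.P ^ t) a b * (nrm N f a b) ^ 2

lemma Dsq_nonneg (N : ℕ) (f : S → ℕ → ℝ) (t : ℕ) : 0 ≤ c.Dsq N f t :=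
  Finset.sum_nonneg fun a _ => Finset.sum_nonneg fun b _ =>
    mul_nonneg (mul_nonneg (c.w_nonneg a) ((c.pow_stoch t).1 a b)) (sq_nonneg _)

/-- The second moment at one starting point. -/
noncomputable def E2 (N : ℕ) (f : S → ℕ → ℝ) (t : ℕ) (z : S) : ℝ :=
  ∑ y, (c.P ^ t) z y * (nrm N f z y) ^ 2

lemma E2_nonneg (N : ℕ) (f : S → ℕ → ℝ) (t : ℕ) (z : S) : 0 ≤ c.E2 N f t z :=
  Finset.sum_nonneg fun b _ => mul_nonneg ((c.pow_stoch t).1 z b) (sq_nonneg _)

lemma Dsq_eq (N : ℕ) (f : S → ℕ → ℝ) (t : ℕ) : c.Dsq N f t = ∑ z, c.w z * c.E2 N f t z := by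
  unfold Dsq E2
  refine Finset.sum_congr rfl fun a _ => ?_
  rw [Finset.mul_sum]
  exact Finset.sum_congr rfl fun b _ => by ring

/-- Conditioning at the midpoint. -/
lemma Dsq_add (N : ℕ) (f : S → ℕ → ℝ) (s t : ℕ) :
    c.Dsq N f (s + t)
      = ∑ d, c.w d * ∑ a, ∑ b, (c.P ^ s) d a * (c.P ^ t) d b * (nrm N f a b) ^ 2 := by
  unfold Dsq
  calc ∑ a, ∑ b, c.w a * (c.P ^ (s + t)) a b * (nrm N f a b) ^ 2
      = ∑ a, ∑ b, ∑ d, c.w d * ((c.P ^ s) d a * (c.P ^ t) d b * (nrm N f a b) ^ 2) := by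
        refine Finset.sum_congr rfl fun a _ => Finset.sum_congr rfl fun b _ => ?_
        rw [pow_add, Matrix.mul_apply, Finset.mul_sum, Finset.sum_mul]
        refine Finset.sum_congr rfl fun d _ => ?_
        have := c.pow_rev s a d
        calc c.w a * ((c.P ^ s) a d * (c.P ^ t) d b) * (nrm N f a b) ^ 2
            = (c.w a * (c.P ^ s) a d) * ((c.P ^ t) d b * (nrm N f a b) ^ 2) := by ring
          _ = (c.w d * (c.P ^ s) d a) * ((c.P ^ t) d b * (nrm N f a b) ^ 2) := by rw [this]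
          _ = _ := by ring
    _ = ∑ a, ∑ d, ∑ b, c.w d * ((c.P ^ s) d a * (c.P ^ t) d b * (nrm N f a b) ^ 2) := by
        refine Finset.sum_congr rfl fun a _ => ?_
        exact Finset.sum_comm
    _ = ∑ d, ∑ a, ∑ b, c.w d * ((c.P ^ s) d a * (c.P ^ t) d b * (nrm N f a b) ^ 2) :=
        Finset.sum_comm
    _ = _ := by
        refine Finset.sum_congr rfl fun d _ => ?_
        rw [Finset.mul_sum]
        refine Finset.sum_congr rfl fun a _ => ?_
        rw [Finset.mul_sum]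

/-- Weighted Cauchy-Schwarz. -/
lemma cs_weighted {ι : Type*} [Fintype ι] (W u v : ι → ℝ) (hW : ∀ i, 0 ≤ W i) :
    ∑ i, W i * (u i * v i)
      ≤ Real.sqrt (∑ i, W i * (u i) ^ 2) * Real.sqrt (∑ i, W i * (v i) ^ 2) := by
  have h := Real.sum_mul_le_sqrt_mul_sqrt Finset.univ (fun i => Real.sqrt (W i) * u i)
    (fun i => Real.sqrt (W i) * v i)
  have h1 : ∀ i, Real.sqrt (W i) * u i * (Real.sqrt (W i) * v i) = W i * (u i * v i) := by
    intro i
    have := Real.mul_self_sqrt (hW i)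
    calc Real.sqrt (W i) * u i * (Real.sqrt (W i) * v i)
        = (Real.sqrt (W i) * Real.sqrt (W i)) * (u i * v i) := by ring
      _ = _ := by rw [this]
  have h2 : ∀ (g : ι → ℝ) i, (Real.sqrt (W i) * g i) ^ 2 = W i * (g i) ^ 2 := by
    intro g i
    rw [mul_pow, Real.sq_sqrt (hW i)]
  simp only [h1, h2] at h
  exact h

/-- The triangle inequality in `L²`, conditioning at the midpoint. -/
lemma sqrt_Dsq_add_le (N : ℕ) (f : S → ℕ → ℝ) (s t : ℕ) :
    Real.sqrt (c.Dsq N f (s + t)) ≤ Real.sqrt (c.Dsq N f s) + Real.sqrt (c.Dsq N f t) := by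
  let W : S × S × S → ℝ := fun i => c.w i.1 * ((c.P ^ s) i.1 i.2.1 * (c.P ^ t) i.1 i.2.2)
  let u : S × S × S → ℝ := fun i => nrm N f i.1 i.2.1
  let v : S × S × S → ℝ := fun i => nrm N f i.1 i.2.2
  have hW0 : ∀ i, 0 ≤ W i := fun i =>
    mul_nonneg (c.w_nonneg _) (mul_nonneg ((c.pow_stoch s).1 _ _) ((c.pow_stoch t).1 _ _))
  have hA : ∑ i, W i * (u i) ^ 2 = c.Dsq N f s := by
    rw [c.Dsq_eq]
    rw [Fintype.sum_prod_type]
    refine Finset.sum_congr rfl fun d _ => ?_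
    rw [Fintype.sum_prod_type]
    unfold E2
    rw [Finset.mul_sum]
    refine Finset.sum_congr rfl fun a _ => ?_
    show ∑ b, c.w d * ((c.P ^ s) d a * (c.P ^ t) d b) * (nrm N f d a) ^ 2 = _
    have : ∀ b, c.w d * ((c.P ^ s) d a * (c.P ^ t) d b) * (nrm N f d a) ^ 2
        = (c.w d * ((c.P ^ s) d a * (nrm N f d a) ^ 2)) * (c.P ^ t) d b := fun b => by ring
    simp only [this]
    rw [← Finset.mul_sum, (c.pow_stoch t).2, mul_one]
  have hB : ∑ i, W i * (v i) ^ 2 = c.Dsq N f t := by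
    rw [c.Dsq_eq]
    rw [Fintype.sum_prod_type]
    refine Finset.sum_congr rfl fun d _ => ?_
    rw [Fintype.sum_prod_type]
    unfold E2
    show ∑ a, ∑ b, c.w d * ((c.P ^ s) d a * (c.P ^ t) d b) * (nrm N f d b) ^ 2 = _
    rw [Finset.sum_comm, Finset.mul_sum]
    refine Finset.sum_congr rfl fun b _ => ?_
    have : ∀ a, c.w d * ((c.P ^ s) d a * (c.P ^ t) d b) * (nrm N f d b) ^ 2
        = (c.w d * ((c.P ^ t) d b * (nrm N f d b) ^ 2)) * (c.P ^ s) d a := fun a => by ring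
    simp only [this]
    rw [← Finset.mul_sum, (c.pow_stoch s).2, mul_one]
  have hC := cs_weighted W u v hW0
  rw [hA, hB] at hC
  have hmain : c.Dsq N f (s + t) ≤ ∑ i, W i * (u i + v i) ^ 2 := by
    rw [c.Dsq_add, Fintype.sum_prod_type]
    refine Finset.sum_le_sum fun d _ => ?_
    rw [Fintype.sum_prod_type, Finset.mul_sum]
    refine Finset.sum_le_sum fun a _ => ?_
    rw [Finset.mul_sum]
    refine Finset.sum_le_sum fun b _ => ?_
    show c.w d * ((c.P ^ s) d a * (c.P ^ t) d b * (nrm N f a b) ^ 2)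
      ≤ c.w d * ((c.P ^ s) d a * (c.P ^ t) d b) * (nrm N f d a + nrm N f d b) ^ 2
    have h1 : nrm N f a b ≤ nrm N f d a + nrm N f d b := by
      have := nrm_triangle N f a b d
      rwa [nrm_comm N f a d] at this
    have h2 : (nrm N f a b) ^ 2 ≤ (nrm N f d a + nrm N f d b) ^ 2 :=
      pow_le_pow_left₀ (nrm_nonneg _ _ _ _) h1 2
    have h3 := mul_le_mul_of_nonneg_left h2
      (mul_nonneg (c.w_nonneg d) (mul_nonneg ((c.pow_stoch s).1 d a) ((c.pow_stoch t).1 d b)))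
    refine le_trans (le_of_eq ?_) h3
    ring
  have hexp : ∑ i, W i * (u i + v i) ^ 2
      = ∑ i, W i * (u i) ^ 2 + 2 * ∑ i, W i * (u i * v i) + ∑ i, W i * (v i) ^ 2 := by
    rw [Finset.mul_sum, ← Finset.sum_add_distrib, ← Finset.sum_add_distrib]
    exact Finset.sum_congr rfl fun i _ => by ring
  rw [hexp, hA, hB] at hmain
  have h0 := c.Dsq_nonneg N f s
  have h0' := c.Dsq_nonneg N f t
  refine Real.sqrt_le_iff.mpr ⟨by positivity, ?_⟩
  have h1 := Real.sq_sqrt h0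
  have h2 := Real.sq_sqrt h0'
  nlinarith

lemma disp_norm (N : ℕ) (f : S → ℕ → ℝ) (z y y' : S) :
    normW N (fun x => (pre f x y - pre f x z) - (pre f x y' - pre f x z)) = nrm N f y y' := by
  unfold nrm normW
  congr 1
  funext x
  show |(pre f x y - pre f x z) - (pre f x y' - pre f x z)| = |pre f x y' - pre f x y|
  rw [show (pre f x y - pre f x z) - (pre f x y' - pre f x z) = pre f x y - pre f x y' by ring,
    abs_sub_comm]

/-- The second moment at a fixed location, maximised over the location. -/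
noncomputable def Sstar (N : ℕ) (f : S → ℕ → ℝ) (t : ℕ) (z : S) : ℝ :=
  (Finset.range (N + 1)).sup' ⟨0, by simp⟩
    fun x => ∑ y, (c.P ^ t) z y * (pre f x y - pre f x z) ^ 2

lemma le_Sstar (N : ℕ) (f : S → ℕ → ℝ) (t : ℕ) {x : ℕ} (hx : x ≤ N) (z : S) :
    ∑ y, (c.P ^ t) z y * (pre f x y - pre f x z) ^ 2 ≤ c.Sstar N f t z :=
  Finset.le_sup' (fun x => ∑ y, (c.P ^ t) z y * (pre f x y - pre f x z) ^ 2)
    (Finset.mem_range.mpr (by omega))

lemma exists_Sstar (N : ℕ) (f : S → ℕ → ℝ) (t : ℕ) (z : S) :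
    ∃ x, x ≤ N ∧ c.Sstar N f t z = ∑ y, (c.P ^ t) z y * (pre f x y - pre f x z) ^ 2 := by
  obtain ⟨x, hx, h⟩ := Finset.exists_mem_eq_sup' (s := Finset.range (N + 1)) ⟨0, by simp⟩
    (fun x => ∑ y, (c.P ^ t) z y * (pre f x y - pre f x z) ^ 2)
  refine ⟨x, ?_, h⟩
  have := Finset.mem_range.mp hx
  omega

lemma Sstar_nonneg (N : ℕ) (f : S → ℕ → ℝ) (t : ℕ) (z : S) : 0 ≤ c.Sstar N f t z :=
  le_trans (Finset.sum_nonneg fun y _ => mul_nonneg ((c.pow_stoch t).1 z y) (sq_nonneg _))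
    (c.le_Sstar N f t (x := 0) (Nat.zero_le _) z)

/-- The integrated maximised second moment at the dyadic times. -/
lemma sum_Sstar_le (N : ℕ) (f : S → ℕ → ℝ) (hf : c.Lip N f) (n : ℕ) :
    ∑ z, c.w z * c.Sstar N f (16 ^ n) z ≤ 105 * 128 ^ n := by
  choose p hp1 hp2 using c.exists_Sstar N f (16 ^ n)
  have h := c.fresh_bound N f hf p hp1 n
  refine le_trans (le_of_eq ?_) h
  unfold blockMoment
  exact Finset.sum_congr rfl fun z _ => by rw [hp2 z]

/-- Bound on the displacement along `t` steps. -/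
lemma nrm_path (N : ℕ) (f : S → ℕ → ℝ) (hf : c.Lip N f) (t : ℕ) (a b : S)
    (h : 0 < (c.P ^ t) a b) : nrm N f a b ≤ t :=
  le_trans (nrm_le_tau N f a b) (c.tau_path N f hf t a b h)

lemma E2_le (N : ℕ) (f : S → ℕ → ℝ) (hf : c.Lip N f) (t : ℕ) (z : S) :
    c.E2 N f t z ≤ (t : ℝ) ^ 2 := by
  unfold E2
  have h1 : ∀ y, (c.P ^ t) z y * (nrm N f z y) ^ 2 ≤ (c.P ^ t) z y * (t : ℝ) ^ 2 := by
    intro y
    rcases ((c.pow_stoch t).1 z y).lt_or_eq with h | h
    · refine mul_le_mul_of_nonneg_left ?_ h.le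
      exact pow_le_pow_left₀ (nrm_nonneg _ _ _ _) (c.nrm_path N f hf t z y h) 2
    · rw [← h]; simp
  calc _ ≤ ∑ y, (c.P ^ t) z y * (t : ℝ) ^ 2 := Finset.sum_le_sum fun y _ => h1 y
    _ = (t : ℝ) ^ 2 := by rw [← Finset.sum_mul, (c.pow_stoch t).2, one_mul]

lemma Dsq_le (N : ℕ) (f : S → ℕ → ℝ) (hf : c.Lip N f) (t : ℕ) :
    c.Dsq N f t ≤ (t : ℝ) ^ 2 := by
  rw [c.Dsq_eq]
  calc _ ≤ ∑ z, c.w z * (t : ℝ) ^ 2 :=
        Finset.sum_le_sum fun z _ => mul_le_mul_of_nonneg_left (c.E2_le N f hf t z) (c.w_nonneg z)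
    _ = (t : ℝ) ^ 2 := by rw [← Finset.sum_mul, c.w_sum, one_mul]

/-- Doubling at one point. -/
lemma pointwise_doubling (N : ℕ) (f : S → ℕ → ℝ) (hf : c.Lip N f) (t : ℕ) {D : ℝ} (hD : 0 < D)
    (hDt : D ≤ t) (z : S) :
    ∑ a, ∑ b, (c.P ^ t) z a * (c.P ^ t) z b * (nrm N f a b) ^ 2
      ≤ 4 * c.E2 N f t z - (1 / 8192) * (if D ^ 2 / 4 ≤ c.E2 N f t z then c.E2 N f t z else 0)
        + (136 * t / D) * c.Sstar N f t z := by
  set q : S → ℝ := (c.P ^ t) z with hq
  have hqP : IsProb q := (c.pow_stoch t).isProb z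
  set U : S → ℕ → ℝ := fun y x => pre f x y - pre f x z with hU
  have hL : ∑ a, ∑ b, q a * q b * (nrm N f a b) ^ 2
      = ∑ y, ∑ y', q y * q y' * (normW N (fun x => U y x - U y' x)) ^ 2 := by
    refine Finset.sum_congr rfl fun a _ => Finset.sum_congr rfl fun b _ => ?_
    rw [hU]
    simp only []
    rw [disp_norm]
  have hE : c.E2 N f t z = ∑ y, q y * (normW N (U y)) ^ 2 := rfl
  have hS0 := c.Sstar_nonneg N f t z
  have hcoef : 0 ≤ 136 * (t : ℝ) / D := by positivity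
  rw [hL]
  by_cases hcase : D ^ 2 / 4 ≤ c.E2 N f t z
  · rw [if_pos hcase]
    set M := Real.sqrt (c.E2 N f t z) with hMdef
    have hM2 : M ^ 2 = c.E2 N f t z := Real.sq_sqrt (c.E2_nonneg N f t z)
    have hMD : D / 2 ≤ M := by
      apply Real.le_sqrt_of_sq_le
      nlinarith
    have hM : 0 < M := by linarith
    have hmain := per_z N hqP U (M := M) (T := t) (Sstar := c.Sstar N f t z) hM
      (by rw [hM2]; rfl) (by
        intro y hy
        have h1 : Wvar (U y) N = tau N f y z := Wvar_disp N f y z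
        rw [h1, tau_comm]
        exact c.tau_path N f hf t z y hy)
      (fun x hx => c.le_Sstar N f t hx z)
    rw [hM2] at hmain
    refine le_trans hmain ?_
    have ht0 : (0 : ℝ) ≤ t := Nat.cast_nonneg t
    have h1 : 16 * (t : ℝ) / M ≤ 32 * t / D := by
      rw [div_le_div_iff₀ hM hD]
      nlinarith
    have h2 : (2 : ℝ) ≤ 2 * t / D := by
      rw [le_div_iff₀ hD]
      linarith
    have h3 : 4 * (16 * (t : ℝ) / M + 2) ≤ 136 * t / D := by
      have : 136 * (t : ℝ) / D = 4 * (32 * t / D + 2 * t / D) := by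
        field_simp
        ring
      rw [this]
      linarith
    have h4 := mul_le_mul_of_nonneg_right h3 hS0
    linarith
  · rw [if_neg hcase]
    have h1 := per_z_triv N hqP U
    rw [← hE] at h1
    have h2 := mul_nonneg hcoef hS0
    linarith

/-- The doubling inequality. -/
theorem doubling_ineq (N : ℕ) (f : S → ℕ → ℝ) (hf : c.Lip N f) (t : ℕ) {D : ℝ} (hD : 0 < D)
    (hDsq : D ^ 2 = c.Dsq N f t) (hDt : D ≤ t) :
    c.Dsq N f (t + t) ≤ (4 - 3 / 32768) * D ^ 2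
      + (136 * t / D) * ∑ z, c.w z * c.Sstar N f t z := by
  rw [c.Dsq_add]
  have h1 : ∑ z, c.w z * ∑ a, ∑ b, (c.P ^ t) z a * (c.P ^ t) z b * (nrm N f a b) ^ 2
      ≤ ∑ z, c.w z * (4 * c.E2 N f t z
        - (1 / 8192) * (if D ^ 2 / 4 ≤ c.E2 N f t z then c.E2 N f t z else 0)
        + (136 * t / D) * c.Sstar N f t z) :=
    Finset.sum_le_sum fun z _ => mul_le_mul_of_nonneg_left
      (c.pointwise_doubling N f hf t hD hDt z) (c.w_nonneg z)
  have h2 : ∑ z, c.w z * (4 * c.E2 N f t z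
        - (1 / 8192) * (if D ^ 2 / 4 ≤ c.E2 N f t z then c.E2 N f t z else 0)
        + (136 * t / D) * c.Sstar N f t z)
      = 4 * ∑ z, c.w z * c.E2 N f t z
        - (1 / 8192) * ∑ z, c.w z * (if D ^ 2 / 4 ≤ c.E2 N f t z then c.E2 N f t z else 0)
        + (136 * t / D) * ∑ z, c.w z * c.Sstar N f t z := by
    rw [Finset.mul_sum, Finset.mul_sum, Finset.mul_sum, ← Finset.sum_sub_distrib,
      ← Finset.sum_add_distrib]
    exact Finset.sum_congr rfl fun z _ => by ring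
  have h3 : (3 / 4) * D ^ 2 ≤
      ∑ z, c.w z * (if D ^ 2 / 4 ≤ c.E2 N f t z then c.E2 N f t z else 0) := by
    have h4 : ∑ z, c.w z * (c.E2 N f t z - D ^ 2 / 4) = (3 / 4) * D ^ 2 := by
      have : ∀ z, c.w z * (c.E2 N f t z - D ^ 2 / 4)
          = c.w z * c.E2 N f t z - (D ^ 2 / 4) * c.w z := fun z => by ring
      simp only [this]
      rw [Finset.sum_sub_distrib, ← Finset.mul_sum, c.w_sum, ← c.Dsq_eq, ← hDsq]
      ring
    rw [← h4]
    refine Finset.sum_le_sum fun z _ => mul_le_mul_of_nonneg_left ?_ (c.w_nonneg z)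
    split_ifs with h5
    · have : 0 < D ^ 2 / 4 := by positivity
      linarith
    · push Not at h5
      linarith
  rw [c.Dsq_eq] at hDsq
  rw [← hDsq] at h2
  refine le_trans h1 ?_
  rw [h2]
  nlinarith

/-- Doubling dichotomy at the times `16 ^ n`. -/
theorem doubling_dich (N : ℕ) (f : S → ℕ → ℝ) (hf : c.Lip N f) (n : ℕ) :
    c.Dsq N f (16 ^ n + 16 ^ n) ≤ (4 - 1 / 16384) * c.Dsq N f (16 ^ n) ∨
      (c.Dsq N f (16 ^ n)) ^ 3 < 10 ^ 18 * ((2048 : ℝ) ^ n) ^ 2 := by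
  set t := 16 ^ n with ht
  set X := c.Dsq N f t with hX
  have hX0 : 0 ≤ X := c.Dsq_nonneg N f t
  by_cases hcase : X ^ 3 < 10 ^ 18 * ((2048 : ℝ) ^ n) ^ 2
  · exact Or.inr hcase
  left
  push Not at hcase
  set x : ℝ := (2048 : ℝ) ^ n with hx
  have hx0 : 0 < x := by positivity
  have hXpos : 0 < X := by
    by_contra h
    have h' : X = 0 := le_antisymm (not_lt.mp h) hX0
    rw [h'] at hcase
    have : 0 < (10 : ℝ) ^ 18 * x ^ 2 := by positivity
    norm_num at hcase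
    linarith
  set D := Real.sqrt X with hD
  have hDpos : 0 < D := Real.sqrt_pos.mpr hXpos
  have hD2 : D ^ 2 = X := Real.sq_sqrt hX0
  have hDt : D ≤ t := by
    apply Real.sqrt_le_iff.mpr
    exact ⟨Nat.cast_nonneg t, c.Dsq_le N f hf t⟩
  have h1 := c.doubling_ineq N f hf t hDpos hD2 hDt
  have h2 := c.sum_Sstar_le N f hf n
  rw [← ht] at h2
  have h3 : (136 * (t : ℝ) / D) * ∑ z, c.w z * c.Sstar N f t z
      ≤ (136 * t / D) * (105 * 128 ^ n) :=
    mul_le_mul_of_nonneg_left h2 (by positivity)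
  have h4 : (136 * (t : ℝ) / D) * (105 * 128 ^ n) = 14280 * x / D := by
    have h5 : ((t : ℕ) : ℝ) = (16 : ℝ) ^ n := by rw [ht]; push_cast; ring
    have h6 : x = (16 : ℝ) ^ n * 128 ^ n := by
      rw [hx, ← mul_pow]; norm_num
    rw [h5, h6]
    ring
  -- the hypothesis gives `10 ^ 9 x ≤ D ^ 3`
  have h7 : 10 ^ 9 * x ≤ D ^ 3 := by
    have h8 : (10 ^ 9 * x) ^ 2 ≤ (D ^ 3) ^ 2 := by
      have h9 : (D ^ 3) ^ 2 = X ^ 3 := by
        rw [← hD2]; ring
      rw [h9]
      nlinarith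
    exact (sq_le_sq₀ (by positivity) (by positivity)).mp h8
  have h10 : 14280 * x / D ≤ (1 / 32768) * D ^ 2 := by
    rw [div_le_iff₀ hDpos]
    nlinarith
  rw [hD2] at h1 h10
  linarith

/-- Trivial doubling. -/
lemma Dsq_double_le (N : ℕ) (f : S → ℕ → ℝ) (t : ℕ) :
    c.Dsq N f (t + t) ≤ 4 * c.Dsq N f t := by
  have h := c.sqrt_Dsq_add_le N f t t
  have h0 := c.Dsq_nonneg N f t
  have h1 := Real.sq_sqrt h0
  have h2 := Real.sqrt_nonneg (c.Dsq N f (t + t))
  have h3 := Real.sq_sqrt (c.Dsq_nonneg N f (t + t))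
  nlinarith

/-- The second moment at times `16 ^ n`. -/
theorem Dsq_iter (N : ℕ) (f : S → ℕ → ℝ) (hf : c.Lip N f) (n : ℕ) :
    c.Dsq N f (16 ^ n) ≤ 256 * 10 ^ 6 * (256 - 1 / 256) ^ n := by
  induction n with
  | zero =>
    have := c.Dsq_le N f hf (16 ^ 0)
    norm_num at this ⊢
    linarith
  | succ n ih =>
    set X := c.Dsq N f (16 ^ n) with hX
    have hX0 : 0 ≤ X := c.Dsq_nonneg N f _
    set m := 16 ^ n with hm
    have hpow : 16 ^ (n + 1) = ((m + m) + (m + m)) + ((m + m) + (m + m))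
        + (((m + m) + (m + m)) + ((m + m) + (m + m))) := by
      rw [hm]; ring
    have h1 := c.Dsq_double_le N f (((m + m) + (m + m)) + ((m + m) + (m + m)))
    have h2 := c.Dsq_double_le N f ((m + m) + (m + m))
    have h3 := c.Dsq_double_le N f (m + m)
    rw [← hpow] at h1
    have hρ : (1 : ℝ) ≤ 256 - 1 / 256 := by norm_num
    have hρpow : (0 : ℝ) < (256 - 1 / 256) ^ n := by positivity
    rcases c.doubling_dich N f hf n with h | h
    · have h5 : (256 - 1 / 256 : ℝ) ^ (n + 1) = (256 - 1 / 256) * (256 - 1 / 256) ^ n := by ring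
      rw [h5]
      rw [← hm, ← hX] at h
      nlinarith
    · rw [← hm, ← hX] at h
      have h6 := c.Dsq_double_le N f m
      rw [← hX] at h6
      have h7 : X ≤ 10 ^ 6 * 162 ^ n := by
        by_contra hcon
        push Not at hcon
        have h8 : (10 ^ 6 * (162 : ℝ) ^ n) ^ 3 ≤ X ^ 3 :=
          pow_le_pow_left₀ (by positivity) hcon.le 3
        have h9 : ((2048 : ℝ) ^ n) ^ 2 ≤ ((162 : ℝ) ^ n) ^ 3 := by
          rw [← pow_mul, ← pow_mul, mul_comm n 2, mul_comm n 3, pow_mul, pow_mul]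
          exact pow_le_pow_left₀ (by norm_num) (by norm_num) n
        have h10 : (10 ^ 6 * (162 : ℝ) ^ n) ^ 3 = 10 ^ 18 * ((162 : ℝ) ^ n) ^ 3 := by ring
        rw [h10] at h8
        nlinarith
      have h11 : (162 : ℝ) ^ n ≤ (256 - 1 / 256) ^ n :=
        pow_le_pow_left₀ (by norm_num) (by norm_num) n
      have h12 : (256 - 1 / 256 : ℝ) ^ (n + 1) = (256 - 1 / 256) * (256 - 1 / 256) ^ n := by ring
      rw [h12]
      have h13 : X ≤ 10 ^ 6 * (256 - 1 / 256) ^ n := by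
        have : (10 : ℝ) ^ 6 * 162 ^ n ≤ 10 ^ 6 * (256 - 1 / 256) ^ n :=
          mul_le_mul_of_nonneg_left h11 (by positivity)
        linarith
      nlinarith

end Chain

end Vale.Agent.Lib.P125
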