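import Vale.Agent.Lib.P125.Chain

/-!
The drift bound: for a reversible chain and coordinates `f i` with
`∑ i, |f i v - f i u| ≤ 1` along transitions, the mean of
`sup_x |(P^τ - I) F_x|` is at most `τ δ + 24 / δ^2` for every `δ > 0`.
-/

open Finset

namespace Vale.Agent.Lib.P125

variable {S : Type*} [Fintype S] [DecidableEq S]

/-- running sums of the coordinates -/
noncomputable def Fs (f : ℕ → S → ℝ) (x : ℕ) (z : S) : ℝ := ∑ i ∈ range x, f i z

omit [DecidableEq S] [Fintype S] in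
@[simp] lemma Fs_zero (f : ℕ → S → ℝ) (z : S) : Fs f 0 z = 0 := by simp [Fs]

omit [DecidableEq S] [Fintype S] in
lemma Fs_succ (f : ℕ → S → ℝ) (x : ℕ) (z : S) : Fs f (x + 1) z = Fs f x z + f x z := by
  simp [Fs, sum_range_succ]

omit [DecidableEq S] [Fintype S] in
lemma Fs_ind (f : ℕ → S → ℝ) {x N : ℕ} (hx : x ≤ N) (w : S) :
    Fs f x w = ∑ i ∈ range N, (if i < x then (1 : ℝ) else 0) * f i w := by
  unfold Fs
  calc ∑ i ∈ range x, f i w
      = ∑ i ∈ range x, (if i < x then (1 : ℝ) else 0) * f i w := by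
        refine sum_congr rfl (fun i hi => ?_)
        simp [mem_range.mp hi]
    _ = _ := by
        refine sum_subset (range_subset_range.mpr hx) (fun i _ hi => ?_)
        simp [mem_range.not.mp hi]

omit [DecidableEq S] in
/-- Dirichlet form identity -/
lemma dirichlet {pi : S → ℝ} {P : Matrix S S ℝ} (hrev : ∀ u v, pi u * P u v = pi v * P v u)
    (hsum : ∀ u, ∑ v, P u v = 1) (g f : S → ℝ) :
    ∑ u, pi u * g u * (∑ v, P u v * f v - f u)
      = (1 / 2) * ∑ u, ∑ v, pi u * P u v * ((g u - g v) * (f v - f u)) := by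
  have h1 : ∀ u, pi u * g u * (∑ v, P u v * f v - f u)
      = ∑ v, pi u * P u v * (g u * (f v - f u)) := by
    intro u
    have h2 : ∑ v, P u v * f v - f u = ∑ v, P u v * (f v - f u) := by
      simp_rw [mul_sub]
      rw [sum_sub_distrib, ← sum_mul, hsum, one_mul]
    rw [h2, mul_sum]
    exact sum_congr rfl (fun v _ => by ring)
  simp_rw [h1]
  set T : ℝ := ∑ u, ∑ v, pi u * P u v * (g u * (f v - f u)) with hT
  have h3 : T = ∑ u, ∑ v, pi u * P u v * (g v * (f u - f v)) := by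
    rw [hT, sum_comm]
    refine sum_congr rfl (fun u _ => sum_congr rfl (fun v _ => ?_))
    rw [hrev]
  have h4 : ∑ u, ∑ v, pi u * P u v * ((g u - g v) * (f v - f u))
      = T + ∑ u, ∑ v, pi u * P u v * (g v * (f u - f v)) := by
    rw [hT, ← sum_add_distrib]
    refine sum_congr rfl (fun u _ => ?_)
    rw [← sum_add_distrib]
    exact sum_congr rfl (fun v _ => by ring)
  rw [h4, ← h3]
  ring

/-- the operator identity `P^τ - 1 = τ W (P - 1)` on functions -/
lemma pow_sub_apply (P : Matrix S S ℝ) {τ : ℕ} (hτ : 1 ≤ τ) (f : S → ℝ) (z : S) :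
    ∑ w, (P ^ τ) z w * f w - f z
      = (τ : ℝ) * ∑ w, win P τ z w * (∑ v, P w v * f v - f w) := by
  have hτ0 : (τ : ℝ) ≠ 0 := by positivity
  have h0 : ∑ k ∈ range τ, P ^ k = (τ : ℝ) • win P τ := by
    unfold win
    rw [smul_smul, mul_inv_cancel₀ hτ0, one_smul]
  have h1 : (P ^ τ - 1).mulVec f = (∑ k ∈ range τ, P ^ k).mulVec ((P - 1).mulVec f) := by
    rw [Matrix.mulVec_mulVec, geom_sum_mul]
  have h2 : (P - 1).mulVec f = fun w => ∑ v, P w v * f v - f w := by
    funext w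
    rw [Matrix.sub_mulVec, Matrix.one_mulVec]
    simp [Matrix.mulVec, dotProduct]
  rw [h2, h0] at h1
  have h3 := congrFun h1 z
  rw [Matrix.sub_mulVec, Matrix.one_mulVec, Matrix.smul_mulVec] at h3
  simpa [Matrix.mulVec, dotProduct] using h3

/-- the average of `Φ` under the window kernel -/
noncomputable def winAvg (P : Matrix S S ℝ) (τ : ℕ) (Φ : S → ℝ) (u : S) : ℝ :=
  ∑ w, win P τ u w * Φ w

/-- duality for one pair of functions -/
lemma duality_term {pi : S → ℝ} {P : Matrix S S ℝ} (hP : IsRevK pi P) {τ : ℕ} (hτ : 1 ≤ τ)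
    (Φ f : S → ℝ) :
    ∑ z, pi z * Φ z * (∑ w, (P ^ τ) z w * f w - f z)
      = ((τ : ℝ) / 2) * ∑ u, ∑ v, pi u * P u v *
          ((winAvg P τ Φ u - winAvg P τ Φ v) * (f v - f u)) := by
  have hW := hP.win hτ
  set g : S → ℝ := fun w => ∑ v, P w v * f v - f w with hg
  have h1 : ∑ z, pi z * Φ z * (∑ w, (P ^ τ) z w * f w - f z)
      = (τ : ℝ) * ∑ w, pi w * winAvg P τ Φ w * g w := by
    have h2 : ∀ z, pi z * Φ z * (∑ w, (P ^ τ) z w * f w - f z)
        = (τ : ℝ) * ∑ w, pi z * win P τ z w * Φ z * g w := by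
      intro z
      rw [pow_sub_apply P hτ f z, mul_sum, mul_sum, mul_sum]
      exact sum_congr rfl (fun w _ => by simp only [hg]; ring)
    simp_rw [h2]
    rw [← mul_sum, sum_comm]
    congr 1
    refine sum_congr rfl (fun w _ => ?_)
    unfold winAvg
    rw [mul_sum, sum_mul]
    refine sum_congr rfl (fun z _ => ?_)
    rw [hW.rev]
    ring
  rw [h1, dirichlet hP.rev hP.sum_one (winAvg P τ Φ) f]
  ring

/-- the window average of an indicator of a superlevel set, in terms of the rank function -/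
lemma winAvg_ind {pi : S → ℝ} {P : Matrix S S ℝ} (hP : IsRevK pi P) {τ : ℕ} (hτ : 1 ≤ τ)
    (x : S → ℕ) (i : ℕ) (u : S) :
    winAvg P τ (fun w => if i < x w then (1 : ℝ) else 0) u
      = 1 - ∑ w, if x w < i + 1 then win P τ u w else 0 := by
  have hW := hP.win hτ
  unfold winAvg
  rw [eq_sub_iff_add_eq, ← sum_add_distrib]
  refine Eq.trans (sum_congr rfl (fun w _ => ?_)) (hW.sum_one u)
  by_cases h : i < x w
  · have h2 : ¬ x w < i + 1 := by omega
    simp [h, h2]
  · have h2 : x w < i + 1 := by omega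
    simp [h, h2]

/-- one-sided drift bound, for a state dependent choice of the running sum -/
theorem drift_one_sided {pi : S → ℝ} {P : Matrix S S ℝ} (hP : IsRevK pi P) (hpi0 : ∀ u, 0 ≤ pi u)
    (hpi : ∑ u, pi u = 1) (f : ℕ → S → ℝ) (N : ℕ)
    (hf : ∀ u v, 0 < pi u * P u v → ∑ i ∈ range N, |f i v - f i u| ≤ 1)
    (x : S → ℕ) (hx : ∀ z, x z ≤ N) {τ : ℕ} (hτ : 1 ≤ τ) {δ : ℝ} (hδ : 0 < δ) :
    ∑ z, pi z * (∑ w, (P ^ τ) z w * Fs f (x z) w - Fs f (x z) z)
      ≤ (τ : ℝ) * δ / 2 + 12 / δ ^ 2 := by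
  have hW := hP.win hτ
  have hτ0 : (0 : ℝ) < τ := by positivity
  set Φ : ℕ → S → ℝ := fun i w => if i < x w then (1 : ℝ) else 0 with hΦ
  set J : S → S → ℝ := Jen (win P τ) x (N + 1) with hJ
  have hJ0 : ∀ u v, 0 ≤ J u v := by
    intro u v
    have := kol_le hW.nonneg x (n := N + 1) (i := 0) (Nat.zero_le _) u v
    simp only [not_lt_zero', if_false, sum_const_zero, sub_zero, abs_zero] at this
    norm_num at this
    exact this
  -- step 1: rewrite in terms of the coordinates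
  have h1 : ∀ z, pi z * (∑ w, (P ^ τ) z w * Fs f (x z) w - Fs f (x z) z)
      = ∑ i ∈ range N, pi z * Φ i z * (∑ w, (P ^ τ) z w * f i w - f i z) := by
    intro z
    have h2 : ∑ w, (P ^ τ) z w * Fs f (x z) w - Fs f (x z) z
        = ∑ i ∈ range N, Φ i z * (∑ w, (P ^ τ) z w * f i w - f i z) := by
      simp_rw [Fs_ind f (hx z), mul_sub, sum_sub_distrib, mul_sum]
      congr 1
      rw [sum_comm]
      refine sum_congr rfl (fun i _ => sum_congr rfl (fun w _ => ?_))
      simp only [hΦ]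
      ring
    rw [h2, mul_sum]
    exact sum_congr rfl (fun i _ => by ring)
  simp_rw [h1]
  rw [sum_comm]
  simp_rw [duality_term hP hτ]
  rw [← mul_sum, sum_comm]
  simp_rw [sum_comm (s := range N) (t := univ)]
  -- step 2: pointwise bound on an edge
  have h3 : ∀ u v, ∑ i ∈ range N, pi u * P u v *
        ((winAvg P τ (Φ i) u - winAvg P τ (Φ i) v) * (f i v - f i u))
      ≤ pi u * P u v * (δ + 3 * J u v / δ ^ 2) := by
    intro u v
    rw [← mul_sum]
    rcases (mul_nonneg (hpi0 u) (hP.nonneg u v)).eq_or_lt with h0 | h0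
    · rw [← h0]; simp
    refine mul_le_mul_of_nonneg_left ?_ h0.le
    have hb : ∀ i ∈ range N, |winAvg P τ (Φ i) u - winAvg P τ (Φ i) v|
        ≤ δ + 3 * J u v / δ ^ 2 := by
      intro i hi
      have hi' := mem_range.mp hi
      simp only [hΦ]
      rw [winAvg_ind hP hτ x i u, winAvg_ind hP hτ x i v]
      have h4 := kol_le hW.nonneg x (n := N + 1) (i := i + 1) (by omega) u v
      have h5 : 1 - (∑ w, if x w < i + 1 then win P τ u w else 0)
            - (1 - ∑ w, if x w < i + 1 then win P τ v w else 0)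
          = -((∑ w, if x w < i + 1 then win P τ u w else 0)
              - ∑ w, if x w < i + 1 then win P τ v w else 0) := by ring
      rw [h5, abs_neg]
      refine le_trans (le_add_cube_div (abs_nonneg _) hδ) ?_
      have h6 : 0 < δ ^ 2 := by positivity
      have := div_le_div_of_nonneg_right h4 h6.le
      linarith
    have hc : 0 ≤ δ + 3 * J u v / δ ^ 2 := by
      have := hJ0 u v
      positivity
    calc ∑ i ∈ range N, (winAvg P τ (Φ i) u - winAvg P τ (Φ i) v) * (f i v - f i u)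
        ≤ ∑ i ∈ range N, (δ + 3 * J u v / δ ^ 2) * |f i v - f i u| := by
          refine sum_le_sum (fun i hi => ?_)
          calc _ ≤ |(winAvg P τ (Φ i) u - winAvg P τ (Φ i) v) * (f i v - f i u)| := le_abs_self _
            _ = |winAvg P τ (Φ i) u - winAvg P τ (Φ i) v| * |f i v - f i u| := abs_mul _ _
            _ ≤ _ := mul_le_mul_of_nonneg_right (hb i hi) (abs_nonneg _)
      _ = (δ + 3 * J u v / δ ^ 2) * ∑ i ∈ range N, |f i v - f i u| := by rw [mul_sum]
      _ ≤ (δ + 3 * J u v / δ ^ 2) * 1 := mul_le_mul_of_nonneg_left (hf u v h0) hc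
      _ = _ := mul_one _
  have h7 := energy_win hP hpi0 hpi hτ (r := x) (n := N + 1) (fun w => by have := hx w; omega)
  have h8 : ∑ u, ∑ v, pi u * P u v * (δ + 3 * J u v / δ ^ 2)
      ≤ δ + (3 / δ ^ 2) * (8 / τ) := by
    have h9 : ∀ u v, pi u * P u v * (δ + 3 * J u v / δ ^ 2)
        = δ * (pi u * P u v) + (3 / δ ^ 2) * (pi u * P u v * J u v) := by
      intro u v
      field_simp
    have h10 : ∑ u, ∑ v, pi u * P u v * (δ + 3 * J u v / δ ^ 2)
        = δ * (∑ u, ∑ v, pi u * P u v) + (3 / δ ^ 2) * ∑ u, ∑ v, pi u * P u v * J u v := by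
      simp_rw [h9]
      simp only [mul_sum, sum_add_distrib]
    rw [h10, hP.mass hpi, mul_one]
    have h11 : (3 / δ ^ 2) * ∑ u, ∑ v, pi u * P u v * J u v ≤ (3 / δ ^ 2) * (8 / τ) :=
      mul_le_mul_of_nonneg_left h7 (by positivity)
    linarith
  have h12 : ∑ u, ∑ v, ∑ i ∈ range N, pi u * P u v *
        ((winAvg P τ (Φ i) u - winAvg P τ (Φ i) v) * (f i v - f i u))
      ≤ δ + (3 / δ ^ 2) * (8 / τ) :=
    le_trans (sum_le_sum (fun u _ => sum_le_sum (fun v _ => h3 u v))) h8
  have h13 : ((τ : ℝ) / 2) * (δ + (3 / δ ^ 2) * (8 / τ)) = (τ : ℝ) * δ / 2 + 12 / δ ^ 2 := by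
    field_simp
    ring
  rw [← h13]
  exact mul_le_mul_of_nonneg_left h12 (by positivity)

end Vale.Agent.Lib.P125
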