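import Vale.Agent.Lib.P125.Rank

/-!
# The third walker energy and the window estimate
-/

namespace Vale.Agent.Lib.P125

open Finset BigOperators Matrix

set_option linter.unusedSectionVars false
set_option linter.unusedSimpArgs false

variable {S : Type*} [Fintype S] [DecidableEq S]

namespace Chain

variable (c : Chain S)

/-- The energy functional. -/
def Phi (p : S → ℕ) (K K' : Matrix S S ℝ) : ℝ :=
  ∑ z, c.w z * ∑ y, K' z y * (cumv p (K z) (p y)) ^ 2

/-- The energy gap. -/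
def Gap (p : S → ℕ) (K K' : Matrix S S ℝ) : ℝ :=
  ∑ u, c.w u * ∑ y, K' u y * ∑ z, c.P u z * (cumv p (K z) (p y) - cumv p ((c.P * K) u) (p y)) ^ 2

lemma Phi_nonneg (p : S → ℕ) (K : Matrix S S ℝ) {K' : Matrix S S ℝ} (hK' : IsStoch K') :
    0 ≤ c.Phi p K K' :=
  Finset.sum_nonneg fun z _ => mul_nonneg (c.w_nonneg z)
    (Finset.sum_nonneg fun y _ => mul_nonneg (hK'.1 z y) (sq_nonneg _))

lemma Phi_le_one (p : S → ℕ) {K K' : Matrix S S ℝ} (hK : IsStoch K) (hK' : IsStoch K') :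
    c.Phi p K K' ≤ 1 := by
  have h1 : ∀ z, ∑ y, K' z y * (cumv p (K z) (p y)) ^ 2 ≤ 1 := by
    intro z
    rw [← hK'.2 z]
    refine Finset.sum_le_sum fun y _ => ?_
    have h2 := cumv_nonneg p (hK.isProb z) (p y)
    have h3 := cumv_le_one p (hK.isProb z) (p y)
    have h4 : (cumv p (K z) (p y)) ^ 2 ≤ 1 := by nlinarith
    have := hK'.1 z y
    nlinarith
  calc c.Phi p K K' ≤ ∑ z, c.w z * 1 :=
        Finset.sum_le_sum fun z _ => mul_le_mul_of_nonneg_left (h1 z) (c.w_nonneg z)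
    _ = 1 := by simp [c.w_sum]

lemma Gap_nonneg (p : S → ℕ) (K : Matrix S S ℝ) {K' : Matrix S S ℝ} (hK' : IsStoch K') :
    0 ≤ c.Gap p K K' :=
  Finset.sum_nonneg fun u _ => mul_nonneg (c.w_nonneg u)
    (Finset.sum_nonneg fun y _ => mul_nonneg (hK'.1 u y)
      (Finset.sum_nonneg fun z _ => mul_nonneg (c.stoch.1 u z) (sq_nonneg _)))

/-- Variance identity for the weights `P u`. -/
lemma variance (u : S) (g : S → ℝ) :
    ∑ z, c.P u z * (g z) ^ 2
      = (∑ z, c.P u z * g z) ^ 2 + ∑ z, c.P u z * (g z - ∑ z', c.P u z' * g z') ^ 2 := by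
  set m := ∑ z', c.P u z' * g z' with hm
  have h1 : ∑ z, c.P u z * (g z - m) ^ 2
      = ∑ z, c.P u z * (g z) ^ 2 - 2 * m * ∑ z, c.P u z * g z + m ^ 2 * ∑ z, c.P u z := by
    calc ∑ z, c.P u z * (g z - m) ^ 2
        = ∑ z, (c.P u z * (g z) ^ 2 - 2 * m * (c.P u z * g z) + m ^ 2 * c.P u z) :=
          Finset.sum_congr rfl fun z _ => by ring
      _ = _ := by
          rw [Finset.sum_add_distrib, Finset.sum_sub_distrib, ← Finset.mul_sum, ← Finset.mul_sum]
  rw [h1, ← hm, c.stoch.2 u]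
  ring

/-- One step of the third walker monotonicity. -/
lemma energy_step (p : S → ℕ) (K K' : Matrix S S ℝ) :
    c.Phi p K (c.P * K') = c.Phi p (c.P * K) K' + c.Gap p K K' := by
  have h1 : c.Phi p K (c.P * K')
      = ∑ u, c.w u * ∑ y, K' u y * ∑ z, c.P u z * (cumv p (K z) (p y)) ^ 2 := by
    unfold Phi
    calc ∑ z, c.w z * ∑ y, (c.P * K') z y * (cumv p (K z) (p y)) ^ 2
        = ∑ z, ∑ u, ∑ y, (c.w z * c.P z u) * (K' u y * (cumv p (K z) (p y)) ^ 2) := by
          refine Finset.sum_congr rfl fun z _ => ?_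
          simp only [Matrix.mul_apply, Finset.sum_mul, Finset.mul_sum]
          rw [Finset.sum_comm]
          refine Finset.sum_congr rfl fun u _ => Finset.sum_congr rfl fun y _ => ?_
          ring
      _ = ∑ u, ∑ z, ∑ y, (c.w u * c.P u z) * (K' u y * (cumv p (K z) (p y)) ^ 2) := by
          rw [Finset.sum_comm]
          refine Finset.sum_congr rfl fun u _ => Finset.sum_congr rfl fun z _ =>
            Finset.sum_congr rfl fun y _ => ?_
          rw [c.rev z u]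
      _ = ∑ u, c.w u * ∑ y, K' u y * ∑ z, c.P u z * (cumv p (K z) (p y)) ^ 2 := by
          refine Finset.sum_congr rfl fun u _ => ?_
          rw [Finset.sum_comm, Finset.mul_sum]
          refine Finset.sum_congr rfl fun y _ => ?_
          rw [Finset.mul_sum, Finset.mul_sum]
          refine Finset.sum_congr rfl fun z _ => ?_
          ring
  rw [h1]
  unfold Phi Gap
  rw [← Finset.sum_add_distrib]
  refine Finset.sum_congr rfl fun u _ => ?_
  rw [← mul_add, ← Finset.sum_add_distrib]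
  congr 1
  refine Finset.sum_congr rfl fun y _ => ?_
  rw [← mul_add]
  congr 1
  have h2 := c.variance u (fun z => cumv p (K z) (p y))
  simp only at h2
  rw [h2, cumv_mul]

/-- The telescoped energy bound. -/
lemma gap_sum (p : S → ℕ) {K0 K0' : Matrix S S ℝ} (hK0 : IsStoch K0) (hK0' : IsStoch K0')
    (J : ℕ) :
    ∑ j ∈ range J, c.Gap p (c.P ^ j * K0) (c.P ^ (J - 1 - j) * K0') ≤ 1 := by
  have hstep : ∀ j, j < J → c.Phi p (c.P ^ j * K0) (c.P ^ (J - j) * K0')
      = c.Phi p (c.P ^ (j + 1) * K0) (c.P ^ (J - (j + 1)) * K0')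
        + c.Gap p (c.P ^ j * K0) (c.P ^ (J - 1 - j) * K0') := by
    intro j hj
    have h1 : J - j = (J - 1 - j) + 1 := by omega
    have h2 : c.P ^ (J - j) * K0' = c.P * (c.P ^ (J - 1 - j) * K0') := by
      rw [h1, pow_succ', Matrix.mul_assoc]
    have h3 : c.P ^ (j + 1) * K0 = c.P * (c.P ^ j * K0) := by
      rw [pow_succ', Matrix.mul_assoc]
    have h4 : J - (j + 1) = J - 1 - j := by omega
    rw [h2, h3, h4]
    exact c.energy_step p _ _
  have htel : ∀ n, n ≤ J → ∑ j ∈ range n, c.Gap p (c.P ^ j * K0) (c.P ^ (J - 1 - j) * K0')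
      = c.Phi p (c.P ^ 0 * K0) (c.P ^ (J - 0) * K0') - c.Phi p (c.P ^ n * K0) (c.P ^ (J - n) * K0') := by
    intro n
    induction n with
    | zero => intro _; simp
    | succ n ih =>
      intro hn
      rw [Finset.sum_range_succ, ih (by omega), hstep n (by omega)]
      ring
  rw [htel J le_rfl]
  have h1 : c.Phi p (c.P ^ 0 * K0) (c.P ^ (J - 0) * K0') ≤ 1 :=
    c.Phi_le_one p ((c.pow_stoch 0).mul hK0) ((c.pow_stoch _).mul hK0')
  have h2 : 0 ≤ c.Phi p (c.P ^ J * K0) (c.P ^ (J - J) * K0') :=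
    c.Phi_nonneg p _ ((c.pow_stoch _).mul hK0')
  linarith

/-- The window average of the powers. -/
noncomputable def Mw (l : ℕ) : Matrix S S ℝ := (l : ℝ)⁻¹ • ∑ i ∈ range l, c.P ^ i

lemma pow_mul_Mw (j l : ℕ) :
    c.P ^ j * c.Mw l = (l : ℝ)⁻¹ • ∑ i ∈ range l, c.P ^ (j + i) := by
  unfold Mw
  rw [Matrix.mul_smul, Finset.mul_sum]
  simp only [pow_add]

lemma pow_mul_Mw_apply (j l : ℕ) (a b : S) :
    (c.P ^ j * c.Mw l) a b = (l : ℝ)⁻¹ * ∑ i ∈ range l, (c.P ^ (j + i)) a b := by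
  rw [c.pow_mul_Mw, Matrix.smul_apply, Matrix.sum_apply, smul_eq_mul]

lemma Mw_stoch {l : ℕ} (hl : 1 ≤ l) : IsStoch (c.Mw l) := by
  have hl' : (0 : ℝ) < l := by exact_mod_cast hl
  have h := c.pow_mul_Mw_apply 0
  simp only [pow_zero, Matrix.one_mul, zero_add] at h
  constructor
  · intro a b
    rw [h]
    exact mul_nonneg (inv_nonneg.mpr hl'.le)
      (Finset.sum_nonneg fun i _ => (c.pow_stoch i).1 a b)
  · intro a
    simp only [h]
    rw [← Finset.mul_sum, Finset.sum_comm]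
    simp only [(c.pow_stoch _).2]
    simp only [Finset.sum_const, Finset.card_range, nsmul_eq_mul, mul_one]
    field_simp

/-- Window kernel. -/
noncomputable def Kw (j l : ℕ) : Matrix S S ℝ := c.P ^ j * c.Mw l

lemma Kw_stoch (j : ℕ) {l : ℕ} (hl : 1 ≤ l) : IsStoch (c.Kw j l) :=
  (c.pow_stoch j).mul (c.Mw_stoch hl)

lemma P_mul_Kw (j l : ℕ) : c.P * c.Kw j l = c.Kw (j + 1) l := by
  unfold Kw
  rw [pow_succ', Matrix.mul_assoc]

/-- Domination of windows. -/
lemma window_dom {l w u j : ℕ} (hl : 1 ≤ l) (hwl : w ≤ l) (hlu : l ≤ u + 2) (hj1 : u ≤ j)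
    (hj2 : j < u + w) (a y : S) :
    (c.Kw (j + 1) l) a y ≤ 3 * (c.P ^ (2 * u + 2 - 1 - j) * c.Mw (3 * l)) a y := by
  have hl' : (0 : ℝ) < l := by exact_mod_cast hl
  unfold Kw
  rw [c.pow_mul_Mw_apply, c.pow_mul_Mw_apply]
  have hcast : ((3 * l : ℕ) : ℝ) = 3 * (l : ℝ) := by push_cast; ring
  rw [hcast]
  have hsum : ∑ i ∈ range l, (c.P ^ (j + 1 + i)) a y
      ≤ ∑ i ∈ range (3 * l), (c.P ^ (2 * u + 2 - 1 - j + i)) a y := by
    set s := 2 * j + 2 - (2 * u + 2) with hs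
    have hinj : ∑ i ∈ range l, (c.P ^ (j + 1 + i)) a y
        = ∑ i ∈ (range l).image (fun i => i + s), (c.P ^ (2 * u + 2 - 1 - j + i)) a y := by
      rw [Finset.sum_image (fun x _ x' _ h => by simpa using h)]
      refine Finset.sum_congr rfl fun i _ => ?_
      have : j + 1 + i = 2 * u + 2 - 1 - j + (i + s) := by omega
      rw [this]
    rw [hinj]
    refine Finset.sum_le_sum_of_subset_of_nonneg ?_ fun i _ _ => (c.pow_stoch _).1 a y
    intro i hi
    rw [Finset.mem_image] at hi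
    obtain ⟨i', hi', rfl⟩ := hi
    rw [Finset.mem_range] at hi' ⊢
    omega
  have h3 : (3 : ℝ) * ((3 * (l : ℝ))⁻¹ * ∑ i ∈ range (3 * l), (c.P ^ (2 * u + 2 - 1 - j + i)) a y)
      = (l : ℝ)⁻¹ * ∑ i ∈ range (3 * l), (c.P ^ (2 * u + 2 - 1 - j + i)) a y := by
    field_simp
  rw [h3]
  exact mul_le_mul_of_nonneg_left hsum (inv_nonneg.mpr hl'.le)

/-- The Kolmogorov cube average for one kernel. -/
noncomputable def Xi (N : ℕ) (p : S → ℕ) (K : Matrix S S ℝ) : ℝ :=
  ∑ u, c.w u * ∑ z, c.P u z * (KS N p (K z) ((c.P * K) u)) ^ 3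

lemma Xi_le (N : ℕ) (p : S → ℕ) (hp : ∀ y, p y ≤ N) {K K' : Matrix S S ℝ} (hK : IsStoch K)
    (hK' : IsStoch K') (hdom : ∀ a y, (c.P * K) a y ≤ 3 * K' a y) :
    c.Xi N p K ≤ 9 * (c.Gap p K K' + c.Gap (revp N p) K K') := by
  have hPK : IsStoch (c.P * K) := c.stoch.mul hK
  -- the basic comparison, for any pointer
  have hH : ∀ q : S → ℕ, ∑ u, c.w u * ∑ z, c.P u z * RR q (K z) ((c.P * K) u)
      ≤ 3 * c.Gap q K K' := by
    intro q
    unfold Gap
    rw [Finset.mul_sum]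
    refine Finset.sum_le_sum fun u _ => ?_
    have : 3 * (c.w u * ∑ y, K' u y * ∑ z, c.P u z *
          (cumv q (K z) (q y) - cumv q ((c.P * K) u) (q y)) ^ 2)
        = c.w u * ∑ y, (3 * K' u y) * ∑ z, c.P u z *
          (cumv q (K z) (q y) - cumv q ((c.P * K) u) (q y)) ^ 2 := by
      rw [mul_left_comm, Finset.mul_sum]
      congr 1
      refine Finset.sum_congr rfl fun y _ => ?_
      ring
    rw [this]
    refine mul_le_mul_of_nonneg_left ?_ (c.w_nonneg u)
    unfold RR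
    calc ∑ z, c.P u z * ∑ y, (c.P * K) u y * (cumv q (K z) (q y) - cumv q ((c.P * K) u) (q y)) ^ 2
        = ∑ y, (c.P * K) u y * ∑ z, c.P u z *
            (cumv q (K z) (q y) - cumv q ((c.P * K) u) (q y)) ^ 2 := by
          simp only [Finset.mul_sum]
          rw [Finset.sum_comm]
          refine Finset.sum_congr rfl fun y _ => Finset.sum_congr rfl fun z _ => ?_
          ring
      _ ≤ _ := by
          refine Finset.sum_le_sum fun y _ => mul_le_mul_of_nonneg_right (hdom u y) ?_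
          exact Finset.sum_nonneg fun z _ => mul_nonneg (c.stoch.1 u z) (sq_nonneg _)
  have hmain : c.Xi N p K ≤ ∑ u, c.w u * ∑ z, c.P u z *
      (3 * (RR p (K z) ((c.P * K) u) + RR (revp N p) (K z) ((c.P * K) u))) := by
    unfold Xi
    refine Finset.sum_le_sum fun u _ => mul_le_mul_of_nonneg_left ?_ (c.w_nonneg u)
    refine Finset.sum_le_sum fun z _ => mul_le_mul_of_nonneg_left ?_ (c.stoch.1 u z)
    exact KS_cube_le p N hp (hK.isProb z) (hPK.isProb u)
  have hsplit : ∑ u, c.w u * ∑ z, c.P u z *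
      (3 * (RR p (K z) ((c.P * K) u) + RR (revp N p) (K z) ((c.P * K) u)))
      = 3 * ((∑ u, c.w u * ∑ z, c.P u z * RR p (K z) ((c.P * K) u))
        + ∑ u, c.w u * ∑ z, c.P u z * RR (revp N p) (K z) ((c.P * K) u)) := by
    rw [← Finset.sum_add_distrib, Finset.mul_sum]
    refine Finset.sum_congr rfl fun u _ => ?_
    have h0 : ∑ z, c.P u z * (3 * (RR p (K z) ((c.P * K) u) + RR (revp N p) (K z) ((c.P * K) u)))
        = 3 * ((∑ z, c.P u z * RR p (K z) ((c.P * K) u))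
          + ∑ z, c.P u z * RR (revp N p) (K z) ((c.P * K) u)) := by
      rw [← Finset.sum_add_distrib, Finset.mul_sum]
      exact Finset.sum_congr rfl fun z _ => by ring
    rw [h0]
    ring
  rw [hsplit] at hmain
  have h1 := hH p
  have h2 := hH (revp N p)
  linarith

/-- There is a good time in every window. -/
theorem window_good (N : ℕ) (p : S → ℕ) (hp : ∀ y, p y ≤ N) {l w u : ℕ}
    (hw : 1 ≤ w) (hwl : w ≤ l) (hlu : l ≤ u + 2) :
    ∃ j, u ≤ j ∧ j < u + w ∧ c.Xi N p (c.Kw j l) ≤ 18 / (w : ℝ) := by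
  have hl : 1 ≤ l := le_trans hw hwl
  have hw' : (0 : ℝ) < w := by exact_mod_cast hw
  set J := 2 * u + 2 with hJ
  have hK0 : IsStoch (c.Mw l) := c.Mw_stoch hl
  have hK0' : IsStoch (c.Mw (3 * l)) := c.Mw_stoch (by omega)
  have hsub : Finset.Ico u (u + w) ⊆ range J := by
    intro j hj
    rw [Finset.mem_Ico] at hj
    rw [Finset.mem_range]
    omega
  have hG : ∀ q : S → ℕ, ∑ j ∈ Finset.Ico u (u + w),
      c.Gap q (c.P ^ j * c.Mw l) (c.P ^ (J - 1 - j) * c.Mw (3 * l)) ≤ 1 := by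
    intro q
    refine le_trans ?_ (c.gap_sum q hK0 hK0' J)
    refine Finset.sum_le_sum_of_subset_of_nonneg hsub fun j _ _ => ?_
    exact c.Gap_nonneg q _ ((c.pow_stoch _).mul hK0')
  have hsum : ∑ j ∈ Finset.Ico u (u + w),
      (c.Gap p (c.P ^ j * c.Mw l) (c.P ^ (J - 1 - j) * c.Mw (3 * l))
        + c.Gap (revp N p) (c.P ^ j * c.Mw l) (c.P ^ (J - 1 - j) * c.Mw (3 * l)))
      ≤ ∑ _j ∈ Finset.Ico u (u + w), (2 / (w : ℝ)) := by
    rw [Finset.sum_add_distrib]
    have h1 := hG p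
    have h2 := hG (revp N p)
    have h3 : ∑ _j ∈ Finset.Ico u (u + w), (2 / (w : ℝ)) = 2 := by
      simp only [Finset.sum_const, Nat.card_Ico, nsmul_eq_mul]
      have : u + w - u = w := by omega
      rw [this]
      field_simp
    rw [h3]
    linarith
  have hne : (Finset.Ico u (u + w)).Nonempty := by
    rw [Finset.nonempty_Ico]
    omega
  obtain ⟨j, hj, hjle⟩ := Finset.exists_le_of_sum_le hne hsum
  rw [Finset.mem_Ico] at hj
  refine ⟨j, hj.1, hj.2, ?_⟩
  have hXi := c.Xi_le N p hp (K := c.Kw j l) (K' := c.P ^ (J - 1 - j) * c.Mw (3 * l))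
    (c.Kw_stoch j hl) ((c.pow_stoch _).mul hK0') (by
      intro a y
      rw [c.P_mul_Kw]
      exact c.window_dom hl hwl hlu hj.1 hj.2 a y)
  have h9 : 9 * (c.Gap p (c.Kw j l) (c.P ^ (J - 1 - j) * c.Mw (3 * l))
      + c.Gap (revp N p) (c.Kw j l) (c.P ^ (J - 1 - j) * c.Mw (3 * l))) ≤ 9 * (2 / (w : ℝ)) := by
    exact mul_le_mul_of_nonneg_left hjle (by norm_num)
  have h18 : (9 : ℝ) * (2 / (w : ℝ)) = 18 / (w : ℝ) := by ring
  linarith

end Chain

end Vale.Agent.Lib.P125
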