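import Vale.Agent.Lib.P125.Recursion

/-!
From the dyadic second moment bound to the mean displacement at every time.
-/

open Finset

namespace Vale.Agent.Lib.P125

variable {S : Type*} [Fintype S] [DecidableEq S]

theorem D1_sq_le_D2 {pi : S → ℝ} {P : Matrix S S ℝ} (hP : IsRevK pi P) (hpi0 : ∀ u, 0 ≤ pi u)
    (hpi : ∑ u, pi u = 1) (f : ℕ → S → ℝ) (N t : ℕ) :
    (D1 pi P f N t) ^ 2 ≤ D2 pi P f N t := by
  have hK := hP.pow t
  set X : ℝ := D1 pi P f N t with hX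
  have h1 : 0 ≤ ∑ z, pi z * ∑ w, (P ^ t) z w * (Nm f N z w - X) ^ 2 :=
    sum_nonneg (fun z _ => mul_nonneg (hpi0 z)
      (sum_nonneg (fun w _ => mul_nonneg (hK.nonneg z w) (sq_nonneg _))))
  have h2 : ∀ z, pi z * ∑ w, (P ^ t) z w * (Nm f N z w - X) ^ 2
      = pi z * ∑ w, (P ^ t) z w * (Nm f N z w) ^ 2
        - 2 * X * (pi z * ∑ w, (P ^ t) z w * Nm f N z w) + X ^ 2 * pi z := by
    intro z
    have h3 : ∑ w, (P ^ t) z w * (Nm f N z w - X) ^ 2
        = ∑ w, (P ^ t) z w * (Nm f N z w) ^ 2 - 2 * X * ∑ w, (P ^ t) z w * Nm f N z w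
          + X ^ 2 * ∑ w, (P ^ t) z w := by
      rw [mul_sum, mul_sum, ← sum_sub_distrib, ← sum_add_distrib]
      exact sum_congr rfl (fun w _ => by ring)
    rw [h3, hK.sum_one]
    ring
  simp_rw [h2] at h1
  rw [sum_add_distrib, sum_sub_distrib, ← mul_sum, ← mul_sum, hpi] at h1
  have h4 : D2 pi P f N t = ∑ z, pi z * ∑ w, (P ^ t) z w * (Nm f N z w) ^ 2 := rfl
  have h5 : X = ∑ z, pi z * ∑ w, (P ^ t) z w * Nm f N z w := rfl
  rw [← h4, ← h5] at h1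
  nlinarith

theorem D1_pow2 {pi : S → ℝ} {P : Matrix S S ℝ} (hP : IsRevK pi P) (hpi0 : ∀ u, 0 ≤ pi u)
    (hpi : ∑ u, pi u = 1) (f : ℕ → S → ℝ) (N : ℕ)
    (hf : ∀ u v, 0 < pi u * P u v → ∑ i ∈ range N, |f i v - f i u| ≤ 1) (n : ℕ) :
    D1 pi P f N (2 ^ n) ≤ 459 * (197 / 100 : ℝ) ^ n := by
  have h1 := D1_sq_le_D2 hP hpi0 hpi f N (2 ^ n)
  have h2 := D2_pow2 hP hpi0 hpi f N hf n
  have h3 : (97 / 25 : ℝ) ^ n ≤ ((197 / 100 : ℝ) ^ 2) ^ n :=
    pow_le_pow_left₀ (by norm_num) (by norm_num) n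
  have h4 : (0 : ℝ) < (97 / 25 : ℝ) ^ n := by positivity
  have h5 : (D1 pi P f N (2 ^ n)) ^ 2 ≤ (459 * (197 / 100 : ℝ) ^ n) ^ 2 := by
    have h6 : (459 * (197 / 100 : ℝ) ^ n) ^ 2 = 210681 * ((197 / 100 : ℝ) ^ 2) ^ n := by
      rw [mul_pow, ← pow_mul, ← pow_mul, mul_comm n 2]
      norm_num
    rw [h6]
    nlinarith
  exact le_trans (le_abs_self _) (abs_le_of_sq_le_sq h5 (by positivity))

lemma nrm_congr_add (N : ℕ) (a b : ℕ → ℝ) : nrm N (fun x => a x + b x) ≤ nrm N a + nrm N b := by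
  refine nrm_le (fun x hx => ?_)
  exact le_trans (abs_add_le _ _) (add_le_add (le_nrm N a hx) (le_nrm N b hx))

omit [Fintype S] [DecidableEq S] in
lemma Nm_triangle (f : ℕ → S → ℝ) (N : ℕ) (u z w : S) :
    Nm f N u w ≤ Nm f N u z + Nm f N z w := by
  unfold Nm
  refine le_trans (le_of_eq ?_) (nrm_congr_add N _ _)
  congr 1
  funext x
  ring

theorem D1_add {pi : S → ℝ} {P : Matrix S S ℝ} (hP : IsRevK pi P) (hpi0 : ∀ u, 0 ≤ pi u)
    (f : ℕ → S → ℝ) (N s t : ℕ) :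
    D1 pi P f N (s + t) ≤ D1 pi P f N s + D1 pi P f N t := by
  have hs := hP.pow s
  have ht := hP.pow t
  have h1 : ∀ u, pi u * ∑ w, (P ^ (s + t)) u w * Nm f N u w
      ≤ pi u * ∑ z, (P ^ s) u z * Nm f N u z
        + pi u * ∑ z, (P ^ s) u z * ∑ w, (P ^ t) z w * Nm f N z w := by
    intro u
    rw [← mul_add]
    refine mul_le_mul_of_nonneg_left ?_ (hpi0 u)
    simp_rw [pow_add, Matrix.mul_apply, sum_mul]
    rw [sum_comm]
    have h2 : ∀ z, ∑ w, (P ^ s) u z * (P ^ t) z w * Nm f N u w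
        ≤ (P ^ s) u z * Nm f N u z + (P ^ s) u z * ∑ w, (P ^ t) z w * Nm f N z w := by
      intro z
      have h3 : (P ^ s) u z * Nm f N u z
          = ∑ w, (P ^ s) u z * (P ^ t) z w * Nm f N u z := by
        have : ∀ w, (P ^ s) u z * (P ^ t) z w * Nm f N u z
            = ((P ^ s) u z * Nm f N u z) * (P ^ t) z w := fun w => by ring
        simp_rw [this]
        rw [← mul_sum, ht.sum_one, mul_one]
      rw [h3, mul_sum, ← sum_add_distrib]
      refine sum_le_sum (fun w _ => ?_)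
      have h4 := Nm_triangle f N u z w
      have h5 := mul_le_mul_of_nonneg_left h4
        (mul_nonneg (hs.nonneg u z) (ht.nonneg z w))
      calc _ ≤ _ := h5
        _ = _ := by ring
    refine le_trans (sum_le_sum (fun z _ => h2 z)) (le_of_eq ?_)
    rw [sum_add_distrib]
  refine le_trans (sum_le_sum (fun u _ => h1 u)) (le_of_eq ?_)
  rw [sum_add_distrib]
  congr 1
  exact stat_sum hs (fun z => ∑ w, (P ^ t) z w * Nm f N z w)

theorem D1_zero (pi : S → ℝ) (P : Matrix S S ℝ) (f : ℕ → S → ℝ) (N : ℕ) :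
    D1 pi P f N 0 = 0 := by
  unfold D1
  refine sum_eq_zero (fun z _ => ?_)
  have h1 : Nm f N z z = 0 := by
    unfold Nm
    simp only [sub_self]
    refine le_antisymm (nrm_le (fun x _ => by simp)) (nrm_nonneg _ _)
  have h2 : ∑ w, ((P ^ 0 : Matrix S S ℝ)) z w * Nm f N z w = 0 := by
    simp [Matrix.one_apply, h1]
  rw [h2, mul_zero]

theorem D1_bits {pi : S → ℝ} {P : Matrix S S ℝ} (hP : IsRevK pi P) (hpi0 : ∀ u, 0 ≤ pi u)
    (hpi : ∑ u, pi u = 1) (f : ℕ → S → ℝ) (N : ℕ)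
    (hf : ∀ u v, 0 < pi u * P u v → ∑ i ∈ range N, |f i v - f i u| ≤ 1) (k : ℕ) :
    ∀ t < 2 ^ k, D1 pi P f N t ≤ 474 * (197 / 100 : ℝ) ^ k := by
  induction k with
  | zero =>
    intro t ht
    have : t = 0 := by simpa using ht
    subst this
    rw [D1_zero]
    norm_num
  | succ k ih =>
    intro t ht
    have hpos : (0 : ℝ) < (197 / 100 : ℝ) ^ k := by positivity
    rcases lt_or_ge t (2 ^ k) with h | h
    · have := ih t h
      rw [pow_succ]
      nlinarith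
    · obtain ⟨s, rfl⟩ := Nat.exists_eq_add_of_le h
      have h2 : s < 2 ^ k := by
        rw [pow_succ] at ht
        omega
      have h3 := D1_add hP hpi0 f N (2 ^ k) s
      have h4 := D1_pow2 hP hpi0 hpi f N hf k
      have h5 := ih s h2
      rw [pow_succ]
      nlinarith

/-- the final bound on the mean displacement -/
theorem D1_final {pi : S → ℝ} {P : Matrix S S ℝ} (hP : IsRevK pi P) (hpi0 : ∀ u, 0 ≤ pi u)
    (hpi : ∑ u, pi u = 1) (f : ℕ → S → ℝ) (N : ℕ)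
    (hf : ∀ u v, 0 < pi u * P u v → ∑ i ∈ range N, |f i v - f i u| ≤ 1) {t : ℕ} (ht : 1 ≤ t) :
    D1 pi P f N t ≤ 1000 * (t : ℝ) ^ (49 / 50 : ℝ) := by
  set k : ℕ := Nat.log 2 t with hk
  have h1 : t < 2 ^ (k + 1) := Nat.lt_pow_succ_log_self (by norm_num) t
  have h2 : 2 ^ k ≤ t := Nat.pow_log_le_self 2 (by omega)
  have h3 := D1_bits hP hpi0 hpi f N hf (k + 1) t h1
  have h4 : (197 / 100 : ℝ) ≤ (2 : ℝ) ^ (49 / 50 : ℝ) := by
    have h5 : (197 / 100 : ℝ) = (((197 / 100 : ℝ) ^ 50) : ℝ) ^ ((1 : ℝ) / 50) := by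
      rw [← Real.rpow_natCast, ← Real.rpow_mul (by norm_num)]
      norm_num
    have h6 : (2 : ℝ) ^ (49 / 50 : ℝ) = (((2 : ℝ) ^ 49) : ℝ) ^ ((1 : ℝ) / 50) := by
      rw [← Real.rpow_natCast, ← Real.rpow_mul (by norm_num)]
      norm_num
    rw [h5, h6]
    exact Real.rpow_le_rpow (by positivity) (by norm_num) (by norm_num)
  have h7 : (197 / 100 : ℝ) ^ k ≤ (t : ℝ) ^ (49 / 50 : ℝ) := by
    calc (197 / 100 : ℝ) ^ k ≤ ((2 : ℝ) ^ (49 / 50 : ℝ)) ^ k :=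
          pow_le_pow_left₀ (by norm_num) h4 k
      _ = (((2 : ℝ) ^ k : ℝ)) ^ (49 / 50 : ℝ) := by
          rw [← Real.rpow_natCast, ← Real.rpow_mul (by norm_num), mul_comm,
            Real.rpow_mul (by norm_num), Real.rpow_natCast]
      _ ≤ (t : ℝ) ^ (49 / 50 : ℝ) := by
          refine Real.rpow_le_rpow (by positivity) ?_ (by norm_num)
          exact_mod_cast h2
  rw [pow_succ] at h3
  have h8 : (0 : ℝ) ≤ (t : ℝ) ^ (49 / 50 : ℝ) := by positivity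
  nlinarith

end Vale.Agent.Lib.P125
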