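import Vale.Agent.Lib.P125.Pointer

/-!
# Maximal drift and the fresh pointer second moment
-/

namespace Vale.Agent.Lib.P125

open Finset BigOperators Matrix

set_option linter.unusedSectionVars false
set_option linter.unusedSimpArgs false
set_option linter.unusedVariables false

variable {S : Type*} [Fintype S] [DecidableEq S]

lemma tau_triangle (N : ℕ) (f : S → ℕ → ℝ) (a b d : S) :
    tau N f a b ≤ tau N f a d + tau N f d b := by
  unfold tau
  rw [← Finset.sum_add_distrib]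
  refine Finset.sum_le_sum fun k _ => ?_
  exact abs_sub_le _ _ _

lemma tau_self (N : ℕ) (f : S → ℕ → ℝ) (a : S) : tau N f a a = 0 := by
  unfold tau
  simp

lemma tau_comm (N : ℕ) (f : S → ℕ → ℝ) (a b : S) : tau N f a b = tau N f b a := by
  unfold tau
  exact Finset.sum_congr rfl fun k _ => abs_sub_comm _ _

lemma pre_lip (N : ℕ) (f : S → ℕ → ℝ) {x : ℕ} (hx : x ≤ N) (a b : S) :
    |pre f x a - pre f x b| ≤ tau N f a b := by
  unfold pre tau
  rw [← Finset.sum_sub_distrib]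
  refine le_trans (Finset.abs_sum_le_sum_abs _ _) ?_
  exact Finset.sum_le_sum_of_subset_of_nonneg (Finset.range_subset_range.mpr hx)
    fun k _ _ => abs_nonneg _

namespace Chain

variable (c : Chain S)

/-- Distances along `t` steps. -/
lemma tau_path (N : ℕ) (f : S → ℕ → ℝ) (hf : c.Lip N f) (t : ℕ) (a b : S)
    (h : 0 < (c.P ^ t) a b) : tau N f a b ≤ t := by
  induction t generalizing b with
  | zero =>
    have : a = b := by
      by_contra hab
      simp [Matrix.one_apply, hab] at h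
    subst this
    simp [tau_self]
  | succ t ih =>
    rw [pow_succ, Matrix.mul_apply] at h
    obtain ⟨d, _, hd⟩ := Finset.exists_lt_of_sum_lt (s := Finset.univ)
      (f := fun _ => (0 : ℝ)) (g := fun d => (c.P ^ t) a d * c.P d b) (by simpa using h)
    have hd1 : 0 ≤ (c.P ^ t) a d := (c.pow_stoch t).1 a d
    have hd2 : 0 ≤ c.P d b := c.stoch.1 d b
    have hd3 : 0 < (c.P ^ t) a d := by
      rcases hd1.lt_or_eq with h1 | h1
      · exact h1
      · rw [← h1] at hd; simp at hd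
    have hd4 : 0 < c.P d b := by
      rcases hd2.lt_or_eq with h1 | h1
      · exact h1
      · rw [← h1] at hd; simp at hd
    have h1 := ih d hd3
    have h2 := hf d b hd4
    have h3 := tau_triangle N f a b d
    push_cast
    linarith

/-- The drift of the coordinate function at `x`. -/
noncomputable def drift (f : S → ℕ → ℝ) (t x : ℕ) (z : S) : ℝ :=
  ∑ y, (c.P ^ t) z y * pre f x y - pre f x z

lemma drift_eq (f : S → ℕ → ℝ) (t x : ℕ) (z : S) :
    c.drift f t x z = ∑ y, (c.P ^ t) z y * (pre f x y - pre f x z) := by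
  unfold drift
  simp only [mul_sub, Finset.sum_sub_distrib]
  rw [← Finset.sum_mul, (c.pow_stoch t).2, one_mul]

lemma drift_zero (f : S → ℕ → ℝ) (t : ℕ) (z : S) : c.drift f t 0 z = 0 := by
  rw [c.drift_eq]
  simp [pre]

/-- A pointwise second moment bound along `t` steps. -/
lemma sq_path_le (N : ℕ) (f : S → ℕ → ℝ) (hf : c.Lip N f) (t : ℕ) {x : ℕ} (hx : x ≤ N) (z : S) :
    ∑ y, (c.P ^ t) z y * (pre f x y - pre f x z) ^ 2 ≤ (t : ℝ) ^ 2 := by
  have h1 : ∀ y, (c.P ^ t) z y * (pre f x y - pre f x z) ^ 2 ≤ (c.P ^ t) z y * (t : ℝ) ^ 2 := by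
    intro y
    rcases ((c.pow_stoch t).1 z y).lt_or_eq with h | h
    · refine mul_le_mul_of_nonneg_left ?_ h.le
      have h2 := c.tau_path N f hf t z y h
      have h3 := pre_lip N f hx y z
      rw [tau_comm] at h3
      have h4 : |pre f x y - pre f x z| ≤ t := le_trans h3 h2
      rw [← sq_abs]
      exact pow_le_pow_left₀ (abs_nonneg _) h4 2
    · rw [← h]; simp
  calc ∑ y, (c.P ^ t) z y * (pre f x y - pre f x z) ^ 2
      ≤ ∑ y, (c.P ^ t) z y * (t : ℝ) ^ 2 := Finset.sum_le_sum fun y _ => h1 y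
    _ = (t : ℝ) ^ 2 := by rw [← Finset.sum_mul, (c.pow_stoch t).2, one_mul]

lemma abs_drift_le (N : ℕ) (f : S → ℕ → ℝ) (hf : c.Lip N f) (t : ℕ) {x : ℕ} (hx : x ≤ N) (z : S) :
    |c.drift f t x z| ≤ t := by
  rw [c.drift_eq]
  refine le_trans (Finset.abs_sum_le_sum_abs _ _) ?_
  have h1 : ∀ y, |(c.P ^ t) z y * (pre f x y - pre f x z)| ≤ (c.P ^ t) z y * (t : ℝ) := by
    intro y
    rw [abs_mul, abs_of_nonneg ((c.pow_stoch t).1 z y)]
    rcases ((c.pow_stoch t).1 z y).lt_or_eq with h | h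
    · refine mul_le_mul_of_nonneg_left ?_ h.le
      have h2 := c.tau_path N f hf t z y h
      have h3 := pre_lip N f hx y z
      rw [tau_comm] at h3
      exact le_trans h3 h2
    · rw [← h]; simp
  calc ∑ y, |(c.P ^ t) z y * (pre f x y - pre f x z)|
      ≤ ∑ y, (c.P ^ t) z y * (t : ℝ) := Finset.sum_le_sum fun y _ => h1 y
    _ = t := by rw [← Finset.sum_mul, (c.pow_stoch t).2, one_mul]

/-- The maximal drift. -/
noncomputable def maxDrift (N : ℕ) (f : S → ℕ → ℝ) (t : ℕ) (z : S) : ℝ :=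
  (Finset.range (N + 1)).sup' ⟨0, by simp⟩ fun x => |c.drift f t x z|

lemma le_maxDrift (N : ℕ) (f : S → ℕ → ℝ) (t : ℕ) {x : ℕ} (hx : x ≤ N) (z : S) :
    |c.drift f t x z| ≤ c.maxDrift N f t z :=
  Finset.le_sup' (fun x => |c.drift f t x z|) (Finset.mem_range.mpr (by omega))

lemma exists_maxDrift (N : ℕ) (f : S → ℕ → ℝ) (t : ℕ) (z : S) :
    ∃ x, x ≤ N ∧ c.maxDrift N f t z = |c.drift f t x z| := by
  obtain ⟨x, hx, h⟩ := Finset.exists_mem_eq_sup' (s := Finset.range (N + 1)) ⟨0, by simp⟩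
    (fun x => |c.drift f t x z|)
  refine ⟨x, ?_, h⟩
  have := Finset.mem_range.mp hx
  omega

lemma maxDrift_nonneg (N : ℕ) (f : S → ℕ → ℝ) (t : ℕ) (z : S) : 0 ≤ c.maxDrift N f t z :=
  le_trans (abs_nonneg _) (c.le_maxDrift N f t (x := 0) (Nat.zero_le _) z)

lemma maxDrift_le (N : ℕ) (f : S → ℕ → ℝ) (hf : c.Lip N f) (t : ℕ) (z : S) :
    c.maxDrift N f t z ≤ t := by
  obtain ⟨x, hx, h⟩ := c.exists_maxDrift N f t z
  rw [h]
  exact c.abs_drift_le N f hf t hx z

/-- The maximal inequality in `L¹`. -/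
theorem maxDrift_L1 (N : ℕ) (f : S → ℕ → ℝ) (hf : c.Lip N f) (n : ℕ) :
    ∑ z, c.w z * c.maxDrift N f (8 ^ n) z ≤ 34 * 4 ^ n := by
  set t := 8 ^ n with ht
  choose x hx1 hx2 using c.exists_maxDrift N f t
  let pp : S → ℕ := fun z => if 0 ≤ c.drift f t (x z) z then x z else 0
  let pm : S → ℕ := fun z => if 0 ≤ c.drift f t (x z) z then 0 else x z
  have hpp : ∀ y, pp y ≤ N := by
    intro y
    show (if 0 ≤ c.drift f t (x y) y then x y else 0) ≤ N
    split_ifs
    · exact hx1 y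
    · exact Nat.zero_le _
  have hpm : ∀ y, pm y ≤ N := by
    intro y
    show (if 0 ≤ c.drift f t (x y) y then 0 else x y) ≤ N
    split_ifs
    · exact Nat.zero_le _
    · exact hx1 y
  have h1 := c.pointer_bound N f hf pp hpp n
  have h2 := c.pointer_bound N f hf pm hpm n
  have hsplit : ∀ z, c.maxDrift N f t z
      = c.drift f t (pp z) z - c.drift f t (pm z) z := by
    intro z
    rw [hx2 z]
    show |c.drift f t (x z) z| = c.drift f t (if 0 ≤ c.drift f t (x z) z then x z else 0) z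
      - c.drift f t (if 0 ≤ c.drift f t (x z) z then 0 else x z) z
    by_cases h : 0 ≤ c.drift f t (x z) z
    · simp only [h, if_true]
      rw [abs_of_nonneg h, c.drift_zero]
      ring
    · simp only [h, if_false]
      push Not at h
      rw [abs_of_neg h, c.drift_zero]
      ring
  have h3 : ∑ z, c.w z * c.maxDrift N f t z
      = ∑ z, c.w z * c.drift f t (pp z) z - ∑ z, c.w z * c.drift f t (pm z) z := by
    rw [← Finset.sum_sub_distrib]
    refine Finset.sum_congr rfl fun z _ => ?_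
    rw [hsplit z]
    ring
  rw [h3]
  have h4 := (abs_le.mp h1).2
  have h5 := (abs_le.mp h2).1
  have h6 : ∑ z, c.w z * c.drift f t (pp z) z ≤ 17 * 4 ^ n := h4
  have h7 : -(17 * (4:ℝ) ^ n) ≤ ∑ z, c.w z * c.drift f t (pm z) z := h5
  linarith

/-- The maximal inequality in `L²` at the dyadic times. -/
theorem maxDrift_L2 (N : ℕ) (f : S → ℕ → ℝ) (hf : c.Lip N f) (n : ℕ) :
    ∑ z, c.w z * (c.maxDrift N f (8 ^ n) z) ^ 2 ≤ 34 * 32 ^ n := by
  have h1 : ∀ z, c.w z * (c.maxDrift N f (8 ^ n) z) ^ 2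
      ≤ (8 : ℝ) ^ n * (c.w z * c.maxDrift N f (8 ^ n) z) := by
    intro z
    have h2 := c.maxDrift_le N f hf (8 ^ n) z
    have h3 := c.maxDrift_nonneg N f (8 ^ n) z
    push_cast at h2
    have h4 := c.w_nonneg z
    have h5 : c.maxDrift N f (8 ^ n) z * c.maxDrift N f (8 ^ n) z
        ≤ (8 : ℝ) ^ n * c.maxDrift N f (8 ^ n) z := mul_le_mul_of_nonneg_right h2 h3
    nlinarith
  calc ∑ z, c.w z * (c.maxDrift N f (8 ^ n) z) ^ 2
      ≤ ∑ z, (8 : ℝ) ^ n * (c.w z * c.maxDrift N f (8 ^ n) z) :=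
        Finset.sum_le_sum fun z _ => h1 z
    _ = (8 : ℝ) ^ n * ∑ z, c.w z * c.maxDrift N f (8 ^ n) z := by rw [Finset.mul_sum]
    _ ≤ (8 : ℝ) ^ n * (34 * 4 ^ n) :=
        mul_le_mul_of_nonneg_left (c.maxDrift_L1 N f hf n) (by positivity)
    _ = 34 * 32 ^ n := by
        have : (32 : ℝ) = 8 * 4 := by norm_num
        rw [this, mul_pow]
        ring

/-- The fresh pointer second moment after `i` blocks. -/
noncomputable def blockMoment (f : S → ℕ → ℝ) (p : S → ℕ) (s : ℕ) : ℝ :=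
  ∑ z, c.w z * ∑ y, (c.P ^ s) z y * (pre f (p z) y - pre f (p z) z) ^ 2

lemma blockMoment_zero (f : S → ℕ → ℝ) (p : S → ℕ) : c.blockMoment f p 0 = 0 := by
  unfold blockMoment
  refine Finset.sum_eq_zero fun z _ => ?_
  rw [mul_eq_zero]
  right
  refine Finset.sum_eq_zero fun y _ => ?_
  by_cases h : z = y
  · subst h; simp
  · simp [Matrix.one_apply, h]

/-- One block step for the fresh pointer. -/
lemma block_step (N : ℕ) (f : S → ℕ → ℝ) (hf : c.Lip N f) (p : S → ℕ) (hp : ∀ y, p y ≤ N)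
    (s b : ℕ) {κ : ℝ} (hκ : 0 < κ) :
    c.blockMoment f p (s + b) ≤ (1 + 1 / κ) * c.blockMoment f p s
      + κ * ∑ d, c.w d * (c.maxDrift N f b d) ^ 2 + (b : ℝ) ^ 2 := by
  -- pointwise estimate at a fixed pointer
  have hpt : ∀ (z d : S), ∑ y, (c.P ^ b) d y * (pre f (p z) y - pre f (p z) z) ^ 2
      ≤ (1 + 1 / κ) * (pre f (p z) d - pre f (p z) z) ^ 2
        + κ * (c.maxDrift N f b d) ^ 2 + (b : ℝ) ^ 2 := by
    intro z d
    set Y := pre f (p z) d - pre f (p z) z with hY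
    have h1 : ∑ y, (c.P ^ b) d y * (pre f (p z) y - pre f (p z) z) ^ 2
        = Y ^ 2 + 2 * Y * c.drift f b (p z) d
          + ∑ y, (c.P ^ b) d y * (pre f (p z) y - pre f (p z) d) ^ 2 := by
      rw [c.drift_eq, Finset.mul_sum]
      have h2 : Y ^ 2 = ∑ y, (c.P ^ b) d y * Y ^ 2 := by
        rw [← Finset.sum_mul, (c.pow_stoch b).2, one_mul]
      rw [h2, ← Finset.sum_add_distrib, ← Finset.sum_add_distrib]
      refine Finset.sum_congr rfl fun y _ => ?_
      have h3 : pre f (p z) y - pre f (p z) z = Y + (pre f (p z) y - pre f (p z) d) := by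
        rw [hY]; ring
      rw [h3]
      ring
    rw [h1]
    have h4 := c.sq_path_le N f hf b (hp z) d
    have h5 := c.le_maxDrift N f b (hp z) d
    have h6 : 2 * Y * c.drift f b (p z) d ≤ (1 / κ) * Y ^ 2 + κ * (c.maxDrift N f b d) ^ 2 := by
      have h7 : 2 * Y * c.drift f b (p z) d ≤ 2 * |Y| * c.maxDrift N f b d := by
        have h8 : Y * c.drift f b (p z) d ≤ |Y| * |c.drift f b (p z) d| := by
          rw [← abs_mul]; exact le_abs_self _
        have h9 : |Y| * |c.drift f b (p z) d| ≤ |Y| * c.maxDrift N f b d :=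
          mul_le_mul_of_nonneg_left h5 (abs_nonneg _)
        linarith
      have h10 : 2 * |Y| * c.maxDrift N f b d
          ≤ (1 / κ) * Y ^ 2 + κ * (c.maxDrift N f b d) ^ 2 := by
        have h11 : 0 ≤ (|Y| / κ - c.maxDrift N f b d) ^ 2 * κ :=
          mul_nonneg (sq_nonneg _) hκ.le
        have h12 : (|Y| / κ - c.maxDrift N f b d) ^ 2 * κ
            = (1 / κ) * Y ^ 2 + κ * (c.maxDrift N f b d) ^ 2
              - 2 * |Y| * c.maxDrift N f b d := by
          rw [← sq_abs Y]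
          field_simp
          ring
        linarith
      linarith
    have h13 : (1 + 1 / κ) * Y ^ 2 = Y ^ 2 + (1 / κ) * Y ^ 2 := by ring
    linarith
  unfold blockMoment
  -- integrate over the first `s` steps
  have hz : ∀ z, ∑ y, (c.P ^ (s + b)) z y * (pre f (p z) y - pre f (p z) z) ^ 2
      = ∑ d, (c.P ^ s) z d * ∑ y, (c.P ^ b) d y * (pre f (p z) y - pre f (p z) z) ^ 2 := by
    intro z
    simp only [pow_add, Matrix.mul_apply, Finset.mul_sum, Finset.sum_mul]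
    rw [Finset.sum_comm]
    refine Finset.sum_congr rfl fun d _ => Finset.sum_congr rfl fun y _ => ?_
    ring
  simp only [hz]
  calc ∑ z, c.w z * ∑ d, (c.P ^ s) z d * ∑ y, (c.P ^ b) d y * (pre f (p z) y - pre f (p z) z) ^ 2
      ≤ ∑ z, c.w z * ∑ d, (c.P ^ s) z d * ((1 + 1 / κ) * (pre f (p z) d - pre f (p z) z) ^ 2
          + κ * (c.maxDrift N f b d) ^ 2 + (b : ℝ) ^ 2) := by
        refine Finset.sum_le_sum fun z _ => mul_le_mul_of_nonneg_left ?_ (c.w_nonneg z)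
        refine Finset.sum_le_sum fun d _ => mul_le_mul_of_nonneg_left (hpt z d) ?_
        exact (c.pow_stoch s).1 z d
    _ = (1 + 1 / κ) * ∑ z, c.w z * ∑ d, (c.P ^ s) z d * (pre f (p z) d - pre f (p z) z) ^ 2
        + κ * ∑ z, c.w z * ∑ d, (c.P ^ s) z d * (c.maxDrift N f b d) ^ 2 + (b : ℝ) ^ 2 := by
        have hgen : ∀ z, c.w z * ∑ d, (c.P ^ s) z d * ((1 + 1 / κ) * (pre f (p z) d - pre f (p z) z) ^ 2
            + κ * (c.maxDrift N f b d) ^ 2 + (b : ℝ) ^ 2)
            = (1 + 1 / κ) * (c.w z * ∑ d, (c.P ^ s) z d * (pre f (p z) d - pre f (p z) z) ^ 2)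
              + κ * (c.w z * ∑ d, (c.P ^ s) z d * (c.maxDrift N f b d) ^ 2)
              + c.w z * (b : ℝ) ^ 2 := by
          intro z
          have hd : ∑ d, (c.P ^ s) z d * ((1 + 1 / κ) * (pre f (p z) d - pre f (p z) z) ^ 2
              + κ * (c.maxDrift N f b d) ^ 2 + (b : ℝ) ^ 2)
              = (1 + 1 / κ) * ∑ d, (c.P ^ s) z d * (pre f (p z) d - pre f (p z) z) ^ 2
                + κ * ∑ d, (c.P ^ s) z d * (c.maxDrift N f b d) ^ 2
                + (∑ d, (c.P ^ s) z d) * (b : ℝ) ^ 2 := by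
            rw [Finset.mul_sum, Finset.mul_sum, Finset.sum_mul, ← Finset.sum_add_distrib,
              ← Finset.sum_add_distrib]
            exact Finset.sum_congr rfl fun d _ => by ring
          rw [hd, (c.pow_stoch s).2, one_mul]
          ring
        simp only [hgen]
        rw [Finset.sum_add_distrib, Finset.sum_add_distrib, ← Finset.mul_sum, ← Finset.mul_sum,
          ← Finset.sum_mul, c.w_sum, one_mul]
    _ = _ := by
        rw [c.pow_stat_sum s (fun d => (c.maxDrift N f b d) ^ 2)]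

/-- Iterating blocks. -/
lemma block_iter (N : ℕ) (f : S → ℕ → ℝ) (hf : c.Lip N f) (p : S → ℕ) (hp : ∀ y, p y ≤ N)
    (b : ℕ) {κ : ℝ} (hκ : 0 < κ) (i : ℕ) :
    c.blockMoment f p (i * b) ≤ i * (1 + 1 / κ) ^ i *
      (κ * ∑ d, c.w d * (c.maxDrift N f b d) ^ 2 + (b : ℝ) ^ 2) := by
  set Γ := κ * ∑ d, c.w d * (c.maxDrift N f b d) ^ 2 + (b : ℝ) ^ 2 with hΓ
  have hΓ0 : 0 ≤ Γ := by
    refine add_nonneg (mul_nonneg hκ.le ?_) (sq_nonneg _)
    exact Finset.sum_nonneg fun d _ => mul_nonneg (c.w_nonneg d) (sq_nonneg _)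
  have hr : (1 : ℝ) ≤ 1 + 1 / κ := by
    have : 0 < 1 / κ := by positivity
    linarith
  induction i with
  | zero =>
    simp [c.blockMoment_zero]
  | succ i ih =>
    have h1 := c.block_step N f hf p hp (i * b) b hκ
    have h2 : (i + 1) * b = i * b + b := by ring
    rw [h2]
    have h3 : (1 + 1 / κ) * c.blockMoment f p (i * b)
        ≤ (1 + 1 / κ) * (i * (1 + 1 / κ) ^ i * Γ) :=
      mul_le_mul_of_nonneg_left ih (by linarith)
    have h4 : (1 : ℝ) ≤ (1 + 1 / κ) ^ (i + 1) := one_le_pow₀ hr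
    have h5 : Γ ≤ (1 + 1 / κ) ^ (i + 1) * Γ := by nlinarith
    have h6 : ((i + 1 : ℕ) : ℝ) * (1 + 1 / κ) ^ (i + 1) * Γ
        = (1 + 1 / κ) * (i * (1 + 1 / κ) ^ i * Γ) + (1 + 1 / κ) ^ (i + 1) * Γ := by
      push_cast
      ring
    rw [h6]
    linarith

/-- The bound at time `16 ^ n`. -/
theorem fresh_bound (N : ℕ) (f : S → ℕ → ℝ) (hf : c.Lip N f) (p : S → ℕ) (hp : ∀ y, p y ≤ N)
    (n : ℕ) : c.blockMoment f p (16 ^ n) ≤ 105 * 128 ^ n := by
  have hκ : (0 : ℝ) < 2 ^ n := by positivity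
  have h1 := c.block_iter N f hf p hp (8 ^ n) hκ (2 ^ n)
  have h2 : 2 ^ n * 8 ^ n = 16 ^ n := by
    rw [← mul_pow]
    norm_num
  rw [h2] at h1
  have h3 : ((2 ^ n : ℕ) : ℝ) = (2 : ℝ) ^ n := by push_cast; ring
  have h4 : (1 + 1 / (2 : ℝ) ^ n) ^ (2 ^ n) ≤ 3 := by
    have h5 : 1 + 1 / (2 : ℝ) ^ n ≤ Real.exp (1 / (2 : ℝ) ^ n) := by
      have := Real.add_one_le_exp (1 / (2 : ℝ) ^ n)
      linarith
    have h6 : (1 + 1 / (2 : ℝ) ^ n) ^ (2 ^ n) ≤ (Real.exp (1 / (2 : ℝ) ^ n)) ^ (2 ^ n) :=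
      pow_le_pow_left₀ (by positivity) h5 _
    have h7 : (Real.exp (1 / (2 : ℝ) ^ n)) ^ (2 ^ n) = Real.exp 1 := by
      rw [← Real.exp_nat_mul]
      congr 1
      push_cast
      field_simp
    have h8 := Real.exp_one_lt_d9
    rw [h7] at h6
    linarith
  have h9 := c.maxDrift_L2 N f hf n
  have h10 : (2 : ℝ) ^ n * ∑ d, c.w d * (c.maxDrift N f (8 ^ n) d) ^ 2 + ((8 ^ n : ℕ) : ℝ) ^ 2
      ≤ 35 * 64 ^ n := by
    have h11 : (2 : ℝ) ^ n * ∑ d, c.w d * (c.maxDrift N f (8 ^ n) d) ^ 2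
        ≤ (2 : ℝ) ^ n * (34 * 32 ^ n) := mul_le_mul_of_nonneg_left h9 (by positivity)
    have h12 : (2 : ℝ) ^ n * (34 * 32 ^ n) = 34 * 64 ^ n := by
      have : (64 : ℝ) = 2 * 32 := by norm_num
      rw [this, mul_pow]
      ring
    have h13 : ((8 ^ n : ℕ) : ℝ) ^ 2 = 64 ^ n := by
      push_cast
      rw [← pow_mul, mul_comm, pow_mul]
      norm_num
    rw [h13]
    linarith
  have h14 : ((2 ^ n : ℕ) : ℝ) * (1 + 1 / (2 : ℝ) ^ n) ^ (2 ^ n) *
      ((2 : ℝ) ^ n * ∑ d, c.w d * (c.maxDrift N f (8 ^ n) d) ^ 2 + ((8 ^ n : ℕ) : ℝ) ^ 2)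
      ≤ (2 : ℝ) ^ n * 3 * (35 * 64 ^ n) := by
    rw [h3]
    refine mul_le_mul (mul_le_mul_of_nonneg_left h4 (by positivity)) h10 ?_ (by positivity)
    refine add_nonneg (mul_nonneg (by positivity) ?_) (sq_nonneg _)
    exact Finset.sum_nonneg fun d _ => mul_nonneg (c.w_nonneg d) (sq_nonneg _)
  have h15 : (2 : ℝ) ^ n * 3 * (35 * 64 ^ n) = 105 * 128 ^ n := by
    have : (128 : ℝ) = 2 * 64 := by norm_num
    rw [this, mul_pow]
    ring
  linarith

end Chain

end Vale.Agent.Lib.P125
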