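import Vale.Agent.Lib.P125.Doubling

/-!
# All times, and reduction of the edge hypothesis to edges of positive probability
-/

namespace Vale.Agent.Lib.P125

open Finset BigOperators Matrix

set_option linter.unusedSectionVars false
set_option linter.unusedSimpArgs false
set_option linter.unusedVariables false

variable {S : Type*} [Fintype S] [DecidableEq S]

lemma rho_le_rpow : (256 - 1 / 256 : ℝ) ≤ (16 : ℝ) ^ ((2 : ℝ) - 1 / 200000) := by
  rw [Real.le_rpow_iff_log_le (by norm_num) (by norm_num)]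
  have hlog16 : Real.log 16 = 4 * Real.log 2 := by
    rw [show (16 : ℝ) = 2 ^ 4 by norm_num, Real.log_pow]
    norm_num
  have hlog256 : Real.log 256 = 8 * Real.log 2 := by
    rw [show (256 : ℝ) = 2 ^ 8 by norm_num, Real.log_pow]
    norm_num
  have h1 : (256 - 1 / 256 : ℝ) = 256 * (1 - 1 / 65536) := by norm_num
  have h2 : Real.log (256 - 1 / 256) = Real.log 256 + Real.log (1 - 1 / 65536) := by
    rw [h1, Real.log_mul (by norm_num) (by norm_num)]
  have h3 : Real.log (1 - 1 / 65536) ≤ (1 - 1 / 65536) - 1 :=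
    Real.log_le_sub_one_of_pos (by norm_num)
  have h4 := Real.log_two_lt_d9
  rw [h2, hlog256, hlog16]
  nlinarith

namespace Chain

variable (c : Chain S)

lemma Dsq_zero (N : ℕ) (f : S → ℕ → ℝ) : c.Dsq N f 0 = 0 := by
  unfold Dsq
  refine Finset.sum_eq_zero fun a _ => Finset.sum_eq_zero fun b _ => ?_
  by_cases h : a = b
  · subst h
    have : nrm N f a a = 0 := by
      refine le_antisymm ?_ (nrm_nonneg _ _ _ _)
      refine normW_le N _ fun x _ => ?_
      simp
    rw [this]
    simp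
  · simp [Matrix.one_apply, h]

lemma sqrt_Dsq_mul_le (N : ℕ) (f : S → ℕ → ℝ) (a s : ℕ) :
    Real.sqrt (c.Dsq N f (a * s)) ≤ a * Real.sqrt (c.Dsq N f s) := by
  induction a with
  | zero => simp [c.Dsq_zero]
  | succ a ih =>
    have h1 : (a + 1) * s = a * s + s := by ring
    rw [h1]
    have h2 := c.sqrt_Dsq_add_le N f (a * s) s
    push_cast
    nlinarith

/-- All times below `16 ^ n`. -/
lemma sqrt_Dsq_lt (N : ℕ) (f : S → ℕ → ℝ) (hf : c.Lip N f) (n : ℕ) :
    ∀ t, t < 16 ^ n → Real.sqrt (c.Dsq N f t) ≤ 240000 * Real.sqrt (256 - 1 / 256) ^ n := by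
  set R := Real.sqrt (256 - 1 / 256) with hR
  have hR2 : R ^ 2 = 256 - 1 / 256 := Real.sq_sqrt (by norm_num)
  have hRnn : 0 ≤ R := Real.sqrt_nonneg _
  have hR1 : 2 ≤ R := by
    apply Real.le_sqrt_of_sq_le
    norm_num
  induction n with
  | zero =>
    intro t ht
    have : t = 0 := by simpa using ht
    rw [this, c.Dsq_zero]
    simp
  | succ n ih =>
    intro t ht
    have hpow : 16 ^ (n + 1) = 16 * 16 ^ n := by ring
    have hpos : 0 < 16 ^ n := by positivity
    set s := 16 ^ n with hs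
    have hb : t % s < s := Nat.mod_lt _ hpos
    have ha : t / s ≤ 15 := by
      have : t / s < 16 := by
        apply Nat.div_lt_of_lt_mul
        rw [hpow] at ht
        linarith
      omega
    have hsplit : t = (t / s) * s + t % s := by
      rw [mul_comm]
      exact (Nat.div_add_mod t s).symm
    have h1 := c.sqrt_Dsq_add_le N f ((t / s) * s) (t % s)
    rw [← hsplit] at h1
    have h2 := c.sqrt_Dsq_mul_le N f (t / s) s
    have h3 := ih (t % s) hb
    -- the bound at the time `s`
    have h4 : Real.sqrt (c.Dsq N f s) ≤ 16000 * R ^ n := by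
      apply Real.sqrt_le_iff.mpr
      refine ⟨by positivity, ?_⟩
      have h5 := c.Dsq_iter N f hf n
      rw [← hs] at h5
      have h6 : (16000 * R ^ n) ^ 2 = 256 * 10 ^ 6 * (256 - 1 / 256) ^ n := by
        rw [mul_pow, ← pow_mul, mul_comm n 2, pow_mul, hR2]
        norm_num
      rw [h6]
      exact h5
    have h7 : ((t / s : ℕ) : ℝ) ≤ 15 := by exact_mod_cast ha
    have h8 : ((t / s : ℕ) : ℝ) * Real.sqrt (c.Dsq N f s) ≤ 15 * (16000 * R ^ n) :=
      mul_le_mul h7 h4 (Real.sqrt_nonneg _) (by norm_num)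
    have hRn : 0 ≤ R ^ n := by positivity
    have h9 : R ^ (n + 1) = R * R ^ n := by ring
    rw [h9]
    nlinarith

/-- All times. -/
theorem Dsq_all (N : ℕ) (f : S → ℕ → ℝ) (hf : c.Lip N f) {t : ℕ} (ht : 1 ≤ t) :
    c.Dsq N f t ≤ 2 * 10 ^ 13 * (t : ℝ) ^ ((2 : ℝ) - 1 / 200000) := by
  set n := Nat.log 16 t with hn
  have h1 : 16 ^ n ≤ t := Nat.pow_log_le_self 16 (by omega)
  have h2 : t < 16 ^ (n + 1) := Nat.lt_pow_succ_log_self (by norm_num) t
  have h3 := c.sqrt_Dsq_lt N f hf (n + 1) t h2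
  set R := Real.sqrt (256 - 1 / 256) with hR
  have hR2 : R ^ 2 = 256 - 1 / 256 := Real.sq_sqrt (by norm_num)
  have h0 := c.Dsq_nonneg N f t
  have h4 : c.Dsq N f t ≤ (240000 * R ^ (n + 1)) ^ 2 := by
    have h5 := Real.sq_sqrt h0
    have h6 := Real.sqrt_nonneg (c.Dsq N f t)
    rw [← h5]
    exact pow_le_pow_left₀ h6 h3 2
  have h7 : (240000 * R ^ (n + 1)) ^ 2 = 240000 ^ 2 * ((256 - 1 / 256) * (256 - 1 / 256) ^ n) := by
    rw [mul_pow, ← pow_mul, mul_comm (n + 1) 2, pow_mul, hR2]
    ring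
  rw [h7] at h4
  set e : ℝ := (2 : ℝ) - 1 / 200000 with he
  have he0 : 0 ≤ e := by rw [he]; norm_num
  have h8 : (256 - 1 / 256 : ℝ) ^ n ≤ (t : ℝ) ^ e := by
    have h9 : ((16 : ℝ) ^ e) ^ n = ((16 : ℝ) ^ n) ^ e := by
      rw [← Real.rpow_natCast, ← Real.rpow_natCast, ← Real.rpow_mul (by norm_num),
        ← Real.rpow_mul (by norm_num), mul_comm]
    have h10 : (256 - 1 / 256 : ℝ) ^ n ≤ ((16 : ℝ) ^ e) ^ n :=
      pow_le_pow_left₀ (by norm_num) rho_le_rpow n
    have h11 : ((16 : ℝ) ^ n) ^ e ≤ (t : ℝ) ^ e := by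
      refine Real.rpow_le_rpow (by positivity) ?_ he0
      exact_mod_cast h1
    rw [h9] at h10
    exact le_trans h10 h11
  have h12 : (0 : ℝ) < (256 - 1 / 256) ^ n := by positivity
  have h13 : (240000 : ℝ) ^ 2 * ((256 - 1 / 256) * (256 - 1 / 256) ^ n)
      ≤ 2 * 10 ^ 13 * (256 - 1 / 256) ^ n := by
    have : (240000 : ℝ) ^ 2 * (256 - 1 / 256) ≤ 2 * 10 ^ 13 := by norm_num
    nlinarith
  have h14 : 2 * 10 ^ 13 * (256 - 1 / 256 : ℝ) ^ n ≤ 2 * 10 ^ 13 * (t : ℝ) ^ e :=
    mul_le_mul_of_nonneg_left h8 (by norm_num)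
  exact le_trans h4 (le_trans h13 h14)

end Chain

/-- Reduction: states of zero weight are made absorbing, which does not change the law of the
chain started from the stationary weights. -/
theorem summing_main (π : S → ℝ) (P : Matrix S S ℝ)
    (hπ : ∀ a, 0 ≤ π a) (hπ1 : ∑ a, π a = 1) (hP : ∀ a b, 0 ≤ P a b)
    (hP1 : ∀ a, ∑ b, P a b = 1) (hrev : ∀ a b, π a * P a b = π b * P b a)
    (N : ℕ) (f : S → ℕ → ℝ)
    (hf : ∀ a b, 0 < π a * P a b → ∑ k ∈ range N, |f b k - f a k| ≤ 1)
    {t : ℕ} (ht : 1 ≤ t) :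
    ∑ a, ∑ b, π a * (P ^ t) a b *
        ((Finset.range (N + 1)).sup' ⟨0, by simp⟩ fun x => |∑ k ∈ range x, (f b k - f a k)|) ^ 2
      ≤ 2 * 10 ^ 13 * (t : ℝ) ^ ((2 : ℝ) - 1 / 200000) := by
  classical
  -- the modified matrix
  let P' : Matrix S S ℝ := fun a b => if 0 < π a then P a b else (1 : Matrix S S ℝ) a b
  have hP'1 : ∀ a b, 0 < π a → P' a b = P a b := fun a b h => by simp [P', h]
  have hP'2 : ∀ a b, ¬ 0 < π a → P' a b = (1 : Matrix S S ℝ) a b := fun a b h => by simp [P', h]
  have hπpos : ∀ a b, 0 < π a → 0 < P a b → 0 < π b := by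
    intro a b ha hab
    have h1 : 0 < π b * P b a := by rw [← hrev]; positivity
    by_contra hb
    have hb' : π b = 0 := le_antisymm (not_lt.mp hb) (hπ b)
    rw [hb'] at h1
    simp at h1
  have hstoch : IsStoch P' := by
    constructor
    · intro a b
      by_cases h : 0 < π a
      · rw [hP'1 a b h]; exact hP a b
      · rw [hP'2 a b h]; exact IsStoch.one.1 a b
    · intro a
      by_cases h : 0 < π a
      · simp only [hP'1 a _ h]; exact hP1 a
      · simp only [hP'2 a _ h]; exact IsStoch.one.2 a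
  have hrev' : ∀ a b, π a * P' a b = π b * P' b a := by
    intro a b
    by_cases ha : 0 < π a
    · by_cases hb : 0 < π b
      · rw [hP'1 a b ha, hP'1 b a hb]; exact hrev a b
      · have hb0 : π b = 0 := le_antisymm (not_lt.mp hb) (hπ b)
        rw [hP'1 a b ha, hrev, hb0]
        simp
    · have ha0 : π a = 0 := le_antisymm (not_lt.mp ha) (hπ a)
      by_cases hb : 0 < π b
      · rw [hP'1 b a hb, ← hrev, ha0]
        simp
      · have hb0 : π b = 0 := le_antisymm (not_lt.mp hb) (hπ b)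
        rw [ha0, hb0]
        simp
  let c : Chain S := ⟨π, P', hπ, hπ1, hstoch, hrev'⟩
  have hLip : c.Lip N f := by
    intro a b hab
    show tau N f a b ≤ 1
    by_cases ha : 0 < π a
    · have h1 : 0 < P a b := by
        have : P' a b = P a b := hP'1 a b ha
        have h2 : 0 < P' a b := hab
        linarith
      have h2 := hf a b (mul_pos ha h1)
      unfold tau
      refine le_trans (le_of_eq ?_) h2
      exact Finset.sum_congr rfl fun k _ => abs_sub_comm _ _
    · have h2 : 0 < P' a b := hab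
      rw [hP'2 a b ha] at h2
      have hab' : a = b := by
        by_contra hne
        simp [Matrix.one_apply, hne] at h2
      subst hab'
      rw [tau_self]
      norm_num
  have hmain := c.Dsq_all N f hLip ht
  refine le_trans (le_of_eq ?_) hmain
  -- the two chains agree from points of positive weight
  have hpow : ∀ (s : ℕ) (a b : S), 0 < π a → (P' ^ s) a b = (P ^ s) a b := by
    intro s
    induction s with
    | zero => intro a b _; simp
    | succ s ih =>
      intro a b ha
      rw [pow_succ', pow_succ', Matrix.mul_apply, Matrix.mul_apply]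
      refine Finset.sum_congr rfl fun d _ => ?_
      rw [hP'1 a d ha]
      rcases (hP a d).lt_or_eq with h | h
      · rw [ih d b (hπpos a d ha h)]
      · rw [← h]; simp
  unfold Chain.Dsq
  refine Finset.sum_congr rfl fun a _ => Finset.sum_congr rfl fun b _ => ?_
  have hnrm : (Finset.range (N + 1)).sup' ⟨0, by simp⟩
      (fun x => |∑ k ∈ range x, (f b k - f a k)|) = nrm N f a b := by
    unfold nrm normW pre
    congr 1
    funext x
    rw [Finset.sum_sub_distrib]
  rw [hnrm]
  show π a * (P ^ t) a b * _ = π a * (P' ^ t) a b * _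
  by_cases ha : 0 < π a
  · rw [hpow t a b ha]
  · have ha0 : π a = 0 := le_antisymm (not_lt.mp ha) (hπ a)
    rw [ha0]
    simp

end Vale.Agent.Lib.P125
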