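import Vale.Agent.Lib.P125.Drift

/-!
The sup form of the drift bound, the Lipschitz bound along paths and the second moment bound
for a running sum whose index is fixed at the start of the path.
-/

open Finset

namespace Vale.Agent.Lib.P125

variable {S : Type*} [Fintype S] [DecidableEq S]

/-- drift of the running sums at the state `w`, after `j` steps -/
noncomputable def cd (P : Matrix S S ℝ) (f : ℕ → S → ℝ) (j x : ℕ) (w : S) : ℝ :=
  ∑ w', (P ^ j) w w' * Fs f x w' - Fs f x w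

/-- the largest drift at the state `w`, after `j` steps -/
noncomputable def Bj (P : Matrix S S ℝ) (f : ℕ → S → ℝ) (N j : ℕ) (w : S) : ℝ :=
  nrm N (fun x => cd P f j x w)

lemma Fs_neg (f : ℕ → S → ℝ) (x : ℕ) (z : S) : Fs (fun i z => - f i z) x z = - Fs f x z := by
  simp [Fs]

/-- the drift bound in sup form -/
theorem drift_sup {pi : S → ℝ} {P : Matrix S S ℝ} (hP : IsRevK pi P) (hpi0 : ∀ u, 0 ≤ pi u)
    (hpi : ∑ u, pi u = 1) (f : ℕ → S → ℝ) (N : ℕ)
    (hf : ∀ u v, 0 < pi u * P u v → ∑ i ∈ range N, |f i v - f i u| ≤ 1)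
    {τ : ℕ} (hτ : 1 ≤ τ) {δ : ℝ} (hδ : 0 < δ) :
    ∑ w, pi w * Bj P f N τ w ≤ (τ : ℝ) * δ + 24 / δ ^ 2 := by
  have hne : (range (N + 1)).Nonempty := ⟨0, by simp⟩
  have hmax : ∀ w, ∃ x ∈ range (N + 1), ∀ y ∈ range (N + 1), cd P f τ y w ≤ cd P f τ x w :=
    fun w => exists_max_image _ _ hne
  have hmin : ∀ w, ∃ x ∈ range (N + 1), ∀ y ∈ range (N + 1), cd P f τ x w ≤ cd P f τ y w :=
    fun w => exists_min_image _ _ hne
  choose xp hxp1 hxp2 using hmax
  choose xm hxm1 hxm2 using hmin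
  have hc0 : ∀ w, cd P f τ 0 w = 0 := by
    intro w; simp [cd]
  have hB : ∀ w, Bj P f N τ w ≤ cd P f τ (xp w) w + (- cd P f τ (xm w) w) := by
    intro w
    refine nrm_le (fun x hx => ?_)
    have hx' : x ∈ range (N + 1) := mem_range.mpr (by omega)
    have h0 : 0 ∈ range (N + 1) := by simp
    have h1 := hxp2 w x hx'
    have h2 := hxm2 w x hx'
    have h3 := hxp2 w 0 h0
    have h4 := hxm2 w 0 h0
    rw [hc0] at h3 h4
    rw [abs_le]
    constructor <;> linarith
  have hX : ∀ w, xp w ≤ N := fun w => by have := mem_range.mp (hxp1 w); omega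
  have hY : ∀ w, xm w ≤ N := fun w => by have := mem_range.mp (hxm1 w); omega
  have h1 := drift_one_sided hP hpi0 hpi f N hf xp hX hτ hδ
  have hf' : ∀ u v, 0 < pi u * P u v →
      ∑ i ∈ range N, |(fun i z => - f i z) i v - (fun i z => - f i z) i u| ≤ 1 := by
    intro u v huv
    refine le_trans (le_of_eq ?_) (hf u v huv)
    refine sum_congr rfl (fun i _ => ?_)
    rw [← abs_neg]
    congr 1
    ring
  have h2 := drift_one_sided hP hpi0 hpi (fun i z => - f i z) N hf' xm hY hτ hδ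
  simp_rw [Fs_neg] at h2
  have h3 : ∑ w, pi w * (- cd P f τ (xm w) w)
      = ∑ z, pi z * (∑ w, (P ^ τ) z w * (- Fs f (xm z) w) - (- Fs f (xm z) z)) := by
    refine sum_congr rfl (fun z _ => ?_)
    unfold cd
    simp_rw [mul_neg, sum_neg_distrib]
    ring
  have h4 : ∑ w, pi w * Bj P f N τ w
      ≤ ∑ w, pi w * cd P f τ (xp w) w + ∑ w, pi w * (- cd P f τ (xm w) w) := by
    rw [← sum_add_distrib]
    refine sum_le_sum (fun w _ => ?_)
    rw [← mul_add]
    exact mul_le_mul_of_nonneg_left (hB w) (hpi0 w)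
  have h5 : ∑ w, pi w * cd P f τ (xp w) w
      = ∑ z, pi z * (∑ w, (P ^ τ) z w * Fs f (xp z) w - Fs f (xp z) z) := rfl
  rw [h5, h3] at h4
  have h6 : (τ : ℝ) * δ + 24 / δ ^ 2 = ((τ : ℝ) * δ / 2 + 12 / δ ^ 2) + ((τ : ℝ) * δ / 2 + 12 / δ ^ 2) := by
    ring
  rw [h6]
  linarith

/-- positive entries in a product of two kernels -/
lemma exists_pos_of_mul_pos {A B : Matrix S S ℝ} (hA : ∀ u v, 0 ≤ A u v) (hB : ∀ u v, 0 ≤ B u v)
    {z w : S} (h : 0 < (A * B) z w) : ∃ u, 0 < A z u ∧ 0 < B u w := by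
  rw [Matrix.mul_apply] at h
  by_contra hno
  push Not at hno
  have : ∑ u, A z u * B u w ≤ 0 := by
    refine sum_nonpos (fun u _ => ?_)
    rcases (hA z u).eq_or_lt with h1 | h1
    · rw [← h1]; simp
    · have := hno u h1
      have h2 : B u w = 0 := le_antisymm this (hB u w)
      rw [h2]; simp
  linarith

/-- the Lipschitz bound along paths -/
lemma path_lip {pi : S → ℝ} {P : Matrix S S ℝ} (hP : IsRevK pi P) (hpi0 : ∀ u, 0 ≤ pi u)
    (f : ℕ → S → ℝ) (N : ℕ)
    (hf : ∀ u v, 0 < pi u * P u v → ∑ i ∈ range N, |f i v - f i u| ≤ 1)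
    (k : ℕ) {z w : S} (hz : 0 < pi z) (h : 0 < (P ^ k) z w) :
    ∑ i ∈ range N, |f i w - f i z| ≤ k := by
  induction k generalizing w with
  | zero =>
    have : z = w := by
      by_contra hne
      rw [pow_zero, Matrix.one_apply_ne hne] at h
      exact lt_irrefl _ h
    subst this
    simp
  | succ k ih =>
    rw [pow_succ] at h
    obtain ⟨u, hu1, hu2⟩ := exists_pos_of_mul_pos (hP.pow k).nonneg hP.nonneg h
    have hu : 0 < pi u := (hP.pow k).supp hpi0 hz hu1
    have h1 := ih hu1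
    have h2 := hf u w (mul_pos hu hu2)
    calc ∑ i ∈ range N, |f i w - f i z|
        ≤ ∑ i ∈ range N, (|f i w - f i u| + |f i u - f i z|) := by
          refine sum_le_sum (fun i _ => ?_)
          have := abs_add_le (f i w - f i u) (f i u - f i z)
          rwa [sub_add_sub_cancel] at this
      _ = ∑ i ∈ range N, |f i w - f i u| + ∑ i ∈ range N, |f i u - f i z| := sum_add_distrib
      _ ≤ 1 + k := add_le_add h2 h1
      _ = ((k + 1 : ℕ) : ℝ) := by push_cast; ring

omit [Fintype S] [DecidableEq S] in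
/-- a running sum changes by at most the `l1` size of the increment -/
lemma abs_Fs_sub_le (f : ℕ → S → ℝ) {y N : ℕ} (hy : y ≤ N) (w z : S) :
    |Fs f y w - Fs f y z| ≤ ∑ i ∈ range N, |f i w - f i z| := by
  unfold Fs
  rw [← sum_sub_distrib]
  refine le_trans (abs_sum_le_sum_abs _ _) ?_
  exact sum_le_sum_of_subset_of_nonneg (range_subset_range.mpr hy) (fun _ _ _ => abs_nonneg _)

/-- second moment after `q` blocks of length `j`, pointer fixed at the start -/
theorem block_moment {pi : S → ℝ} {P : Matrix S S ℝ} (hP : IsRevK pi P) (hpi0 : ∀ u, 0 ≤ pi u)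
    (f : ℕ → S → ℝ) (N : ℕ)
    (hf : ∀ u v, 0 < pi u * P u v → ∑ i ∈ range N, |f i v - f i u| ≤ 1)
    (j : ℕ) {z : S} (hz : 0 < pi z) {y : ℕ} (hy : y ≤ N) (q : ℕ) :
    ∑ w, (P ^ (q * j)) z w * (Fs f y w - Fs f y z) ^ 2
      ≤ (q : ℝ) * (j : ℝ) ^ 2
        + ∑ i ∈ range q, 2 * ((i : ℝ) * j) * ∑ w, (P ^ (i * j)) z w * Bj P f N j w := by
  induction q with
  | zero => simp [Matrix.one_apply]
  | succ q ih =>
    rw [sum_range_succ]
    have e1 : (q + 1) * j = q * j + j := by ring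
    rw [e1, pow_add]
    have hPq := hP.pow (q * j)
    have hPj := hP.pow j
    have h1 : ∑ w', (P ^ (q * j) * P ^ j) z w' * (Fs f y w' - Fs f y z) ^ 2
        = ∑ w, (P ^ (q * j)) z w * ∑ w', (P ^ j) w w' * (Fs f y w' - Fs f y z) ^ 2 := by
      simp_rw [Matrix.mul_apply, sum_mul, mul_sum]
      rw [sum_comm]
      refine sum_congr rfl (fun w _ => sum_congr rfl (fun w' _ => ?_))
      ring
    rw [h1]
    have h2 : ∀ w, (P ^ (q * j)) z w * ∑ w', (P ^ j) w w' * (Fs f y w' - Fs f y z) ^ 2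
        ≤ (P ^ (q * j)) z w * (Fs f y w - Fs f y z) ^ 2
          + (2 * ((q : ℝ) * j) * ((P ^ (q * j)) z w * Bj P f N j w)
            + (P ^ (q * j)) z w * (j : ℝ) ^ 2) := by
      intro w
      rcases (hPq.nonneg z w).eq_or_lt with h0 | h0
      · rw [← h0]; simp
      have hw : 0 < pi w := hPq.supp hpi0 hz h0
      have h3 : |Fs f y w - Fs f y z| ≤ ((q * j : ℕ) : ℝ) :=
        le_trans (abs_Fs_sub_le f hy w z) (path_lip hP hpi0 f N hf (q * j) hz h0)
      have h4 : ∀ w', (P ^ j) w w' * (Fs f y w' - Fs f y z) ^ 2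
          ≤ (P ^ j) w w' * (Fs f y w - Fs f y z) ^ 2
            + 2 * (Fs f y w - Fs f y z) * ((P ^ j) w w' * (Fs f y w' - Fs f y w))
            + (P ^ j) w w' * (j : ℝ) ^ 2 := by
        intro w'
        rcases (hPj.nonneg w w').eq_or_lt with h5 | h5
        · rw [← h5]; simp
        have h6 : |Fs f y w' - Fs f y w| ≤ (j : ℝ) :=
          le_trans (abs_Fs_sub_le f hy w' w) (path_lip hP hpi0 f N hf j hw h5)
        have h7 : (Fs f y w' - Fs f y w) ^ 2 ≤ (j : ℝ) ^ 2 := by
          rw [← sq_abs]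
          exact pow_le_pow_left₀ (abs_nonneg _) h6 2
        have h8 : (Fs f y w' - Fs f y z) ^ 2 = (Fs f y w - Fs f y z) ^ 2
            + 2 * (Fs f y w - Fs f y z) * (Fs f y w' - Fs f y w)
            + (Fs f y w' - Fs f y w) ^ 2 := by ring
        rw [h8]
        have h9 := mul_le_mul_of_nonneg_left h7 h5.le
        nlinarith
      have h10 : ∑ w', (P ^ j) w w' * (Fs f y w' - Fs f y z) ^ 2
          ≤ (Fs f y w - Fs f y z) ^ 2 + 2 * (Fs f y w - Fs f y z) * cd P f j y w + (j : ℝ) ^ 2 := by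
        refine le_trans (sum_le_sum (fun w' _ => h4 w')) (le_of_eq ?_)
        have hc : ∑ w', (P ^ j) w w' * (Fs f y w' - Fs f y w) = cd P f j y w := by
          unfold cd
          simp_rw [mul_sub]
          rw [sum_sub_distrib, ← sum_mul, hPj.sum_one, one_mul]
        rw [sum_add_distrib, sum_add_distrib, ← mul_sum, ← sum_mul, ← sum_mul, hPj.sum_one, hc]
        ring
      have h11 : |cd P f j y w| ≤ Bj P f N j w := le_nrm N (fun x => cd P f j x w) hy
      have h12 : 2 * (Fs f y w - Fs f y z) * cd P f j y w ≤ 2 * ((q : ℝ) * j) * Bj P f N j w := by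
        have h13 : (Fs f y w - Fs f y z) * cd P f j y w ≤ |Fs f y w - Fs f y z| * |cd P f j y w| := by
          rw [← abs_mul]; exact le_abs_self _
        have h14 : |Fs f y w - Fs f y z| * |cd P f j y w| ≤ ((q * j : ℕ) : ℝ) * Bj P f N j w :=
          mul_le_mul h3 h11 (abs_nonneg _) (by positivity)
        push_cast at h14
        linarith
      have h15 := mul_le_mul_of_nonneg_left (le_trans h10 (add_le_add_left (add_le_add_right h12 _) _)) h0.le
      calc _ ≤ _ := h15
        _ = _ := by ring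
    refine le_trans (sum_le_sum (fun w _ => h2 w)) ?_
    rw [sum_add_distrib, sum_add_distrib, ← sum_mul, ← mul_sum, hPq.sum_one]
    push_cast
    linarith

end Vale.Agent.Lib.P125
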