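import Vale.Agent.Lib.P125.Energy

/-!
# The pointer bound: scalar chaining along powers of 8
-/

namespace Vale.Agent.Lib.P125

open Finset BigOperators Matrix

set_option linter.unusedSectionVars false
set_option linter.unusedSimpArgs false
set_option linter.unusedVariables false

variable {S : Type*} [Fintype S] [DecidableEq S]

/-- Scalar chaining lemma. -/
lemma chain_bound (β : ℕ → ℝ) (h1 : ∀ j, |β (j + 1) - β j| ≤ 1)
    (h2 : ∀ n u l : ℕ, 8 ^ (n + 1) ≤ u → 8 ^ n ≤ l → l ≤ 7 * 8 ^ n →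
      ∃ j, u ≤ j ∧ j < u + 8 ^ n ∧ |β (j + l) - β j| ≤ 14 * 4 ^ n) (n : ℕ) :
    |β (8 ^ n) - β 0| ≤ 17 * 4 ^ n := by
  have tri : ∀ a b d e : ℝ, |a - d| ≤ |a - b| + |b - e| + |e - d| := by
    intro a b d e
    calc |a - d| = |(a - b) + (b - e) + (e - d)| := by ring_nf
      _ ≤ |(a - b) + (b - e)| + |e - d| := abs_add_le _ _
      _ ≤ |a - b| + |b - e| + |e - d| := by gcongr; exact abs_add_le _ _
  have Q : ∀ n u h : ℕ, 8 ^ n ≤ u → h ≤ 8 ^ n → |β (u + h) - β u| ≤ 7 * 4 ^ n := by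
    intro n
    induction n with
    | zero =>
      intro u h _ hh
      have hh' : h = 0 ∨ h = 1 := by
        simp only [pow_zero] at hh
        omega
      rcases hh' with rfl | rfl
      · simp
      · have := h1 u
        norm_num
        linarith
    | succ n ih =>
      intro u h hu hh
      have hpow : (8 : ℕ) ^ (n + 1) = 8 * 8 ^ n := by ring
      have hpow4 : (4 : ℝ) ^ (n + 1) = 4 * 4 ^ n := by ring
      have h4pos : (0 : ℝ) < 4 ^ n := by positivity
      set w := 8 ^ n with hw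
      have hwpos : 0 < w := by positivity
      rw [hpow] at hu hh
      rw [hpow4]
      by_cases hcase : h ≤ 2 * w
      · -- two short pieces
        by_cases hcase2 : h ≤ w
        · have := ih u h (by omega) hcase2
          nlinarith
        · have h3 := ih u w (by omega) le_rfl
          have h4 := ih (u + w) (h - w) (by omega) (by omega)
          have h5 : u + w + (h - w) = u + h := by omega
          rw [h5] at h4
          have h6 := abs_sub_le (β (u + h)) (β (u + w)) (β u)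
          linarith
      · -- the good window
        push Not at hcase
        obtain ⟨j, hj1, hj2, hj3⟩ := h2 n u (h - w) (by rw [hpow]; omega) (by omega) (by omega)
        have h5 := ih u (j - u) (by omega) (by omega)
        have h6 : u + (j - u) = j := by omega
        rw [h6] at h5
        have h7 := ih (j + (h - w)) (u + h - (j + (h - w))) (by omega) (by omega)
        have h8 : j + (h - w) + (u + h - (j + (h - w))) = u + h := by omega
        rw [h8] at h7
        have h9 := tri (β (u + h)) (β (j + (h - w))) (β u) (β j)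
        have h10 : |β j - β u| ≤ 7 * 4 ^ n := h5
        linarith
  -- summing up
  induction n with
  | zero =>
    have := h1 0
    simp only [pow_zero, zero_add] at this ⊢
    linarith
  | succ n ih =>
    have hpow : (8 : ℕ) ^ (n + 1) = 8 ^ n + 7 * 8 ^ n := by ring
    have hpow4 : (4 : ℝ) ^ (n + 1) = 4 * 4 ^ n := by ring
    have h4pos : (0 : ℝ) < 4 ^ n := by positivity
    set w := 8 ^ n with hw
    have hwpos : 0 < w := by positivity
    have hstep : ∀ m : ℕ, 1 ≤ m → |β ((m + 1) * w) - β (m * w)| ≤ 7 * 4 ^ n := by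
      intro m hm
      have := Q n (m * w) w (by nlinarith) le_rfl
      have h2 : m * w + w = (m + 1) * w := by ring
      rwa [h2] at this
    have hsum : ∀ m : ℕ, m ≤ 7 → |β ((m + 1) * w) - β w| ≤ m * (7 * 4 ^ n) := by
      intro m
      induction m with
      | zero => intro _; simp
      | succ m ihm =>
        intro hm
        have h1 := ihm (by omega)
        have h2 := hstep (m + 1) (by omega)
        have h3 := abs_sub_le (β ((m + 1 + 1) * w)) (β ((m + 1) * w)) (β w)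
        push_cast
        nlinarith
    have h7 := hsum 7 le_rfl
    have h8 : (7 + 1) * w = w + 7 * w := by ring
    rw [h8] at h7
    rw [hpow, hpow4]
    have h9 := abs_sub_le (β (w + 7 * w)) (β w) (β 0)
    push_cast at h7
    nlinarith

/-- Initial sums of the coordinates. -/
def pre (f : S → ℕ → ℝ) (x : ℕ) (a : S) : ℝ := ∑ k ∈ range x, f a k

/-- The `ℓ¹` distance of the first `N` coordinates. -/
def tau (N : ℕ) (f : S → ℕ → ℝ) (a b : S) : ℝ := ∑ k ∈ range N, |f a k - f b k|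

namespace Chain

variable (c : Chain S)

/-- The Lipschitz hypothesis on edges. -/
def Lip (N : ℕ) (f : S → ℕ → ℝ) : Prop := ∀ a b, 0 < c.P a b → tau N f a b ≤ 1

/-- The indicator of `k < p y`. -/
def gk (p : S → ℕ) (k : ℕ) (y : S) : ℝ := if k < p y then 1 else 0

/-- Scalar function of time. -/
noncomputable def beta (N : ℕ) (f : S → ℕ → ℝ) (p : S → ℕ) (s : ℕ) : ℝ :=
  ∑ k ∈ range N, ∑ z, c.w z * f z k * ∑ y, (c.P ^ s) z y * gk p k y

lemma act_gk (p : S → ℕ) {K : Matrix S S ℝ} (hK : IsStoch K) (k : ℕ) (a : S) :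
    ∑ y, K a y * gk p k y = 1 - cumv p (K a) (k + 1) := by
  have h0 : (1 : ℝ) - cumv p (K a) (k + 1)
      = ∑ y, (K a y - K a y * (if p y < k + 1 then 1 else 0)) := by
    rw [Finset.sum_sub_distrib, hK.2 a]
    rfl
  rw [h0]
  refine Finset.sum_congr rfl fun y _ => ?_
  unfold gk
  by_cases h : k < p y
  · have h2 : ¬ p y < k + 1 := by omega
    simp [h, h2]
  · have h2 : p y < k + 1 := by omega
    simp [h, h2]

lemma cumv_Kw (p : S → ℕ) (j l : ℕ) (a : S) (θ : ℕ) :
    cumv p (c.Kw j l a) θ = (l : ℝ)⁻¹ * ∑ i ∈ range l, cumv p ((c.P ^ (j + i)) a) θ := by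
  unfold cumv Kw
  simp only [c.pow_mul_Mw_apply]
  simp only [Finset.mul_sum, Finset.sum_mul]
  rw [Finset.sum_comm]
  refine Finset.sum_congr rfl fun i _ => Finset.sum_congr rfl fun y _ => ?_
  ring

/-- Passing from one window to the next only changes the two end points. -/
lemma cumv_Kw_succ (p : S → ℕ) (j l : ℕ) (a : S) (θ : ℕ) :
    cumv p (c.Kw (j + 1) l a) θ - cumv p (c.Kw j l a) θ
      = (l : ℝ)⁻¹ * (cumv p ((c.P ^ (j + l)) a) θ - cumv p ((c.P ^ j) a) θ) := by
  rw [c.cumv_Kw, c.cumv_Kw, ← mul_sub, ← Finset.sum_sub_distrib]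
  congr 1
  have h := Finset.sum_range_sub (fun i => cumv p ((c.P ^ (j + i)) a) θ) l
  simp only [add_zero] at h
  rw [← h]
  refine Finset.sum_congr rfl fun i _ => ?_
  have : j + 1 + i = j + (i + 1) := by ring
  rw [this]

lemma KS_le_one (N : ℕ) (p : S → ℕ) {μ ν : S → ℝ} (hμ : IsProb μ) (hν : IsProb ν) :
    KS N p μ ν ≤ 1 := by
  obtain ⟨θ, _, h⟩ := exists_KS N p μ ν
  rw [h, abs_le]
  have h1 := cumv_nonneg p hμ θ
  have h2 := cumv_nonneg p hν θ
  have h3 := cumv_le_one p hμ θ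
  have h4 := cumv_le_one p hν θ
  constructor <;> linarith

lemma KS_Kw_succ (N : ℕ) (p : S → ℕ) (j : ℕ) {l : ℕ} (hl : 1 ≤ l) (a : S) :
    KS N p (c.Kw j l a) (c.Kw (j + 1) l a) ≤ (l : ℝ)⁻¹ := by
  have hl' : (0 : ℝ) < l := by exact_mod_cast hl
  obtain ⟨θ, _, h⟩ := exists_KS N p (c.Kw j l a) (c.Kw (j + 1) l a)
  rw [h, abs_sub_comm, c.cumv_Kw_succ, abs_mul, abs_of_pos (inv_pos.mpr hl')]
  have h1 := cumv_nonneg p ((c.pow_stoch (j + l)).isProb a) θ
  have h2 := cumv_nonneg p ((c.pow_stoch j).isProb a) θ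
  have h3 := cumv_le_one p ((c.pow_stoch (j + l)).isProb a) θ
  have h4 := cumv_le_one p ((c.pow_stoch j).isProb a) θ
  have h5 : |cumv p ((c.P ^ (j + l)) a) θ - cumv p ((c.P ^ j) a) θ| ≤ 1 := by
    rw [abs_le]; constructor <;> linarith
  have h6 : (l : ℝ)⁻¹ * |cumv p ((c.P ^ (j + l)) a) θ - cumv p ((c.P ^ j) a) θ| ≤ (l : ℝ)⁻¹ * 1 :=
    mul_le_mul_of_nonneg_left h5 (inv_nonneg.mpr hl'.le)
  linarith

/-- Total mass of the edge measure. -/
lemma edge_mass : ∑ a, ∑ b, c.w a * c.P a b = 1 := by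
  calc ∑ a, ∑ b, c.w a * c.P a b = ∑ a, c.w a * ∑ b, c.P a b := by
        refine Finset.sum_congr rfl fun a _ => ?_
        rw [Finset.mul_sum]
    _ = ∑ a, c.w a := by simp [c.stoch.2]
    _ = 1 := c.w_sum

/-- Mean of the Kolmogorov distance along edges. -/
noncomputable def edgeKS (N : ℕ) (p : S → ℕ) (j l : ℕ) : ℝ :=
  ∑ a, ∑ b, c.w a * c.P a b * KS N p (c.Kw j l a) (c.Kw j l b)

lemma beta_diff_le (N : ℕ) (f : S → ℕ → ℝ) (hf : c.Lip N f) (p : S → ℕ) (j : ℕ) {l : ℕ}
    (hl : 1 ≤ l) :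
    |c.beta N f p (j + l) - c.beta N f p j| ≤ ((l : ℝ) / 2) * c.edgeKS N p j l := by
  have hl' : (0 : ℝ) < l := by exact_mod_cast hl
  have hK := c.Kw_stoch j hl
  -- each coordinate
  have hk : ∀ k, ∑ z, c.w z * f z k * ∑ y, (c.P ^ (j + l)) z y * gk p k y
      - ∑ z, c.w z * f z k * ∑ y, (c.P ^ j) z y * gk p k y
      = ((l : ℝ) / 2) * ∑ a, ∑ b, c.w a * c.P a b *
          ((f b k - f a k) * (cumv p (c.Kw j l b) (k + 1) - cumv p (c.Kw j l a) (k + 1))) := by
    intro k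
    rw [c.dirichlet (fun a => f a k) (fun a => cumv p (c.Kw j l a) (k + 1))]
    rw [← Finset.sum_sub_distrib]
    have : ∀ z, c.w z * f z k * ∑ y, (c.P ^ (j + l)) z y * gk p k y
        - c.w z * f z k * ∑ y, (c.P ^ j) z y * gk p k y
        = (l : ℝ) * (c.w z * f z k * (cumv p (c.Kw j l z) (k + 1)
            - ∑ b, c.P z b * cumv p (c.Kw j l b) (k + 1))) := by
      intro z
      rw [act_gk p (c.pow_stoch _) k z, act_gk p (c.pow_stoch _) k z]
      have h1 : ∑ b, c.P z b * cumv p (c.Kw j l b) (k + 1)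
          = cumv p (c.Kw (j + 1) l z) (k + 1) := by
        rw [← cumv_mul, c.P_mul_Kw]
      rw [h1]
      have h2 := c.cumv_Kw_succ p j l z (k + 1)
      have h3 : cumv p (c.Kw j l z) (k + 1) - cumv p (c.Kw (j + 1) l z) (k + 1)
          = (l : ℝ)⁻¹ * (cumv p ((c.P ^ j) z) (k + 1) - cumv p ((c.P ^ (j + l)) z) (k + 1)) := by
        linear_combination -h2
      rw [h3]
      field_simp
      ring
    simp only [this]
    rw [← Finset.mul_sum]
    ring
  have hdiff : c.beta N f p (j + l) - c.beta N f p j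
      = ((l : ℝ) / 2) * ∑ k ∈ range N, ∑ a, ∑ b, c.w a * c.P a b *
          ((f b k - f a k) * (cumv p (c.Kw j l b) (k + 1) - cumv p (c.Kw j l a) (k + 1))) := by
    unfold beta
    rw [← Finset.sum_sub_distrib, Finset.mul_sum]
    exact Finset.sum_congr rfl fun k _ => hk k
  rw [hdiff, abs_mul, abs_of_pos (by positivity)]
  refine mul_le_mul_of_nonneg_left ?_ (by positivity)
  -- exchange the sums
  have hswap : ∑ k ∈ range N, ∑ a, ∑ b, c.w a * c.P a b *
          ((f b k - f a k) * (cumv p (c.Kw j l b) (k + 1) - cumv p (c.Kw j l a) (k + 1)))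
      = ∑ a, ∑ b, c.w a * c.P a b * ∑ k ∈ range N,
          ((f b k - f a k) * (cumv p (c.Kw j l b) (k + 1) - cumv p (c.Kw j l a) (k + 1))) := by
    rw [Finset.sum_comm]
    refine Finset.sum_congr rfl fun a _ => ?_
    rw [Finset.sum_comm]
    refine Finset.sum_congr rfl fun b _ => ?_
    rw [Finset.mul_sum]
  rw [hswap]
  unfold edgeKS
  refine le_trans (Finset.abs_sum_le_sum_abs _ _) (Finset.sum_le_sum fun a _ => ?_)
  refine le_trans (Finset.abs_sum_le_sum_abs _ _) (Finset.sum_le_sum fun b _ => ?_)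
  rw [abs_mul, abs_of_nonneg (mul_nonneg (c.w_nonneg a) (c.stoch.1 a b))]
  by_cases hab : c.P a b = 0
  · simp [hab]
  · have hpos : 0 < c.P a b := lt_of_le_of_ne (c.stoch.1 a b) (Ne.symm hab)
    refine mul_le_mul_of_nonneg_left ?_ (mul_nonneg (c.w_nonneg a) (c.stoch.1 a b))
    have hKS0 := KS_nonneg N p (c.Kw j l a) (c.Kw j l b)
    calc |∑ k ∈ range N, (f b k - f a k) * (cumv p (c.Kw j l b) (k + 1) - cumv p (c.Kw j l a) (k + 1))|
        ≤ ∑ k ∈ range N, |f a k - f b k| * KS N p (c.Kw j l a) (c.Kw j l b) := by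
          refine le_trans (Finset.abs_sum_le_sum_abs _ _) (Finset.sum_le_sum fun k hk' => ?_)
          rw [abs_mul, abs_sub_comm (f b k)]
          refine mul_le_mul_of_nonneg_left ?_ (abs_nonneg _)
          rw [abs_sub_comm]
          have := Finset.mem_range.mp hk'
          exact le_KS N p _ _ (by omega)
      _ = tau N f a b * KS N p (c.Kw j l a) (c.Kw j l b) := by
          unfold tau
          rw [Finset.sum_mul]
      _ ≤ 1 * KS N p (c.Kw j l a) (c.Kw j l b) :=
          mul_le_mul_of_nonneg_right (hf a b hpos) hKS0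
      _ = KS N p (c.Kw j l a) (c.Kw j l b) := one_mul _

lemma edgeKS_le_one (N : ℕ) (p : S → ℕ) (j : ℕ) {l : ℕ} (hl : 1 ≤ l) :
    c.edgeKS N p j l ≤ 1 := by
  rw [← c.edge_mass]
  unfold edgeKS
  refine Finset.sum_le_sum fun a _ => Finset.sum_le_sum fun b _ => ?_
  have h := KS_le_one N p ((c.Kw_stoch j hl).isProb a) ((c.Kw_stoch j hl).isProb b)
  have h0 := mul_nonneg (c.w_nonneg a) (c.stoch.1 a b)
  nlinarith

/-- Comparison of the edge mean with the cube average, by a tangent line. -/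
lemma edgeKS_le (N : ℕ) (p : S → ℕ) (j : ℕ) {l : ℕ} (hl : 1 ≤ l) {A : ℝ} (hA : 0 < A) :
    c.edgeKS N p j l ≤ (2 / 3) * A + c.Xi N p (c.Kw j l) / (3 * A ^ 2) + (l : ℝ)⁻¹ := by
  have htan : ∀ x : ℝ, 0 ≤ x → x ≤ (2 / 3) * A + x ^ 3 / (3 * A ^ 2) := by
    intro x hx
    have h1 : 0 ≤ (x - A) ^ 2 * (x + 2 * A) := mul_nonneg (sq_nonneg _) (by linarith)
    have h2 : 3 * A ^ 2 * x ≤ x ^ 3 + 2 * A ^ 3 := by nlinarith
    have h3 : (2 / 3) * A + x ^ 3 / (3 * A ^ 2) = (x ^ 3 + 2 * A ^ 3) / (3 * A ^ 2) := by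
      field_simp
      ring
    rw [h3, le_div_iff₀ (by positivity)]
    linarith
  have hedge : ∀ a b, KS N p (c.Kw j l a) (c.Kw j l b)
      ≤ (2 / 3) * A + (KS N p (c.Kw j l b) ((c.P * c.Kw j l) a)) ^ 3 / (3 * A ^ 2) + (l : ℝ)⁻¹ := by
    intro a b
    have h1 := KS_triangle N p (c.Kw j l a) (c.Kw j l b) (c.Kw (j + 1) l a)
    have h2 := c.KS_Kw_succ N p j hl a
    have h3 := htan _ (KS_nonneg N p (c.Kw j l b) ((c.P * c.Kw j l) a))
    rw [KS_symm N p (c.Kw (j + 1) l a)] at h1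
    rw [c.P_mul_Kw] at h3 ⊢
    linarith
  have hsum : c.edgeKS N p j l ≤ ∑ a, ∑ b, c.w a * c.P a b *
      ((2 / 3) * A + (KS N p (c.Kw j l b) ((c.P * c.Kw j l) a)) ^ 3 / (3 * A ^ 2) + (l : ℝ)⁻¹) := by
    unfold edgeKS
    refine Finset.sum_le_sum fun a _ => Finset.sum_le_sum fun b _ => ?_
    exact mul_le_mul_of_nonneg_left (hedge a b) (mul_nonneg (c.w_nonneg a) (c.stoch.1 a b))
  refine le_trans hsum (le_of_eq ?_)
  have h1 : ∑ a, ∑ b, c.w a * c.P a b *
      ((2 / 3) * A + (KS N p (c.Kw j l b) ((c.P * c.Kw j l) a)) ^ 3 / (3 * A ^ 2) + (l : ℝ)⁻¹)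
      = ((2 / 3) * A + (l : ℝ)⁻¹) * (∑ a, ∑ b, c.w a * c.P a b)
        + (∑ a, c.w a * ∑ b, c.P a b * (KS N p (c.Kw j l b) ((c.P * c.Kw j l) a)) ^ 3)
            / (3 * A ^ 2) := by
    rw [Finset.sum_div, Finset.mul_sum, ← Finset.sum_add_distrib]
    refine Finset.sum_congr rfl fun a _ => ?_
    rw [Finset.mul_sum, Finset.mul_sum, Finset.sum_div, ← Finset.sum_add_distrib]
    refine Finset.sum_congr rfl fun b _ => ?_
    ring
  rw [h1, c.edge_mass]
  unfold Xi
  ring

/-- Good windows for the scalar function of time. -/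
lemma beta_window (N : ℕ) (f : S → ℕ → ℝ) (hf : c.Lip N f) (p : S → ℕ) (hp : ∀ y, p y ≤ N)
    (n u l : ℕ) (hu : 8 ^ (n + 1) ≤ u) (hl1 : 8 ^ n ≤ l) (hl2 : l ≤ 7 * 8 ^ n) :
    ∃ j, u ≤ j ∧ j < u + 8 ^ n ∧
      |c.beta N f p (j + l) - c.beta N f p j| ≤ 14 * 4 ^ n := by
  have hw : 1 ≤ 8 ^ n := Nat.one_le_pow _ _ (by norm_num)
  have hpow : (8 : ℕ) ^ (n + 1) = 8 * 8 ^ n := by ring
  obtain ⟨j, hj1, hj2, hj3⟩ := c.window_good N p hp (l := l) (w := 8 ^ n) (u := u) hw hl1
    (by rw [hpow] at hu; omega)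
  refine ⟨j, hj1, hj2, ?_⟩
  have hl : 1 ≤ l := le_trans hw hl1
  have hl' : (0 : ℝ) < l := by exact_mod_cast hl
  set x : ℝ := 2 ^ n with hx
  have hx1 : 1 ≤ x := one_le_pow₀ (by norm_num)
  have hx0 : 0 < x := by linarith
  have h8 : ((8 ^ n : ℕ) : ℝ) = x ^ 3 := by
    push_cast
    rw [hx, ← pow_mul, mul_comm, pow_mul]
    norm_num
  have h4 : (4 : ℝ) ^ n = x ^ 2 := by
    rw [hx, ← pow_mul, mul_comm, pow_mul]
    norm_num
  have hl2' : (l : ℝ) ≤ 7 * x ^ 3 := by
    have : ((l : ℕ) : ℝ) ≤ ((7 * 8 ^ n : ℕ) : ℝ) := by exact_mod_cast hl2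
    rw [Nat.cast_mul, h8] at this
    simpa using this
  rw [h8] at hj3
  have hA : 0 < 3 / x := by positivity
  have h1 := c.edgeKS_le N p j hl hA
  have h2 := c.beta_diff_le N f hf p j hl
  have h3 : c.Xi N p (c.Kw j l) / (3 * (3 / x) ^ 2) ≤ (2 / 3) / x := by
    have : (3 * (3 / x) ^ 2) = 27 / x ^ 2 := by field_simp; ring
    rw [this, div_le_iff₀ (by positivity)]
    refine le_trans hj3 (le_of_eq ?_)
    field_simp
    ring
  have h5 : c.edgeKS N p j l ≤ (8 / 3) / x + (l : ℝ)⁻¹ := by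
    have : (2 / 3) * (3 / x) = 2 / x := by field_simp
    have h6 : (8 / 3) / x = 2 / x + (2 / 3) / x := by field_simp; ring
    linarith
  have h6 : ((l : ℝ) / 2) * c.edgeKS N p j l ≤ ((l : ℝ) / 2) * ((8 / 3) / x + (l : ℝ)⁻¹) :=
    mul_le_mul_of_nonneg_left h5 (by positivity)
  have h7 : ((l : ℝ) / 2) * ((8 / 3) / x + (l : ℝ)⁻¹) = (l : ℝ) * (4 / 3) / x + 1 / 2 := by
    field_simp
    ring
  have h9 : (l : ℝ) * (4 / 3) / x ≤ (28 / 3) * x ^ 2 := by
    rw [div_le_iff₀ hx0]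
    nlinarith
  rw [h4]
  nlinarith

lemma beta_step (N : ℕ) (f : S → ℕ → ℝ) (hf : c.Lip N f) (p : S → ℕ) (j : ℕ) :
    |c.beta N f p (j + 1) - c.beta N f p j| ≤ 1 := by
  have h1 := c.beta_diff_le N f hf p j (l := 1) le_rfl
  have h2 := c.edgeKS_le_one N p j (l := 1) le_rfl
  have h3 : 0 ≤ c.edgeKS N p j 1 := by
    unfold edgeKS
    exact Finset.sum_nonneg fun a _ => Finset.sum_nonneg fun b _ =>
      mul_nonneg (mul_nonneg (c.w_nonneg a) (c.stoch.1 a b)) (KS_nonneg _ _ _ _)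
  push_cast at h1
  linarith

/-- The pointer functional equals the increment of `beta`. -/
lemma pointer_eq (N : ℕ) (f : S → ℕ → ℝ) (p : S → ℕ) (hp : ∀ y, p y ≤ N) (t : ℕ) :
    ∑ z, c.w z * (∑ y, (c.P ^ t) z y * pre f (p z) y - pre f (p z) z)
      = c.beta N f p t - c.beta N f p 0 := by
  have hpre : ∀ x a, x ≤ N → pre f x a = ∑ k ∈ range N, f a k * (if k < x then 1 else 0) := by
    intro x a hx
    unfold pre
    have hsub : range x ⊆ range N := Finset.range_subset_range.mpr hx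
    rw [← Finset.sum_subset hsub]
    · refine Finset.sum_congr rfl fun k hk => ?_
      have := Finset.mem_range.mp hk
      simp [this]
    · intro k _ hk
      have : ¬ k < x := fun h => hk (Finset.mem_range.mpr h)
      simp [this]
  have hL : ∀ z, c.w z * (∑ y, (c.P ^ t) z y * pre f (p z) y - pre f (p z) z)
      = ∑ k ∈ range N, (c.w z * gk p k z * ∑ y, (c.P ^ t) z y * f y k
          - c.w z * gk p k z * f z k) := by
    intro z
    have h1 : ∑ y, (c.P ^ t) z y * pre f (p z) y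
        = ∑ k ∈ range N, gk p k z * ∑ y, (c.P ^ t) z y * f y k := by
      calc ∑ y, (c.P ^ t) z y * pre f (p z) y
          = ∑ y, ∑ k ∈ range N, (c.P ^ t) z y * (f y k * gk p k z) := by
            refine Finset.sum_congr rfl fun y _ => ?_
            rw [hpre _ _ (hp z), Finset.mul_sum]
            rfl
        _ = ∑ k ∈ range N, ∑ y, (c.P ^ t) z y * (f y k * gk p k z) := Finset.sum_comm
        _ = _ := by
            refine Finset.sum_congr rfl fun k _ => ?_
            rw [Finset.mul_sum]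
            exact Finset.sum_congr rfl fun y _ => by ring
    have h2 : pre f (p z) z = ∑ k ∈ range N, gk p k z * f z k := by
      rw [hpre _ _ (hp z)]
      exact Finset.sum_congr rfl fun k _ => by unfold gk; ring
    rw [h1, h2, ← Finset.sum_sub_distrib, Finset.mul_sum]
    exact Finset.sum_congr rfl fun k _ => by ring
  simp only [hL]
  rw [Finset.sum_comm]
  unfold beta
  rw [← Finset.sum_sub_distrib]
  refine Finset.sum_congr rfl fun k _ => ?_
  rw [Finset.sum_sub_distrib]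
  have h3 := c.pow_selfadj t (gk p k) (fun y => f y k)
  rw [h3]
  congr 1
  refine Finset.sum_congr rfl fun z _ => ?_
  simp [Matrix.one_apply]
  ring

/-- The pointer bound. -/
theorem pointer_bound (N : ℕ) (f : S → ℕ → ℝ) (hf : c.Lip N f) (p : S → ℕ) (hp : ∀ y, p y ≤ N)
    (n : ℕ) :
    |∑ z, c.w z * (∑ y, (c.P ^ (8 ^ n)) z y * pre f (p z) y - pre f (p z) z)| ≤ 17 * 4 ^ n := by
  rw [c.pointer_eq N f p hp]
  exact chain_bound (c.beta N f p) (c.beta_step N f hf p)
    (fun n u l hu hl1 hl2 => c.beta_window N f hf p hp n u l hu hl1 hl2) n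

end Chain

end Vale.Agent.Lib.P125
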