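import Vale.Agent.Lib.P125.Basic

/-!
# Cumulative masses along a pointer and the rank inequality
-/

namespace Vale.Agent.Lib.P125

open Finset BigOperators Matrix

set_option linter.unusedSectionVars false
set_option linter.unusedSimpArgs false

variable {S : Type*} [Fintype S] [DecidableEq S]

/-- Mass under `μ` of the set `{y | p y < θ}`. -/
def cumv (p : S → ℕ) (μ : S → ℝ) (θ : ℕ) : ℝ :=
  ∑ y, μ y * (if p y < θ then 1 else 0)

/-- Probability vectors. -/
def IsProb (μ : S → ℝ) : Prop := (∀ y, 0 ≤ μ y) ∧ ∑ y, μ y = 1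

lemma IsStoch.isProb {K : Matrix S S ℝ} (hK : IsStoch K) (a : S) : IsProb (K a) :=
  ⟨hK.1 a, hK.2 a⟩

lemma cumv_nonneg (p : S → ℕ) {μ : S → ℝ} (hμ : IsProb μ) (θ : ℕ) : 0 ≤ cumv p μ θ := by
  refine Finset.sum_nonneg fun y _ => mul_nonneg (hμ.1 y) ?_
  split_ifs <;> norm_num

lemma cumv_mono (p : S → ℕ) {μ : S → ℝ} (hμ : IsProb μ) {θ θ' : ℕ} (h : θ ≤ θ') :
    cumv p μ θ ≤ cumv p μ θ' := by
  refine Finset.sum_le_sum fun y _ => mul_le_mul_of_nonneg_left ?_ (hμ.1 y)
  by_cases h1 : p y < θ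
  · have : p y < θ' := lt_of_lt_of_le h1 h
    simp [h1, this]
  · simp only [h1, if_false]
    split_ifs <;> norm_num

lemma cumv_top (p : S → ℕ) {μ : S → ℝ} (hμ : IsProb μ) {θ : ℕ} (h : ∀ y, p y < θ) :
    cumv p μ θ = 1 := by
  unfold cumv
  simp only [h, if_true, mul_one]
  exact hμ.2

lemma cumv_le_one (p : S → ℕ) {μ : S → ℝ} (hμ : IsProb μ) (θ : ℕ) : cumv p μ θ ≤ 1 := by
  rw [← hμ.2]
  refine Finset.sum_le_sum fun y _ => ?_
  have := hμ.1 y
  split_ifs <;> nlinarith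

lemma cumv_mul (p : S → ℕ) (A B : Matrix S S ℝ) (u : S) (θ : ℕ) :
    cumv p ((A * B) u) θ = ∑ z, A u z * cumv p (B z) θ := by
  unfold cumv
  simp only [Matrix.mul_apply', dotProduct, Finset.mul_sum, Finset.sum_mul]
  rw [Finset.sum_comm]
  refine Finset.sum_congr rfl fun z _ => Finset.sum_congr rfl fun y _ => ?_
  ring

/-- Energy of `μ` against `μb` along the pointer `p`. -/
def RR (p : S → ℕ) (μ μb : S → ℝ) : ℝ :=
  ∑ y, μb y * (cumv p μ (p y) - cumv p μb (p y)) ^ 2

lemma RR_nonneg (p : S → ℕ) (μ : S → ℝ) {μb : S → ℝ} (hμb : IsProb μb) : 0 ≤ RR p μ μb :=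
  Finset.sum_nonneg fun y _ => mul_nonneg (hμb.1 y) (sq_nonneg _)

/-- Elementary step: a Riemann sum with left end points of a decreasing function. -/
lemma key_step (v s s' : ℝ) (h : s ≤ s') :
    (max (v - s) 0) ^ 3 ≤ (max (v - s') 0) ^ 3 + 3 * ((s' - s) * (max (v - s) 0) ^ 2) := by
  by_cases h1 : v ≤ s
  · have h2 : v ≤ s' := le_trans h1 h
    rw [max_eq_right (by linarith), max_eq_right (by linarith)]
    norm_num
  · push Not at h1
    rw [max_eq_left (a := v - s) (by linarith)]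
    by_cases h2 : v ≤ s'
    · rw [max_eq_right (a := v - s') (by linarith)]
      have hm : v - s ≤ s' - s := by linarith
      have hA : 0 ≤ v - s := by linarith
      have : (v - s) ^ 3 = (v - s) * (v - s) ^ 2 := by ring
      rw [this]
      have h3 : (v - s) * (v - s) ^ 2 ≤ (s' - s) * (v - s) ^ 2 :=
        mul_le_mul_of_nonneg_right hm (sq_nonneg _)
      have h4 : 0 ≤ (s' - s) * (v - s) ^ 2 := mul_nonneg (by linarith) (sq_nonneg _)
      nlinarith
    · push Not at h2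
      rw [max_eq_left (a := v - s') (by linarith)]
      have hm : 0 ≤ s' - s := by linarith
      have hB : 0 ≤ v - s' := by linarith
      nlinarith [mul_nonneg hm hB, mul_nonneg (mul_nonneg hm hm) hB, mul_nonneg hm (mul_nonneg hm hm),
        mul_nonneg hm (mul_nonneg hB hB), mul_nonneg (mul_nonneg hm hm) hm]

/-- The rank inequality, one sided form. -/
lemma rank_pos (p : S → ℕ) (N : ℕ) (hp : ∀ y, p y ≤ N) {μ μb : S → ℝ}
    (hμ : IsProb μ) (hμb : IsProb μb) (θ : ℕ) (hc : 0 < cumv p μ θ - cumv p μb θ) :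
    (cumv p μ θ - cumv p μb θ) ^ 3 ≤ 3 * RR p μ μb := by
  set v := cumv p μ θ with hv
  have htop : ∀ t, N + 1 ≤ t → ∀ μ' : S → ℝ, IsProb μ' → cumv p μ' t = 1 := by
    intro t ht μ' hμ'
    exact cumv_top p hμ' (fun y => by have := hp y; omega)
  have hθ : θ ≤ N := by
    by_contra hθ
    push Not at hθ
    have h1 := htop θ hθ μ hμ
    have h2 := htop θ hθ μb hμb
    rw [← hv] at *
    rw [h1, h2] at hc
    linarith
  -- truncated sums
  let T : ℕ → ℝ := fun t => ∑ y, if t ≤ p y then μb y * (max (v - cumv p μb (p y)) 0) ^ 2 else 0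
  have hT0 : ∀ t, 0 ≤ T t := by
    intro t
    refine Finset.sum_nonneg fun y _ => ?_
    split_ifs
    · exact mul_nonneg (hμb.1 y) (sq_nonneg _)
    · exact le_rfl
  have hstep : ∀ t, T t = T (t + 1) +
      (cumv p μb (t + 1) - cumv p μb t) * (max (v - cumv p μb t) 0) ^ 2 := by
    intro t
    have h1 : cumv p μb (t + 1) - cumv p μb t
        = ∑ y, μb y * (if p y = t then 1 else 0) := by
      unfold cumv
      rw [← Finset.sum_sub_distrib]
      refine Finset.sum_congr rfl fun y _ => ?_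
      by_cases h : p y = t
      · have h2 : p y < t + 1 := by omega
        have h3 : ¬ p y < t := by omega
        simp [h2, h3, h]
      · by_cases h2 : p y < t
        · have h3 : p y < t + 1 := by omega
          simp [h2, h3, h]
        · have h3 : ¬ p y < t + 1 := by omega
          simp [h2, h3, h]
    rw [h1, Finset.sum_mul]
    show (∑ y, if t ≤ p y then μb y * (max (v - cumv p μb (p y)) 0) ^ 2 else 0) =
      (∑ y, if t + 1 ≤ p y then μb y * (max (v - cumv p μb (p y)) 0) ^ 2 else 0) + _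
    rw [← Finset.sum_add_distrib]
    refine Finset.sum_congr rfl fun y _ => ?_
    by_cases h : p y = t
    · have h2 : t ≤ p y := by omega
      have h3 : ¬ t + 1 ≤ p y := by omega
      simp only [h2, h3, if_true, if_false, h]
      simp
    · by_cases h2 : t + 1 ≤ p y
      · have h3 : t ≤ p y := by omega
        simp [h2, h3, h]
      · have h3 : ¬ t ≤ p y := by omega
        simp [h2, h3, h]
  have hmain : ∀ d t, t + d = N + 1 → (max (v - cumv p μb t) 0) ^ 3 ≤ 3 * T t := by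
    intro d
    induction d with
    | zero =>
      intro t ht
      have h1 : cumv p μb t = 1 := htop t (by omega) μb hμb
      have h2 : v ≤ 1 := cumv_le_one p hμ θ
      rw [h1, max_eq_right (by linarith)]
      have := hT0 t
      norm_num
      linarith
    | succ d ih =>
      intro t ht
      have h1 := ih (t + 1) (by omega)
      have h2 := key_step v (cumv p μb t) (cumv p μb (t + 1)) (cumv_mono p hμb (by omega))
      rw [hstep t]
      linarith
  have h1 := hmain (N + 1 - θ) θ (by omega)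
  rw [max_eq_left hc.le] at h1
  have h2 : T θ ≤ RR p μ μb := by
    refine Finset.sum_le_sum fun y _ => ?_
    by_cases hy : θ ≤ p y
    · simp only [hy, if_true]
      refine mul_le_mul_of_nonneg_left ?_ (hμb.1 y)
      have h3 : v ≤ cumv p μ (p y) := cumv_mono p hμ hy
      by_cases h4 : v - cumv p μb (p y) ≤ 0
      · rw [max_eq_right h4]
        have : (0:ℝ) ^ 2 = 0 := by norm_num
        rw [this]
        exact sq_nonneg _
      · push Not at h4
        rw [max_eq_left h4.le]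
        have h5 : v - cumv p μb (p y) ≤ cumv p μ (p y) - cumv p μb (p y) := by linarith
        exact pow_le_pow_left₀ h4.le h5 2
    · simp only [hy, if_false]
      exact mul_nonneg (hμb.1 y) (sq_nonneg _)
  linarith

/-- The reversed pointer. -/
def revp (N : ℕ) (p : S → ℕ) : S → ℕ := fun y => N - p y

lemma cumv_rev (p : S → ℕ) (N : ℕ) (hp : ∀ y, p y ≤ N) {μ : S → ℝ} (hμ : IsProb μ)
    (θ : ℕ) (hθ : θ ≤ N + 1) :
    cumv (revp N p) μ (N + 1 - θ) = 1 - cumv p μ θ := by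
  have h1 : cumv p μ θ = ∑ y, μ y * (if p y < θ then 1 else 0) := rfl
  have h0 : (1 : ℝ) - cumv p μ θ = ∑ y, (μ y - μ y * (if p y < θ then 1 else 0)) := by
    rw [Finset.sum_sub_distrib, hμ.2, h1]
  rw [h0]
  unfold cumv
  refine Finset.sum_congr rfl fun y _ => ?_
  have := hp y
  unfold revp
  by_cases h : p y < θ
  · have h2 : ¬ N - p y < N + 1 - θ := by omega
    simp [h, h2]
  · have h2 : N - p y < N + 1 - θ := by omega
    simp [h, h2]

/-- The rank inequality. -/
lemma rank_abs (p : S → ℕ) (N : ℕ) (hp : ∀ y, p y ≤ N) {μ μb : S → ℝ}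
    (hμ : IsProb μ) (hμb : IsProb μb) (θ : ℕ) (hθ : θ ≤ N + 1) :
    |cumv p μ θ - cumv p μb θ| ^ 3 ≤ 3 * (RR p μ μb + RR (revp N p) μ μb) := by
  have h0 := RR_nonneg p μ hμb
  have h0' := RR_nonneg (revp N p) μ hμb
  rcases lt_trichotomy (cumv p μ θ - cumv p μb θ) 0 with h | h | h
  · rw [abs_of_neg h]
    have hrevp : ∀ y, revp N p y ≤ N := fun y => Nat.sub_le _ _
    have h1 := cumv_rev p N hp hμ θ hθ
    have h2 := cumv_rev p N hp hμb θ hθ
    have h3 : 0 < cumv (revp N p) μ (N + 1 - θ) - cumv (revp N p) μb (N + 1 - θ) := by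
      rw [h1, h2]; linarith
    have h4 := rank_pos (revp N p) N hrevp hμ hμb (N + 1 - θ) h3
    rw [h1, h2] at h4
    have h5 : (1 - cumv p μ θ - (1 - cumv p μb θ)) = -(cumv p μ θ - cumv p μb θ) := by ring
    rw [h5] at h4
    linarith
  · rw [h]
    norm_num
    linarith
  · rw [abs_of_pos h]
    have h4 := rank_pos p N hp hμ hμb θ h
    linarith

/-- Kolmogorov distance along the pointer `p`, with `p ≤ N`. -/
def KS (N : ℕ) (p : S → ℕ) (μ ν : S → ℝ) : ℝ :=
  (Finset.range (N + 2)).sup' ⟨0, by simp⟩ fun θ => |cumv p μ θ - cumv p ν θ|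

lemma le_KS (N : ℕ) (p : S → ℕ) (μ ν : S → ℝ) {θ : ℕ} (hθ : θ ≤ N + 1) :
    |cumv p μ θ - cumv p ν θ| ≤ KS N p μ ν :=
  Finset.le_sup' (fun θ => |cumv p μ θ - cumv p ν θ|)
    (Finset.mem_range.mpr (by omega))

lemma exists_KS (N : ℕ) (p : S → ℕ) (μ ν : S → ℝ) :
    ∃ θ, θ ≤ N + 1 ∧ KS N p μ ν = |cumv p μ θ - cumv p ν θ| := by
  obtain ⟨θ, hθ, h⟩ := Finset.exists_mem_eq_sup' (s := Finset.range (N + 2)) ⟨0, by simp⟩
    (fun θ => |cumv p μ θ - cumv p ν θ|)
  refine ⟨θ, ?_, h⟩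
  have := Finset.mem_range.mp hθ
  omega

lemma KS_nonneg (N : ℕ) (p : S → ℕ) (μ ν : S → ℝ) : 0 ≤ KS N p μ ν :=
  le_trans (abs_nonneg _) (le_KS N p μ ν (θ := 0) (by omega))

lemma KS_triangle (N : ℕ) (p : S → ℕ) (μ ν ρ : S → ℝ) :
    KS N p μ ν ≤ KS N p μ ρ + KS N p ρ ν := by
  obtain ⟨θ, hθ, h⟩ := exists_KS N p μ ν
  rw [h]
  have h1 := le_KS N p μ ρ hθ
  have h2 := le_KS N p ρ ν hθ
  calc |cumv p μ θ - cumv p ν θ|
      = |(cumv p μ θ - cumv p ρ θ) + (cumv p ρ θ - cumv p ν θ)| := by ring_nf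
    _ ≤ _ := abs_add_le _ _
    _ ≤ _ := add_le_add h1 h2

lemma KS_symm (N : ℕ) (p : S → ℕ) (μ ν : S → ℝ) : KS N p μ ν = KS N p ν μ := by
  unfold KS
  congr 1
  funext θ
  rw [abs_sub_comm]

lemma KS_cube_le (p : S → ℕ) (N : ℕ) (hp : ∀ y, p y ≤ N) {μ μb : S → ℝ}
    (hμ : IsProb μ) (hμb : IsProb μb) :
    KS N p μ μb ^ 3 ≤ 3 * (RR p μ μb + RR (revp N p) μ μb) := by
  obtain ⟨θ, hθ, h⟩ := exists_KS N p μ μb
  rw [h]
  exact rank_abs p N hp hμ hμb θ hθ

end Vale.Agent.Lib.P125
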