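import Vale.Agent.Lib.P125.Moment

/-!
The second moment bound after averaging, the doubling recursion and its solution on the
powers of two.
-/

open Finset

namespace Vale.Agent.Lib.P125

variable {S : Type*} [Fintype S] [DecidableEq S]

/-- sup norm of the displacement of the running sums between `z` and `w` -/
noncomputable def Nm (f : ℕ → S → ℝ) (N : ℕ) (z w : S) : ℝ :=
  nrm N (fun x => Fs f x w - Fs f x z)

/-- mean square of the displacement after `t` steps -/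
noncomputable def D2 (pi : S → ℝ) (P : Matrix S S ℝ) (f : ℕ → S → ℝ) (N t : ℕ) : ℝ :=
  ∑ z, pi z * ∑ w, (P ^ t) z w * (Nm f N z w) ^ 2

/-- mean displacement after `t` steps -/
noncomputable def D1 (pi : S → ℝ) (P : Matrix S S ℝ) (f : ℕ → S → ℝ) (N t : ℕ) : ℝ :=
  ∑ z, pi z * ∑ w, (P ^ t) z w * Nm f N z w

/-- largest second moment at a fixed index, from `z` -/
noncomputable def Sz (P : Matrix S S ℝ) (f : ℕ → S → ℝ) (N m : ℕ) (z : S) : ℝ :=
  nrm N (fun x => ∑ w, (P ^ m) z w * (Fs f x w - Fs f x z) ^ 2)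

lemma stat_sum {pi : S → ℝ} {K : Matrix S S ℝ} (hK : IsRevK pi K) (g : S → ℝ) :
    ∑ z, pi z * ∑ w, K z w * g w = ∑ w, pi w * g w := by
  simp_rw [mul_sum]
  rw [sum_comm]
  refine sum_congr rfl (fun w _ => ?_)
  rw [← hK.stat w, sum_mul]
  exact sum_congr rfl (fun z _ => by ring)

lemma sum_two_mul_le (q : ℕ) : ∑ i ∈ range q, (2 * (i : ℝ)) ≤ (q : ℝ) ^ 2 := by
  induction q with
  | zero => simp
  | succ q ih =>
    rw [sum_range_succ]
    push_cast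
    nlinarith

/-- second moment bound after averaging over the start -/
theorem second_moment {pi : S → ℝ} {P : Matrix S S ℝ} (hP : IsRevK pi P) (hpi0 : ∀ u, 0 ≤ pi u)
    (hpi : ∑ u, pi u = 1) (f : ℕ → S → ℝ) (N : ℕ)
    (hf : ∀ u v, 0 < pi u * P u v → ∑ i ∈ range N, |f i v - f i u| ≤ 1) (j q : ℕ) :
    ∑ z, pi z * Sz P f N (q * j) z
      ≤ (q : ℝ) * (j : ℝ) ^ 2 + (q : ℝ) ^ 2 * j * ∑ w, pi w * Bj P f N j w := by
  set Abar : ℝ := ∑ w, pi w * Bj P f N j w with hAbar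
  have hB0 : ∀ w, 0 ≤ Bj P f N j w := fun w => nrm_nonneg _ _
  have hA0 : 0 ≤ Abar := sum_nonneg (fun w _ => mul_nonneg (hpi0 w) (hB0 w))
  have h1 : ∀ z, pi z * Sz P f N (q * j) z
      ≤ pi z * ((q : ℝ) * (j : ℝ) ^ 2
        + ∑ i ∈ range q, 2 * ((i : ℝ) * j) * ∑ w, (P ^ (i * j)) z w * Bj P f N j w) := by
    intro z
    rcases (hpi0 z).eq_or_lt with h0 | h0
    · rw [← h0]; simp
    refine mul_le_mul_of_nonneg_left (nrm_le (fun x hx => ?_)) (hpi0 z)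
    rw [abs_of_nonneg (sum_nonneg (fun w _ => mul_nonneg ((hP.pow _).nonneg z w) (sq_nonneg _)))]
    exact block_moment hP hpi0 f N hf j h0 hx q
  refine le_trans (sum_le_sum (fun z _ => h1 z)) ?_
  simp_rw [mul_add]
  rw [sum_add_distrib, ← sum_mul, hpi, one_mul]
  have h2 : ∑ z, pi z * ∑ i ∈ range q, 2 * ((i : ℝ) * j) * ∑ w, (P ^ (i * j)) z w * Bj P f N j w
      = ∑ i ∈ range q, 2 * ((i : ℝ) * j) * Abar := by
    calc ∑ z, pi z * ∑ i ∈ range q, 2 * ((i : ℝ) * j) * ∑ w, (P ^ (i * j)) z w * Bj P f N j w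
        = ∑ z, ∑ i ∈ range q, 2 * ((i : ℝ) * j) * (pi z * ∑ w, (P ^ (i * j)) z w * Bj P f N j w) := by
          refine sum_congr rfl (fun z _ => ?_)
          rw [mul_sum]
          exact sum_congr rfl (fun i _ => by ring)
      _ = ∑ i ∈ range q, ∑ z, 2 * ((i : ℝ) * j) * (pi z * ∑ w, (P ^ (i * j)) z w * Bj P f N j w) :=
          sum_comm
      _ = ∑ i ∈ range q, 2 * ((i : ℝ) * j) * Abar := by
          refine sum_congr rfl (fun i _ => ?_)
          rw [← mul_sum, stat_sum (hP.pow (i * j))]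
  rw [h2]
  have h3 : ∑ i ∈ range q, 2 * ((i : ℝ) * j) * Abar
      = (∑ i ∈ range q, (2 * (i : ℝ))) * (j * Abar) := by
    rw [sum_mul]
    exact sum_congr rfl (fun i _ => by ring)
  rw [h3]
  have h4 := sum_two_mul_le q
  have h5 : 0 ≤ (j : ℝ) * Abar := by positivity
  have h6 := mul_le_mul_of_nonneg_right h4 h5
  nlinarith

/-- the doubling recursion -/
theorem D2_double {pi : S → ℝ} {P : Matrix S S ℝ} (hP : IsRevK pi P) (hpi0 : ∀ u, 0 ≤ pi u)
    (hpi : ∑ u, pi u = 1) (f : ℕ → S → ℝ) (N : ℕ)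
    (hf : ∀ u v, 0 < pi u * P u v → ∑ i ∈ range N, |f i v - f i u| ≤ 1)
    (m : ℕ) {lam : ℝ} (hlam : 0 < lam) :
    D2 pi P f N (m + m) ≤ (31 / 8) * D2 pi P f N m
      + (1 / 8) * (lam ^ 2 + 288 * m * (∑ z, pi z * Sz P f N m z) / lam) := by
  have hPm := hP.pow m
  -- rewrite through the midpoint
  have h1 : D2 pi P f N (m + m)
      = ∑ z, pi z * ∑ w, ∑ u, (P ^ m) z w * (P ^ m) z u * (Nm f N u w) ^ 2 := by
    unfold D2
    simp_rw [pow_add, Matrix.mul_apply, sum_mul, mul_sum]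
    calc ∑ u, ∑ w, ∑ z, pi u * ((P ^ m) u z * (P ^ m) z w * (Nm f N u w) ^ 2)
        = ∑ u, ∑ w, ∑ z, pi z * ((P ^ m) z w * (P ^ m) z u * (Nm f N u w) ^ 2) := by
          refine sum_congr rfl (fun u _ => sum_congr rfl (fun w _ => sum_congr rfl (fun z _ => ?_)))
          have := hPm.rev u z
          calc pi u * ((P ^ m) u z * (P ^ m) z w * (Nm f N u w) ^ 2)
              = (pi u * (P ^ m) u z) * ((P ^ m) z w * (Nm f N u w) ^ 2) := by ring
            _ = (pi z * (P ^ m) z u) * ((P ^ m) z w * (Nm f N u w) ^ 2) := by rw [this]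
            _ = _ := by ring
      _ = ∑ u, ∑ z, ∑ w, pi z * ((P ^ m) z w * (P ^ m) z u * (Nm f N u w) ^ 2) :=
          sum_congr rfl (fun u _ => sum_comm)
      _ = ∑ z, ∑ u, ∑ w, pi z * ((P ^ m) z w * (P ^ m) z u * (Nm f N u w) ^ 2) := sum_comm
      _ = ∑ z, ∑ w, ∑ u, pi z * ((P ^ m) z w * (P ^ m) z u * (Nm f N u w) ^ 2) :=
          sum_congr rfl (fun z _ => sum_comm)
  rw [h1]
  have h2 : ∀ z, pi z * ∑ w, ∑ u, (P ^ m) z w * (P ^ m) z u * (Nm f N u w) ^ 2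
      ≤ pi z * ((31 / 8) * ∑ w, (P ^ m) z w * (Nm f N z w) ^ 2
        + (1 / 8) * (lam ^ 2 + 288 * m * Sz P f N m z / lam)) := by
    intro z
    rcases (hpi0 z).eq_or_lt with h0 | h0
    · rw [← h0]; simp
    refine mul_le_mul_of_nonneg_left ?_ (hpi0 z)
    have hab := doubling_abstract (fun w => (P ^ m) z w) (fun w => hPm.nonneg z w) (hPm.sum_one z) N
      (fun w x => Fs f x w - Fs f x z) (m : ℝ)
      (fun w _ => by simp)
      (fun w hw => by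
        have h3 := path_lip hP hpi0 f N hf m h0 hw
        refine le_trans (le_of_eq ?_) h3
        unfold tv
        refine sum_congr rfl (fun i _ => ?_)
        congr 1
        show (Fs f (i + 1) w - Fs f (i + 1) z) - (Fs f i w - Fs f i z) = f i w - f i z
        rw [Fs_succ, Fs_succ]
        ring)
      (Sz P f N m z)
      (fun x hx => le_trans (le_abs_self _)
        (le_nrm N (fun x => ∑ w, (P ^ m) z w * (Fs f x w - Fs f x z) ^ 2) hx))
      lam hlam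
    refine le_trans (le_of_eq ?_) (le_trans hab (le_of_eq ?_))
    · refine sum_congr rfl (fun w _ => sum_congr rfl (fun u _ => ?_))
      unfold Nm
      congr 3
      funext x
      ring
    · rfl
  refine le_trans (sum_le_sum (fun z _ => h2 z)) (le_of_eq ?_)
  unfold D2
  have h3 : ∀ z, pi z * ((31 / 8) * ∑ w, (P ^ m) z w * (Nm f N z w) ^ 2
        + (1 / 8) * (lam ^ 2 + 288 * m * Sz P f N m z / lam))
      = (31 / 8) * (pi z * ∑ w, (P ^ m) z w * (Nm f N z w) ^ 2) + (1 / 8 * lam ^ 2) * pi z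
        + (1 / 8 * (288 * m / lam)) * (pi z * Sz P f N m z) := by
    intro z
    field_simp
    ring
  simp_rw [h3]
  rw [sum_add_distrib, sum_add_distrib, ← mul_sum, ← mul_sum, ← mul_sum, hpi]
  field_simp
  ring

/-- one step displacement bound on the support, at time `t` -/
lemma Nm_le {pi : S → ℝ} {P : Matrix S S ℝ} (hP : IsRevK pi P) (hpi0 : ∀ u, 0 ≤ pi u)
    (f : ℕ → S → ℝ) (N : ℕ)
    (hf : ∀ u v, 0 < pi u * P u v → ∑ i ∈ range N, |f i v - f i u| ≤ 1)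
    (t : ℕ) {z w : S} (hz : 0 < pi z) (h : 0 < (P ^ t) z w) : Nm f N z w ≤ t :=
  nrm_le (fun _ hx => le_trans (abs_Fs_sub_le f hx w z) (path_lip hP hpi0 f N hf t hz h))

lemma D2_one_le {pi : S → ℝ} {P : Matrix S S ℝ} (hP : IsRevK pi P) (hpi0 : ∀ u, 0 ≤ pi u)
    (hpi : ∑ u, pi u = 1) (f : ℕ → S → ℝ) (N : ℕ)
    (hf : ∀ u v, 0 < pi u * P u v → ∑ i ∈ range N, |f i v - f i u| ≤ 1) :
    D2 pi P f N 1 ≤ 1 := by
  have hP1 := hP.pow 1
  have h1 : ∀ z, pi z * ∑ w, (P ^ 1) z w * (Nm f N z w) ^ 2 ≤ pi z := by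
    intro z
    rcases (hpi0 z).eq_or_lt with h0 | h0
    · rw [← h0]; simp
    have h2 : ∑ w, (P ^ 1) z w * (Nm f N z w) ^ 2 ≤ ∑ w, (P ^ 1) z w := by
      refine sum_le_sum (fun w _ => ?_)
      rcases (hP1.nonneg z w).eq_or_lt with h3 | h3
      · rw [← h3]; simp
      have h4 := Nm_le hP hpi0 f N hf 1 h0 h3
      have h5 : 0 ≤ Nm f N z w := nrm_nonneg _ _
      have h6 : (Nm f N z w) ^ 2 ≤ 1 := by
        push_cast at h4
        nlinarith
      nlinarith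
    rw [hP1.sum_one, ] at h2
    nlinarith
  unfold D2
  calc _ ≤ ∑ z, pi z := sum_le_sum (fun z _ => h1 z)
    _ = 1 := hpi

/-- the second moment on the dyadic scale -/
theorem Sbar_pow2 {pi : S → ℝ} {P : Matrix S S ℝ} (hP : IsRevK pi P) (hpi0 : ∀ u, 0 ≤ pi u)
    (hpi : ∑ u, pi u = 1) (f : ℕ → S → ℝ) (N : ℕ)
    (hf : ∀ u v, 0 < pi u * P u v → ∑ i ∈ range N, |f i v - f i u| ≤ 1) (n : ℕ) :
    ∑ z, pi z * Sz P f N (2 ^ n) z ≤ 29 * (4 : ℝ) ^ n * (9 / 10 : ℝ) ^ n := by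
  set i : ℕ := n / 2 with hi
  have hin : i ≤ n := Nat.div_le_self n 2
  have hn : n ≤ 2 * i + 1 := by omega
  have hin' : i ≤ n - i := by omega
  have hexp : 2 ^ (n - i) * 2 ^ i = 2 ^ n := by
    rw [← pow_add]; congr 1; omega
  set δ : ℝ := (4 / 5 : ℝ) ^ i with hδdef
  have hδ : 0 < δ := by positivity
  have hJ : (1 : ℕ) ≤ 2 ^ i := Nat.one_le_two_pow
  have h1 := second_moment hP hpi0 hpi f N hf (2 ^ i) (2 ^ (n - i))
  rw [hexp] at h1
  have h2 := drift_sup hP hpi0 hpi f N hf hJ hδ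
  push_cast at h1 h2
  set Q : ℝ := (2 : ℝ) ^ (n - i) with hQ
  set J : ℝ := (2 : ℝ) ^ i with hJdef
  have hQJ : Q * J = (2 : ℝ) ^ n := by
    rw [hQ, hJdef, ← pow_add]; congr 1; omega
  have hQJ2 : (Q * J) ^ 2 = (4 : ℝ) ^ n := by
    rw [hQJ, ← pow_mul, mul_comm n 2, pow_mul]; norm_num
  have hQ0 : 0 < Q := by positivity
  have hJ0 : 0 < J := by positivity
  -- three elementary comparisons
  have c1 : 1 ≤ Q * δ := by
    have : (1 : ℝ) ≤ (2 : ℝ) ^ i * (4 / 5 : ℝ) ^ i := by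
      rw [← mul_pow]
      exact one_le_pow₀ (by norm_num)
    have h3 : (2 : ℝ) ^ i ≤ Q := pow_le_pow_right₀ (by norm_num) hin'
    calc (1 : ℝ) ≤ (2 : ℝ) ^ i * δ := this
      _ ≤ Q * δ := mul_le_mul_of_nonneg_right h3 hδ.le
  have c2 : 1 ≤ J * δ ^ 3 := by
    rw [hJdef, hδdef, ← pow_mul, mul_comm i 3, pow_mul, ← mul_pow]
    exact one_le_pow₀ (by norm_num)
  have hA : ∑ w, pi w * Bj P f N (2 ^ i) w ≤ J * δ + 24 / δ ^ 2 := h2
  have h3 : Q * J ^ 2 ≤ (Q * J) ^ 2 * δ := by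
    have : (Q * J) ^ 2 * δ = Q * J ^ 2 * (Q * δ) := by ring
    rw [this]
    have h4 : 0 ≤ Q * J ^ 2 := by positivity
    nlinarith
  have h5 : Q ^ 2 * J * (24 / δ ^ 2) ≤ (Q * J) ^ 2 * (24 * δ) := by
    have h6 : (Q * J) ^ 2 * (24 * δ) = Q ^ 2 * J * (24 / δ ^ 2) * (J * δ ^ 3) := by
      field_simp
    rw [h6]
    have h7 : 0 ≤ Q ^ 2 * J * (24 / δ ^ 2) := by positivity
    nlinarith
  have h8 : Q ^ 2 * J * (J * δ) = (Q * J) ^ 2 * δ := by ring
  have h9 : ∑ z, pi z * Sz P f N (2 ^ n) z ≤ (4 : ℝ) ^ n * (26 * δ) := by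
    have h10 : Q ^ 2 * J * ∑ w, pi w * Bj P f N (2 ^ i) w ≤ Q ^ 2 * J * (J * δ + 24 / δ ^ 2) :=
      mul_le_mul_of_nonneg_left hA (by positivity)
    rw [← hQJ2]
    have h11 : Q ^ 2 * J * (J * δ + 24 / δ ^ 2) = Q ^ 2 * J * (J * δ) + Q ^ 2 * J * (24 / δ ^ 2) := by
      ring
    nlinarith
  -- compare with the target
  have h12 : δ ≤ (10 / 9 : ℝ) * (9 / 10 : ℝ) ^ n := by
    have h13 : δ ≤ (81 / 100 : ℝ) ^ i :=
      pow_le_pow_left₀ (by norm_num) (by norm_num) i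
    have h14 : (81 / 100 : ℝ) ^ i = (9 / 10 : ℝ) ^ (2 * i) := by
      rw [pow_mul]; norm_num
    have h15 : (9 / 10 : ℝ) ^ (2 * i + 1) ≤ (9 / 10 : ℝ) ^ n :=
      pow_le_pow_of_le_one (by norm_num) (by norm_num) hn
    rw [pow_succ] at h15
    nlinarith
  have h16 : (0 : ℝ) < 4 ^ n := by positivity
  have h17 : (0 : ℝ) < (9 / 10 : ℝ) ^ n := by positivity
  calc ∑ z, pi z * Sz P f N (2 ^ n) z ≤ (4 : ℝ) ^ n * (26 * δ) := h9
    _ ≤ (4 : ℝ) ^ n * (26 * ((10 / 9 : ℝ) * (9 / 10 : ℝ) ^ n)) := by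
        refine mul_le_mul_of_nonneg_left ?_ h16.le
        linarith
    _ ≤ 29 * (4 : ℝ) ^ n * (9 / 10 : ℝ) ^ n := by
        have : 0 < (4 : ℝ) ^ n * (9 / 10 : ℝ) ^ n := by positivity
        nlinarith

/-- the solved recursion -/
theorem D2_pow2 {pi : S → ℝ} {P : Matrix S S ℝ} (hP : IsRevK pi P) (hpi0 : ∀ u, 0 ≤ pi u)
    (hpi : ∑ u, pi u = 1) (f : ℕ → S → ℝ) (N : ℕ)
    (hf : ∀ u v, 0 < pi u * P u v → ∑ i ∈ range N, |f i v - f i u| ≤ 1) (n : ℕ) :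
    D2 pi P f N (2 ^ n) ≤ 210000 * (97 / 25 : ℝ) ^ n := by
  induction n with
  | zero =>
    have := D2_one_le hP hpi0 hpi f N hf
    norm_num
    linarith
  | succ n ih =>
    have e : 2 ^ (n + 1) = 2 ^ n + 2 ^ n := by ring
    rw [e]
    set lam : ℝ := (2 : ℝ) ^ n * (19 / 20 : ℝ) ^ n with hlam
    have hlam0 : 0 < lam := by positivity
    have h1 := D2_double hP hpi0 hpi f N hf (2 ^ n) hlam0
    have h2 := Sbar_pow2 hP hpi0 hpi f N hf n
    push_cast at h1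
    have h3 : lam ^ 2 ≤ (72 / 19 : ℝ) ^ n := by
      have : lam ^ 2 = (361 / 100 : ℝ) ^ n := by
        rw [hlam, mul_pow, ← pow_mul, ← pow_mul, mul_comm n 2, pow_mul, pow_mul, ← mul_pow]
        norm_num
      rw [this]
      exact pow_le_pow_left₀ (by norm_num) (by norm_num) n
    have h4 : 288 * (2 : ℝ) ^ n * (∑ z, pi z * Sz P f N (2 ^ n) z) / lam
        ≤ 8352 * (72 / 19 : ℝ) ^ n := by
      rw [div_le_iff₀ hlam0]
      have h5 : 288 * (2 : ℝ) ^ n * (∑ z, pi z * Sz P f N (2 ^ n) z)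
          ≤ 288 * (2 : ℝ) ^ n * (29 * (4 : ℝ) ^ n * (9 / 10 : ℝ) ^ n) :=
        mul_le_mul_of_nonneg_left h2 (by positivity)
      refine le_trans h5 (le_of_eq ?_)
      have h6 : (72 / 19 : ℝ) ^ n * (19 / 20 : ℝ) ^ n = (4 : ℝ) ^ n * (9 / 10 : ℝ) ^ n := by
        rw [← mul_pow, ← mul_pow]
        norm_num
      rw [hlam]
      calc _ = 8352 * (2 : ℝ) ^ n * ((4 : ℝ) ^ n * (9 / 10 : ℝ) ^ n) := by ring
        _ = 8352 * (2 : ℝ) ^ n * ((72 / 19 : ℝ) ^ n * (19 / 20 : ℝ) ^ n) := by rw [h6]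
        _ = _ := by ring
    have h7 : (72 / 19 : ℝ) ^ n ≤ (97 / 25 : ℝ) ^ n :=
      pow_le_pow_left₀ (by norm_num) (by norm_num) n
    have h8 : (0 : ℝ) < (97 / 25 : ℝ) ^ n := by positivity
    rw [pow_succ]
    nlinarith

end Vale.Agent.Lib.P125
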